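import Vale.Agent.Lib.P072.All.Value

/-!
# Coordinates at a maximizer are close to the slopes
-/

namespace Vale.Agent.Lib.P072.All

open Finset Real

variable {d : ℕ} {Y : Sys d}

lemma path_split {s' : St} (hs' : s' ∈ Paths Y) {i : ℕ} (hi : i < d) :
    ∃ (s₁ : St) (k : ℕ), Rch Y i s₁ ∧ k ≤ (tileOf Y i s₁).m ∧
      s' ∈ desc Y (i + 1) (d - i - 1) (child Y i s₁ k) := by
  have h0 : d = i + ((d - i - 1) + 1) := by omega
  have h1 : s' ∈ desc Y 0 (i + ((d - i - 1) + 1)) rootSt := by
    rw [← h0]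
    exact hs'
  obtain ⟨s₁, h2, h3⟩ := desc_split Y i h1
  rw [zero_add] at h3
  obtain ⟨k, hk, h4⟩ := (mem_desc_succ Y).mp h3
  exact ⟨s₁, k, h2, hk, h4⟩

/-- The path slopes decrease. -/
lemma path_anti {s' : St} (hs' : s' ∈ Paths Y) {i : ℕ} (hi : i + 1 < d) : s'.ν (i + 1) ≤ s'.ν i := by
  obtain ⟨s₁, k, hR, hk, h4⟩ := path_split hs' hi
  have hν := desc_ν Y _ h4 (i + 1) (by omega)
  simp only [child, Function.update_self] at hν
  have hν2 := desc_ν Y _ h4 i (by omega)
  simp only [child] at hν2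
  rw [Function.update_of_ne (by omega)] at hν2
  rw [hν, hν2]
  have hspec := tile_spec Y (by omega) hi hR
  have := Tile.t_anti hspec.chain hspec.w_half (Nat.zero_le k) hk
  rw [hspec.t_zero] at this
  simpa using this

lemma path_anti' {s' : St} (hs' : s' ∈ Paths Y) {i j : ℕ} (hij : i ≤ j) (hj : j < d) :
    s'.ν j ≤ s'.ν i := by
  induction j, hij using Nat.le_induction with
  | base => exact le_refl _
  | succ j hij ih =>
    exact (path_anti hs' hj).trans (ih (by omega))

/-- The coordinates at a maximizer are close to the slopes. -/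
theorem box_bounds {S L : ℝ} (hS : SlopeBd Y S) (hL1 : 1 ≤ L) (hsmall : d * S * exp (-L) ≤ 1 / 2)
    (hLd : log (2 * d) ≤ L) {x : ℕ → ℝ} (hpos : ∀ i < d, 0 < x i)
    (hanti : ∀ i j, i ≤ j → j < d → x j ≤ x i)
    (hlow : ∀ i < d, -(L * (bstar Y + 1)) ≤ log (x i))
    (hup : ∀ i < d, log (x i) ≤ L * (Y.K 0 + 1))
    {s' : St} (hs' : s' ∈ Paths Y) (hmax : ∀ s'' ∈ Paths Y, V d L x s'' ≤ V d L x s') :
    ∀ i < d, L * (s'.ν i - s'.A - 1) ≤ log (x i) ∧ log (x i) ≤ L * (s'.ν i + s'.A + 1) := by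
  have hL0 : 0 ≤ L := by linarith
  have hx0 : ∀ i < d, 0 ≤ x i := fun i hi => (hpos i hi).le
  have hA1 : 1 ≤ s'.A := (Rch_inv Y d s' le_rfl hs').2
  have hupper : ∀ i, i < d → log (x i) ≤ L * (s'.ν i + s'.A + 1) := by
    intro i
    induction i using Nat.strong_induction_on with
    | _ i ih =>
      intro hi
      obtain ⟨s₁, k, hR, hk, h4⟩ := path_split hs' hi
      have hν : s'.ν i = (tileOf Y i s₁).t k := by
        have := desc_ν Y _ h4 i (by omega)
        simpa [child] using this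
      have hwA : (tileOf Y i s₁).w k ≤ s'.A :=
        le_trans (le_max_right _ _) (desc_A Y _ h4)
      cases k with
      | zero =>
        rcases Nat.eq_zero_or_pos i with rfl | hi1
        · have hT : tileOf Y 0 s₁ = rootT Y := by simp [tileOf]
          rw [hT] at hν
          obtain ⟨_, h2, _⟩ := root_spec Y hi
          rw [hν, h2]
          have := hup 0 hi
          nlinarith
        · have hspec := tile_spec Y hi1 hi hR
          have h5 : s'.ν (i - 1) = s₁.ν (i - 1) := by
            have := desc_ν Y _ h4 (i - 1) (by omega)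
            simp only [child] at this
            rw [Function.update_of_ne (by omega)] at this
            exact this
          have h6 : s'.ν i = s'.ν (i - 1) := by
            rw [hν, hspec.t_zero, h5]
          have h7 := ih (i - 1) (by omega) (by omega)
          have h8 : log (x i) ≤ log (x (i - 1)) :=
            log_le_log (hpos i hi) (hanti _ _ (by omega) hi)
          rw [h6]
          linarith
      | succ k =>
        have hup2 := tail_up hS hL0 hx0 hi hR hk h4 hmax
        have hsum : x i ≤ ∑ j ∈ Ico i d, x j :=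
          single_le_sum (f := x) (fun j hj => hx0 j (mem_Ico.mp hj).2) (mem_Ico.mpr ⟨le_rfl, hi⟩)
        set E := exp (L * ((tileOf Y i s₁).t (k + 1) + (tileOf Y i s₁).w (k + 1))) with hE
        have hEpos : 0 < E := exp_pos _
        have h3 : x i ≤ E * (3 / 2) := by
          refine hsum.trans (hup2.trans ?_)
          apply mul_le_mul_of_nonneg_left _ hEpos.le
          linarith
        have h5 : log (x i) ≤ log (E * (3 / 2)) := log_le_log (hpos i hi) h3
        rw [log_mul hEpos.ne' (by norm_num), hE, log_exp] at h5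
        have h6 : log (3 / 2 : ℝ) ≤ 1 := by
          have := log_le_sub_one_of_pos (by norm_num : (0 : ℝ) < 3 / 2)
          linarith
        rw [hν]
        nlinarith
  intro i hi
  refine ⟨?_, hupper i hi⟩
  obtain ⟨s₁, k, hR, hk, h4⟩ := path_split hs' hi
  have hν : s'.ν i = (tileOf Y i s₁).t k := by
    have := desc_ν Y _ h4 i (by omega)
    simpa [child] using this
  have hwA : (tileOf Y i s₁).w k ≤ s'.A :=
    le_trans (le_max_right _ _) (desc_A Y _ h4)
  obtain ⟨hc, hw, hbot⟩ := tile_chain Y hi hR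
  by_cases hkm : k < (tileOf Y i s₁).m
  · have hd2 := tail_down hS hL0 hx0 hi hR hkm h4 hmax
    set E := exp (L * ((tileOf Y i s₁).t k - (tileOf Y i s₁).w k)) with hE
    have hEpos : 0 < E := exp_pos _
    have h3 : E * (1 / 2) ≤ ∑ j ∈ Ico i d, x j := by
      refine le_trans ?_ hd2
      apply mul_le_mul_of_nonneg_left _ hEpos.le
      linarith
    have h5 : ∑ j ∈ Ico i d, x j ≤ d * x i := by
      have h6 : ∑ j ∈ Ico i d, x j ≤ (Ico i d).card • x i :=
        sum_le_card_nsmul _ _ _ (fun j hj => hanti i j (mem_Ico.mp hj).1 (mem_Ico.mp hj).2)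
      rw [nsmul_eq_mul] at h6
      have h7 : ((Ico i d).card : ℝ) ≤ d := by
        rw [Nat.card_Ico]
        exact_mod_cast Nat.sub_le _ _
      exact h6.trans (mul_le_mul_of_nonneg_right h7 (hx0 i hi))
    have hdpos : (0 : ℝ) < d := by
      have : 0 < d := by omega
      exact_mod_cast this
    have h8 : E ≤ (2 * d) * x i := by nlinarith
    have h9 : log E ≤ log (2 * d) + log (x i) := by
      have := log_le_log hEpos h8
      rwa [log_mul (by positivity) (hpos i hi).ne'] at this
    rw [hE, log_exp] at h9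
    rw [hν]
    nlinarith
  · have hk' : k = (tileOf Y i s₁).m := by omega
    have h5 := hlow i hi
    rw [hν]
    rw [hk'] at hwA ⊢
    have h6 : (tileOf Y i s₁).t (tileOf Y i s₁).m - s'.A - 1 ≤ -(bstar Y + 1) := by linarith
    have := mul_le_mul_of_nonneg_left h6 hL0
    linarith

/-- The sign property at a maximizer. -/
theorem sign_of_box {S L : ℝ} (hS : SlopeBd Y S) (hL1 : 1 ≤ L) (hsmall : d * S * exp (-L) ≤ 1 / 2)
    (hLd : log (2 * d) ≤ L) {x : ℕ → ℝ} (hpos : ∀ i < d, 0 < x i)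
    (hanti : ∀ i j, i ≤ j → j < d → x j ≤ x i)
    (hlow : ∀ i < d, -(L * (bstar Y + 1)) ≤ log (x i))
    (hup : ∀ i < d, log (x i) ≤ L * (Y.K 0 + 1))
    {s' : St} (hs' : s' ∈ Paths Y) (hmax : ∀ s'' ∈ Paths Y, V d L x s'' ≤ V d L x s')
    {u : ℕ → ℤ} (hu : u ∈ Y.D d) (hM : 2 * ∑ i ∈ range d, |(u i : ℝ)| + 1 ≤ Y.M d)
    (hz : 0 < zz u s'.ν d) : L ≤ ∑ i ∈ range d, (u i : ℝ) * log (x i) := by
  have hbox := box_bounds hS hL1 hsmall hLd hpos hanti hlow hup hs' hmax
  obtain ⟨hC, hA1⟩ := Rch_inv Y d s' le_rfl hs'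
  have hbig := (hC u hu).resolve_left hz.ne'
  rw [abs_of_pos hz] at hbig
  set A := s'.A with hAdef
  set nn := ∑ i ∈ range d, |(u i : ℝ)| with hnn
  have hL0 : 0 ≤ L := by linarith
  have hterm : ∀ i ∈ range d, (u i : ℝ) * (L * s'.ν i) - |(u i : ℝ)| * (L * (A + 1))
      ≤ (u i : ℝ) * log (x i) := by
    intro i hi
    obtain ⟨h1, h2⟩ := hbox i (mem_range.mp hi)
    have h3 : |log (x i) - L * s'.ν i| ≤ L * (A + 1) := by
      rw [abs_le]
      constructor <;> nlinarith
    have h4 : |(u i : ℝ) * (log (x i) - L * s'.ν i)| ≤ |(u i : ℝ)| * (L * (A + 1)) := by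
      rw [abs_mul]
      exact mul_le_mul_of_nonneg_left h3 (abs_nonneg _)
    have h5 := (abs_le.mp h4).1
    nlinarith
  have hsum := sum_le_sum hterm
  rw [sum_sub_distrib, ← sum_mul] at hsum
  have h6 : ∑ i ∈ range d, (u i : ℝ) * (L * s'.ν i) = L * zz u s'.ν d := by
    unfold zz
    rw [mul_sum]
    apply sum_congr rfl
    intro i _
    ring
  rw [h6] at hsum
  have hnn0 : 0 ≤ nn := sum_nonneg (fun _ _ => abs_nonneg _)
  have h7 : L * (Y.M d * A) ≤ L * zz u s'.ν d := mul_le_mul_of_nonneg_left hbig hL0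
  have h8 : (2 * nn + 1) * A ≤ Y.M d * A := mul_le_mul_of_nonneg_right hM (by linarith)
  have h9 : L * ((2 * nn + 1) * A) ≤ L * (Y.M d * A) := mul_le_mul_of_nonneg_left h8 hL0
  have h10 : nn * (L * (A + 1)) ≤ nn * (L * (2 * A)) := by
    apply mul_le_mul_of_nonneg_left _ hnn0
    apply mul_le_mul_of_nonneg_left _ hL0
    linarith
  have h11 : L * 1 ≤ L * A := mul_le_mul_of_nonneg_left hA1 hL0
  nlinarith

end Vale.Agent.Lib.P072.All
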