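import Vale.Agent.Lib.P072.All.CarFlow

/-! Solutions in the sense of Caratheodory for measurable rates: the integral equation. -/

namespace Vale.Agent.Lib.P072

open Finset Real Set Filter Topology MeasureTheory
open scoped NNReal

variable {d : ℕ} {R : Finset (Cx d × Cx d)} {ε : ℝ}

/-- A solution in the sense of Caratheodory on `[0, T)` with rates `k t r`: a continuous curve
which satisfies the integral form of the mass-action system. -/
structure IsCarSolution (R : Finset (Cx d × Cx d)) (k : ℝ → Cx d × Cx d → ℝ) (T : ℝ)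
    (x : ℝ → Fin d → ℝ) : Prop where
  cont : ContinuousOn x (Ico 0 T)
  eqn : ∀ t ∈ Ico 0 T, ∀ i, x t i = x 0 i + ∫ s in (0 : ℝ)..t, massAction R (k s) (x s) i

section Regularity

variable {k : ℝ → Cx d × Cx d → ℝ}

lemma rate_intervalIntegrable (hε : 0 < ε) (hkm : ∀ r, Measurable fun t => k t r)
    (hk : ∀ t r, ε ≤ k t r ∧ k t r ≤ ε⁻¹) (r : Cx d × Cx d) (a b : ℝ) :
    IntervalIntegrable (fun t => k t r) volume a b := by
  rw [intervalIntegrable_iff]
  refine Measure.integrableOn_of_bounded (M := ε⁻¹) (by simp) (hkm r).aestronglyMeasurable ?_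
  filter_upwards with t
  rw [Real.norm_eq_abs, abs_of_pos (lt_of_lt_of_le hε (hk t r).1)]
  exact (hk t r).2

lemma mono_continuousOn {x : ℝ → Fin d → ℝ} {S : Set ℝ} (hx : ContinuousOn x S) (y : Cx d) :
    ContinuousOn (fun s => mono (x s) y) S :=
  (contDiff_mono y).continuous.comp_continuousOn hx

/-- The term of a reaction is integrable. -/
lemma term_intervalIntegrable (hε : 0 < ε) (hkm : ∀ r, Measurable fun t => k t r)
    (hk : ∀ t r, ε ≤ k t r ∧ k t r ≤ ε⁻¹) {x : ℝ → Fin d → ℝ} {a b : ℝ}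
    (hx : ContinuousOn x (uIcc a b)) (r : Cx d × Cx d) :
    IntervalIntegrable (fun s => k s r * mono (x s) r.1) volume a b :=
  (rate_intervalIntegrable hε hkm hk r a b).mul_continuousOn (mono_continuousOn hx r.1)

lemma field_intervalIntegrable (hε : 0 < ε) (hkm : ∀ r, Measurable fun t => k t r)
    (hk : ∀ t r, ε ≤ k t r ∧ k t r ≤ ε⁻¹) {x : ℝ → Fin d → ℝ} {a b : ℝ}
    (hx : ContinuousOn x (uIcc a b)) (i : Fin d) :
    IntervalIntegrable (fun s => massAction R (k s) (x s) i) volume a b := by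
  unfold massAction
  have h : (fun s => ∑ r ∈ R, k s r * mono (x s) r.1 * rxnVec r i)
      = ∑ r ∈ R, fun s => k s r * mono (x s) r.1 * rxnVec r i := by
    funext s
    simp
  rw [h]
  apply IntervalIntegrable.sum
  intro r _
  exact (term_intervalIntegrable hε hkm hk hx r).mul_const _

/-- A bound of the field along a curve on a compact interval. -/
lemma field_bound (hε : 0 < ε) (hk : ∀ t r, ε ≤ k t r ∧ k t r ≤ ε⁻¹) {x : ℝ → Fin d → ℝ}
    {a b : ℝ} (hx : ContinuousOn x (Icc a b)) :
    ∃ M : ℝ, 0 ≤ M ∧ ∀ s ∈ Icc a b, ∀ i, |massAction R (k s) (x s) i| ≤ M := by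
  have hc : ContinuousOn (fun s => ∑ r ∈ R, |mono (x s) r.1|) (Icc a b) := by
    apply continuousOn_finset_sum
    intro r _
    exact (mono_continuousOn hx r.1).abs
  obtain ⟨C, hC⟩ := isCompact_Icc.exists_bound_of_continuousOn hc
  set A : ℝ := ∑ r ∈ R, ∑ i, |rxnVec r i| with hA
  have hA0 : 0 ≤ A := sum_nonneg (fun _ _ => sum_nonneg (fun _ _ => abs_nonneg _))
  have hε' : 0 < ε⁻¹ := inv_pos.mpr hε
  refine ⟨ε⁻¹ * (|C| * A), by positivity, ?_⟩
  intro s hs i
  unfold massAction
  have h1 : ∑ r ∈ R, |mono (x s) r.1| ≤ |C| := by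
    have h2 := hC s hs
    rw [Real.norm_eq_abs] at h2
    exact (le_abs_self _).trans (h2.trans (le_abs_self _))
  have h3 : ∀ r ∈ R, |k s r * mono (x s) r.1 * rxnVec r i| ≤ ε⁻¹ * (|mono (x s) r.1| * A) := by
    intro r hr
    rw [abs_mul, abs_mul, abs_of_pos (lt_of_lt_of_le hε (hk s r).1)]
    have h4 : |rxnVec r i| ≤ A := by
      have h5 : |rxnVec r i| ≤ ∑ i, |rxnVec r i| :=
        single_le_sum (f := fun i => |rxnVec r i|) (fun _ _ => abs_nonneg _) (mem_univ i)
      have h6 : ∑ i, |rxnVec r i| ≤ A :=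
        single_le_sum (f := fun r => ∑ i, |rxnVec r i|)
          (fun _ _ => sum_nonneg (fun _ _ => abs_nonneg _)) hr
      linarith
    calc k s r * |mono (x s) r.1| * |rxnVec r i|
        ≤ ε⁻¹ * |mono (x s) r.1| * A := by
          apply mul_le_mul _ h4 (abs_nonneg _) (by positivity)
          exact mul_le_mul_of_nonneg_right (hk s r).2 (abs_nonneg _)
      _ = ε⁻¹ * (|mono (x s) r.1| * A) := by ring
  calc |∑ r ∈ R, k s r * mono (x s) r.1 * rxnVec r i|
      ≤ ∑ r ∈ R, |k s r * mono (x s) r.1 * rxnVec r i| := abs_sum_le_sum_abs _ _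
    _ ≤ ∑ r ∈ R, ε⁻¹ * (|mono (x s) r.1| * A) := sum_le_sum h3
    _ = ε⁻¹ * ((∑ r ∈ R, |mono (x s) r.1|) * A) := by
        rw [← mul_sum, sum_mul]
    _ ≤ ε⁻¹ * (|C| * A) := by
        apply mul_le_mul_of_nonneg_left _ hε'.le
        exact mul_le_mul_of_nonneg_right h1 hA0

/-- A positive solution in the sense of Caratheodory for measurable bounded rates is locally
Lipschitz, satisfies the equation almost everywhere and stays in its class. -/
theorem IsCarSolution.toAe (hε : 0 < ε) (hkm : ∀ r, Measurable fun t => k t r)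
    (hk : ∀ t r, ε ≤ k t r ∧ k t r ≤ ε⁻¹) {T : ℝ} {x : ℝ → Fin d → ℝ}
    (hsol : IsCarSolution R k T x) (hpos : ∀ t ∈ Ico 0 T, ∀ i, 0 < x t i) :
    IsAeSolution R k T x := by
  have hcI : ∀ t, t ∈ Ico 0 T → ContinuousOn x (uIcc 0 t) := fun t ht =>
    hsol.cont.mono (by
      rw [uIcc_of_le ht.1]
      exact fun s hs => ⟨hs.1, lt_of_le_of_lt hs.2 ht.2⟩)
  have hint : ∀ t, t ∈ Ico 0 T → ∀ i, IntervalIntegrable
      (fun s => massAction R (k s) (x s) i) volume 0 t := fun t ht i =>
    field_intervalIntegrable hε hkm hk (hcI t ht) i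
  refine ⟨hpos, hsol.cont, ?_, ?_, ?_⟩
  · -- locally Lipschitz
    intro T' hT'
    by_cases h0 : 0 ≤ T'
    swap
    · refine ⟨0, ?_⟩
      have : Icc 0 T' = ∅ := Icc_eq_empty h0
      rw [this]
      exact lipschitzOnWith_empty 0 x
    have hsub : Icc 0 T' ⊆ Ico 0 T := fun s hs => ⟨hs.1, lt_of_le_of_lt hs.2 hT'⟩
    obtain ⟨M, hM0, hM⟩ := field_bound (R := R) hε hk (hsol.cont.mono hsub)
    refine ⟨M.toNNReal, LipschitzOnWith.of_dist_le_mul ?_⟩
    intro t ht s hs
    rw [Real.coe_toNNReal M hM0]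
    rw [dist_pi_le_iff (by positivity)]
    intro i
    have e1 := hsol.eqn t (hsub ht) i
    have e2 := hsol.eqn s (hsub hs) i
    have e3 : x t i - x s i = ∫ u in s..t, massAction R (k u) (x u) i := by
      rw [e1, e2, ← intervalIntegral.integral_interval_sub_left (hint t (hsub ht) i)
        (hint s (hsub hs) i)]
      ring
    rw [Real.dist_eq, e3, Real.dist_eq]
    have h4 := intervalIntegral.norm_integral_le_of_norm_le_const (a := s) (b := t) (C := M)
      (f := fun u => massAction R (k u) (x u) i) (by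
        intro u hu
        rw [Real.norm_eq_abs]
        refine hM u ?_ i
        have hsubu : Set.uIoc s t ⊆ Icc 0 T' := by
          intro v hv
          exact (uIcc_subset_Icc hs ht) (uIoc_subset_uIcc hv)
        exact hsubu hu)
    exact h4
  · -- the equation almost everywhere
    by_cases hT : 0 < T
    swap
    · filter_upwards with t ht
      exact absurd (lt_trans ht.1 ht.2) hT
    let Tn : ℕ → ℝ := fun n => T - T / (n + 1)
    have hTn0 : ∀ n, 0 ≤ Tn n := by
      intro n
      have h1 : T / ((n : ℝ) + 1) ≤ T := div_le_self hT.le (by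
        have : (0 : ℝ) ≤ n := Nat.cast_nonneg n
        linarith)
      simp only [Tn]
      linarith
    have hTnT : ∀ n, Tn n < T := by
      intro n
      have h1 : 0 < T / ((n : ℝ) + 1) := by positivity
      simp only [Tn]
      linarith
    have hae : ∀ᵐ t, ∀ n, ∀ i, t ∈ uIcc 0 (Tn n) → ∀ c ∈ uIcc 0 (Tn n),
        HasDerivAt (fun y => ∫ s in c..y, massAction R (k s) (x s) i)
          (massAction R (k t) (x t) i) t := by
      rw [ae_all_iff]
      intro n
      rw [ae_all_iff]
      intro i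
      exact (hint (Tn n) ⟨hTn0 n, hTnT n⟩ i).ae_hasDerivAt_integral
    filter_upwards [hae] with t ht ht2
    obtain ⟨n, hn⟩ := exists_nat_one_div_lt (div_pos (sub_pos.mpr ht2.2) hT)
    have htn : t < Tn n := by
      have h1 : 1 / ((n : ℝ) + 1) * T < T - t := by
        rwa [lt_div_iff₀ hT] at hn
      have h2 : T / ((n : ℝ) + 1) = 1 / ((n : ℝ) + 1) * T := by ring
      simp only [Tn]
      linarith
    have htI : t ∈ uIcc 0 (Tn n) := by
      rw [uIcc_of_le (hTn0 n)]
      exact ⟨ht2.1.le, htn.le⟩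
    have h0I : (0 : ℝ) ∈ uIcc 0 (Tn n) := left_mem_uIcc
    rw [hasDerivAt_pi]
    intro i
    have h3 := (ht n i htI 0 h0I).const_add (x 0 i)
    refine h3.congr_of_eventuallyEq ?_
    filter_upwards [Ioo_mem_nhds ht2.1 ht2.2] with s hs
    exact hsol.eqn s ⟨hs.1.le, hs.2⟩ i
  · -- the class
    intro t ht
    have e : (fun i => x t i - x 0 i) = ∑ r ∈ R,
        (∫ s in (0 : ℝ)..t, k s r * mono (x s) r.1) • rxnVec r := by
      funext i
      rw [hsol.eqn t ht i, add_sub_cancel_left]
      unfold massAction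
      rw [intervalIntegral.integral_finset_sum (fun r _ =>
        (term_intervalIntegrable hε hkm hk (hcI t ht) r).mul_const _)]
      rw [Finset.sum_apply]
      apply sum_congr rfl
      intro r _
      rw [intervalIntegral.integral_mul_const]
      simp
    rw [e]
    apply Submodule.sum_mem
    intro r hr
    apply Submodule.smul_mem
    exact Submodule.subset_span ⟨r, Finset.mem_coe.mpr hr, rfl⟩

end Regularity

end Vale.Agent.Lib.P072
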