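import Vale.Agent.Lib.P072.All.Car

/-! Existence by Picard iteration and uniqueness for the integral equation. -/

namespace Vale.Agent.Lib.P072

open Finset Real Set Filter Topology MeasureTheory
open scoped NNReal Nat

section Picard

variable {d : ℕ}

/-- One step of the iteration estimate. -/
lemma integral_step {K W : ℝ} (n : ℕ) {t : ℝ} (ht : 0 ≤ t) {f : ℝ → ℝ}
    (hf : ∀ s ∈ Icc 0 t, |f s| ≤ K * (W * (K * s) ^ n / (n ! : ℝ))) :
    |∫ s in (0 : ℝ)..t, f s| ≤ W * (K * t) ^ (n + 1) / ((n + 1)! : ℝ) := by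
  have h1 : ‖∫ s in (0 : ℝ)..t, f s‖ ≤ ∫ s in (0 : ℝ)..t, K * (W * (K * s) ^ n / (n ! : ℝ)) := by
    apply intervalIntegral.norm_integral_le_of_norm_le ht
    · filter_upwards with s hs
      rw [Real.norm_eq_abs]
      exact hf s ⟨hs.1.le, hs.2⟩
    · exact Continuous.intervalIntegrable (by fun_prop) _ _
  have h2 : ∫ s in (0 : ℝ)..t, K * (W * (K * s) ^ n / (n ! : ℝ))
      = W * (K * t) ^ (n + 1) / ((n + 1)! : ℝ) := by
    have e : ∀ s : ℝ, K * (W * (K * s) ^ n / (n ! : ℝ)) = (K * W * K ^ n / (n ! : ℝ)) * s ^ n := by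
      intro s
      rw [mul_pow]
      ring
    simp_rw [e]
    rw [intervalIntegral.integral_const_mul, integral_pow, Nat.factorial_succ]
    have h3 : (n ! : ℝ) ≠ 0 := by positivity
    have h4 : ((n : ℝ) + 1) ≠ 0 := by positivity
    push_cast
    rw [zero_pow (Nat.succ_ne_zero n), sub_zero, mul_pow]
    field_simp
    ring
  rw [h2, Real.norm_eq_abs] at h1
  exact h1

/-- Existence by Picard iteration for a bounded field, measurable in time and Lipschitz in
space. -/
theorem picard_exists {Φ : ℝ → (Fin d → ℝ) → Fin d → ℝ} {K M : ℝ} (hK : 0 < K) (hM : 0 ≤ M)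
    (hint : ∀ u : ℝ → Fin d → ℝ, Continuous u → ∀ i a b,
      IntervalIntegrable (fun s => Φ s (u s) i) volume a b)
    (hlip : ∀ s y z i, |Φ s y i - Φ s z i| ≤ K * ‖y - z‖)
    (hbd : ∀ s y i, |Φ s y i| ≤ M) (x₀ : Fin d → ℝ) :
    ∃ x : ℝ → Fin d → ℝ, Continuous x ∧ x 0 = x₀ ∧ ∀ t, 0 ≤ t → ∀ i,
      x t i = x₀ i + ∫ s in (0 : ℝ)..t, Φ s (x s) i := by
  let next : (ℝ → Fin d → ℝ) → ℝ → Fin d → ℝ := fun u t i => x₀ i + ∫ s in (0 : ℝ)..t, Φ s (u s) i
  let U : ℕ → ℝ → Fin d → ℝ := fun n => Nat.rec (fun _ => x₀) (fun _ v => next v) n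
  have hU0 : U 0 = fun _ => x₀ := rfl
  have hUs : ∀ n, U (n + 1) = next (U n) := fun _ => rfl
  have hnextc : ∀ u, Continuous u → Continuous (next u) := fun u hu =>
    continuous_pi (fun i => continuous_const.add
      (intervalIntegral.continuous_primitive (hint u hu i) 0))
  have hUc : ∀ n, Continuous (U n) := by
    intro n
    induction n with
    | zero => exact continuous_const
    | succ n ih =>
      rw [hUs]
      exact hnextc _ ih
  set W : ℝ := M / K with hW
  have hW0 : 0 ≤ W := div_nonneg hM hK.le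
  have hstep : ∀ n, ∀ t, 0 ≤ t → ‖U (n + 1) t - U n t‖ ≤ W * (K * t) ^ (n + 1) / ((n + 1)! : ℝ) := by
    intro n
    induction n with
    | zero =>
      intro t ht
      have hb : 0 ≤ W * (K * t) ^ (0 + 1) / ((0 + 1)! : ℝ) := by positivity
      rw [pi_norm_le_iff_of_nonneg hb]
      intro i
      rw [Real.norm_eq_abs, Pi.sub_apply, hUs, hU0]
      show |x₀ i + (∫ s in (0 : ℝ)..t, Φ s x₀ i) - x₀ i| ≤ _
      rw [add_sub_cancel_left]
      have h := intervalIntegral.norm_integral_le_of_norm_le_const (a := 0) (b := t) (C := M)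
        (f := fun s => Φ s x₀ i) (fun s _ => by
          rw [Real.norm_eq_abs]
          exact hbd s x₀ i)
      rw [Real.norm_eq_abs, sub_zero, abs_of_nonneg ht] at h
      refine h.trans (le_of_eq ?_)
      simp only [hW, zero_add, Nat.factorial_one, Nat.cast_one, div_one, pow_one]
      field_simp
    | succ n ih =>
      intro t ht
      have hb : 0 ≤ W * (K * t) ^ (n + 1 + 1) / ((n + 1 + 1)! : ℝ) := by positivity
      rw [pi_norm_le_iff_of_nonneg hb]
      intro i
      rw [Real.norm_eq_abs, Pi.sub_apply, hUs (n + 1)]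
      conv_lhs => rw [hUs n]
      show |(x₀ i + ∫ s in (0 : ℝ)..t, Φ s (U (n + 1) s) i)
        - (x₀ i + ∫ s in (0 : ℝ)..t, Φ s (U n s) i)| ≤ _
      have e : (∫ s in (0 : ℝ)..t, Φ s (U (n + 1) s) i) - ∫ s in (0 : ℝ)..t, Φ s (U n s) i
          = ∫ s in (0 : ℝ)..t, (Φ s (U (n + 1) s) i - Φ s (U n s) i) :=
        (intervalIntegral.integral_sub (hint _ (hUc (n + 1)) i 0 t) (hint _ (hUc n) i 0 t)).symm
      rw [add_sub_add_left_eq_sub, e]
      apply integral_step (n + 1) ht
      intro s hs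
      refine (hlip s _ _ i).trans ?_
      exact mul_le_mul_of_nonneg_left (ih s hs.1) hK.le
  have hdsum : ∀ t, Summable fun n : ℕ => W * (K * t) ^ (n + 1) / ((n + 1)! : ℝ) := by
    intro t
    have h1 := (summable_nat_add_iff 1).2 (Real.summable_pow_div_factorial (K * t))
    have h2 := h1.mul_left W
    refine h2.congr (fun n => ?_)
    ring
  have hCau : ∀ t, 0 ≤ t → CauchySeq fun n => U n t := by
    intro t ht
    apply cauchySeq_of_summable_dist
    refine Summable.of_nonneg_of_le (fun _ => dist_nonneg) (fun n => ?_) (hdsum t)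
    rw [dist_comm, dist_eq_norm]
    exact hstep n t ht
  have hex : ∀ t, ∃ l : Fin d → ℝ, 0 ≤ t → Tendsto (fun n => U n t) atTop (𝓝 l) := by
    intro t
    by_cases ht : 0 ≤ t
    · obtain ⟨l, hl⟩ := cauchySeq_tendsto_of_complete (hCau t ht)
      exact ⟨l, fun _ => hl⟩
    · exact ⟨0, fun h => absurd h ht⟩
  choose L hL using hex
  -- the iterates are Lipschitz
  have hUlip : ∀ n, ∀ t s, 0 ≤ t → 0 ≤ s → ‖U n t - U n s‖ ≤ M * |t - s| := by
    intro n t s _ _
    cases n with
    | zero =>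
      simp only [hU0, sub_self, norm_zero]
      positivity
    | succ n =>
      rw [pi_norm_le_iff_of_nonneg (by positivity)]
      intro i
      rw [Real.norm_eq_abs, Pi.sub_apply, hUs]
      show |(x₀ i + ∫ v in (0 : ℝ)..t, Φ v (U n v) i) - (x₀ i + ∫ v in (0 : ℝ)..s, Φ v (U n v) i)| ≤ _
      rw [add_sub_add_left_eq_sub, intervalIntegral.integral_interval_sub_left
        (hint _ (hUc _) i _ _) (hint _ (hUc _) i _ _)]
      have h := intervalIntegral.norm_integral_le_of_norm_le_const (a := s) (b := t) (C := M)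
        (f := fun v => Φ v (U n v) i) (fun v _ => by
          rw [Real.norm_eq_abs]
          exact hbd v _ i)
      rwa [Real.norm_eq_abs] at h
  have hLlip : ∀ t s, 0 ≤ t → 0 ≤ s → ‖L t - L s‖ ≤ M * |t - s| := by
    intro t s ht hs
    have h1 : Tendsto (fun n => ‖U n t - U n s‖) atTop (𝓝 ‖L t - L s‖) :=
      ((hL t ht).sub (hL s hs)).norm
    exact le_of_tendsto h1 (Eventually.of_forall fun n => hUlip n t s ht hs)
  let x : ℝ → Fin d → ℝ := fun t => L (max t 0)
  have hxL : ∀ t, 0 ≤ t → x t = L t := fun t ht => by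
    simp only [x, max_eq_left ht]
  have hxc : Continuous x := by
    have hlipx : LipschitzWith M.toNNReal x := by
      apply LipschitzWith.of_dist_le_mul
      intro t s
      rw [Real.coe_toNNReal M hM, dist_eq_norm]
      refine (hLlip _ _ (le_max_right _ _) (le_max_right _ _)).trans ?_
      rw [Real.dist_eq]
      exact mul_le_mul_of_nonneg_left (abs_max_sub_max_le_abs _ _ _) hM
    exact hlipx.continuous
  have heq : ∀ t, 0 ≤ t → ∀ i, x t i = x₀ i + ∫ s in (0 : ℝ)..t, Φ s (x s) i := by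
    intro t ht i
    have h1 : Tendsto (fun n => U (n + 1) t i) atTop (𝓝 (x t i)) := by
      rw [hxL t ht]
      exact ((tendsto_pi_nhds.mp (hL t ht)) i).comp (tendsto_add_atTop_nat 1)
    have h2 : Tendsto (fun n => ∫ s in (0 : ℝ)..t, Φ s (U n s) i) atTop
        (𝓝 (∫ s in (0 : ℝ)..t, Φ s (x s) i)) := by
      apply intervalIntegral.tendsto_integral_filter_of_dominated_convergence (fun _ => M)
      · filter_upwards with n
        exact (hint _ (hUc n) i 0 t).def'.aestronglyMeasurable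
      · filter_upwards with n
        filter_upwards with s _
        rw [Real.norm_eq_abs]
        exact hbd s _ i
      · exact intervalIntegrable_const
      · filter_upwards with s hs
        rw [uIoc_of_le ht] at hs
        have hs0 : 0 ≤ s := hs.1.le
        have h3 : Tendsto (fun n => U n s) atTop (𝓝 (x s)) := by
          rw [hxL s hs0]
          exact hL s hs0
        rw [tendsto_iff_norm_sub_tendsto_zero]
        have h4 : Tendsto (fun n => K * ‖U n s - x s‖) atTop (𝓝 (K * 0)) :=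
          ((tendsto_iff_norm_sub_tendsto_zero.mp h3)).const_mul K
        rw [mul_zero] at h4
        refine squeeze_zero (fun _ => norm_nonneg _) (fun n => ?_) h4
        rw [Real.norm_eq_abs]
        exact hlip s _ _ i
    have h5 : ∀ n, U (n + 1) t i = x₀ i + ∫ s in (0 : ℝ)..t, Φ s (U n s) i := fun n => by
      rw [hUs]
    simp_rw [h5] at h1
    exact tendsto_nhds_unique h1 (tendsto_const_nhds.add h2)
  refine ⟨x, hxc, ?_, heq⟩
  funext i
  rw [heq 0 (le_refl _) i]
  simp

/-- Uniqueness in integral form. -/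
theorem integral_unique {x y : ℝ → Fin d → ℝ} {f : ℝ → Fin d → ℝ} {K : ℝ} (hK : 0 < K) {t₁ : ℝ}
    (ht₁ : 0 ≤ t₁) (hx : ContinuousOn x (Icc 0 t₁)) (hy : ContinuousOn y (Icc 0 t₁))
    (he : ∀ t ∈ Icc 0 t₁, ∀ i, x t i - y t i = ∫ s in (0 : ℝ)..t, f s i)
    (hf : ∀ s ∈ Icc 0 t₁, ∀ i, |f s i| ≤ K * ‖x s - y s‖) : x t₁ = y t₁ := by
  obtain ⟨W', hW'⟩ := isCompact_Icc.exists_bound_of_continuousOn (hx.sub hy)
  set W := max W' 0 with hW
  have hW0 : 0 ≤ W := le_max_right _ _
  have hind : ∀ n : ℕ, ∀ t ∈ Icc 0 t₁, ‖x t - y t‖ ≤ W * (K * t) ^ n / (n ! : ℝ) := by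
    intro n
    induction n with
    | zero =>
      intro t ht
      have h := (hW' t ht).trans (le_max_left W' 0)
      simp only [pow_zero, mul_one, Nat.factorial_zero, Nat.cast_one, div_one]
      exact h
    | succ n ih =>
      intro t ht
      have hb : 0 ≤ W * (K * t) ^ (n + 1) / ((n + 1)! : ℝ) := by
        have := ht.1
        positivity
      rw [pi_norm_le_iff_of_nonneg hb]
      intro i
      rw [Real.norm_eq_abs, Pi.sub_apply, he t ht i]
      apply integral_step n ht.1
      intro s hs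
      have hs' : s ∈ Icc 0 t₁ := ⟨hs.1, hs.2.trans ht.2⟩
      exact (hf s hs' i).trans (mul_le_mul_of_nonneg_left (ih s hs') hK.le)
  have hlim : Tendsto (fun n : ℕ => W * ((K * t₁) ^ n / (n ! : ℝ))) atTop (𝓝 (W * 0)) :=
    (FloorSemiring.tendsto_pow_div_factorial_atTop (K * t₁)).const_mul W
  rw [mul_zero] at hlim
  have h0 : ‖x t₁ - y t₁‖ ≤ 0 := by
    refine ge_of_tendsto hlim (Eventually.of_forall fun n => ?_)
    have := hind n t₁ ⟨ht₁, le_refl _⟩
    rwa [mul_div_assoc] at this
  exact sub_eq_zero.mp (norm_le_zero_iff.mp h0)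

end Picard

end Vale.Agent.Lib.P072
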