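import Vale.Agent.Lib.P072.All.Family

/-! The flow part for solutions which satisfy the equation almost everywhere. -/

namespace Vale.Agent.Lib.P072

open Finset Real Set Filter Topology MeasureTheory
open scoped NNReal

variable {d : ℕ}

/-- A positive locally Lipschitz curve on `[0, T)` which satisfies the equation at almost every
time and stays in the stoichiometric class of its initial point. -/
structure IsAeSolution (R : Finset (Cx d × Cx d)) (k : ℝ → Cx d × Cx d → ℝ) (T : ℝ)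
    (x : ℝ → Fin d → ℝ) : Prop where
  pos : ∀ t ∈ Ico 0 T, ∀ i, 0 < x t i
  cont : ContinuousOn x (Ico 0 T)
  lip : ∀ T', T' < T → ∃ Λ : ℝ≥0, LipschitzOnWith Λ x (Icc 0 T')
  deriv : ∀ᵐ t, t ∈ Ioo 0 T → HasDerivAt x (massAction R (k t) (x t)) t
  cls : ∀ t ∈ Ico 0 T, (fun i => x t i - x 0 i) ∈ stoich R

variable {R : Finset (Cx d × Cx d)} {ε : ℝ}

/-- The decrease on a segment, from the fundamental theorem of calculus for Lipschitz functions. -/
lemma descent_seg {a b η : ℝ} {x v : ℝ → Fin d → ℝ} {φ : ℝ → ℝ} (hab : a ≤ b)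
    (hder : ∀ᵐ t, t ∈ Ioo a b → HasDerivAt x (v t) t) {Λ : ℝ≥0}
    (hlip : LipschitzOnWith Λ φ (Icc a b))
    (hsub : ∀ t ∈ Ioo a b, ∃ g : Fin d → ℝ,
      (∀ s ∈ Ico a t, φ t - φ s ≤ dot g (x t) - dot g (x s)) ∧ dot g (v t) ≤ -η) :
    φ b ≤ φ a - η * (b - a) := by
  have hlip' : LipschitzOnWith Λ φ (uIcc a b) := by
    rwa [uIcc_of_le hab]
  have hac := hlip'.absolutelyContinuousOnInterval
  have h1 := hac.integral_deriv_eq_sub
  have hint := hac.intervalIntegrable_deriv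
  have hne1 : ∀ᵐ t : ℝ, t ≠ a := by simp [ae_iff, measure_singleton]
  have hne2 : ∀ᵐ t : ℝ, t ≠ b := by simp [ae_iff, measure_singleton]
  have h2 : ∫ t in a..b, deriv φ t ≤ ∫ _ in a..b, (-η) := by
    apply intervalIntegral.integral_mono_ae_restrict hab hint intervalIntegrable_const
    filter_upwards [ae_restrict_mem measurableSet_Icc, ae_restrict_of_ae hder,
      ae_restrict_of_ae hac.ae_differentiableAt, ae_restrict_of_ae hne1,
      ae_restrict_of_ae hne2] with t ht1 ht2 ht3 ht4 ht5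
    have hIoo : t ∈ Ioo a b :=
      ⟨lt_of_le_of_ne ht1.1 (Ne.symm ht4), lt_of_le_of_ne ht1.2 ht5⟩
    have hd := (ht3 (by rw [uIcc_of_le hab]; exact ht1)).hasDerivAt
    obtain ⟨g, hg1, hg2⟩ := hsub t hIoo
    have hdg := hasDerivAt_dot g (ht2 hIoo)
    have hl1 : Tendsto (slope φ t) (𝓝[<] t) (𝓝 (deriv φ t)) :=
      (hasDerivAt_iff_tendsto_slope.mp hd).mono_left (nhdsWithin_mono _ (fun u hu => ne_of_lt hu))
    have hl2 : Tendsto (slope (fun τ => dot g (x τ)) t) (𝓝[<] t) (𝓝 (dot g (v t))) :=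
      (hasDerivAt_iff_tendsto_slope.mp hdg).mono_left (nhdsWithin_mono _ (fun u hu => ne_of_lt hu))
    have hle : deriv φ t ≤ dot g (v t) := by
      apply le_of_tendsto_of_tendsto hl1 hl2
      filter_upwards [Ico_mem_nhdsLT hIoo.1] with s hs
      have h3 := hg1 s hs
      have hdenom : 0 < t - s := by linarith [hs.2]
      rw [slope_def_field, slope_def_field]
      have e1 : (φ s - φ t) / (s - t) = (φ t - φ s) / (t - s) := by
        rw [← neg_sub (φ t) (φ s), ← neg_sub t s, neg_div_neg_eq]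
      have e2 : (dot g (x s) - dot g (x t)) / (s - t) = (dot g (x t) - dot g (x s)) / (t - s) := by
        rw [← neg_sub (dot g (x t)) (dot g (x s)), ← neg_sub t s, neg_div_neg_eq]
      rw [e1, e2]
      exact div_le_div_of_nonneg_right h3 hdenom.le
    linarith
  rw [h1, intervalIntegral.integral_const, smul_eq_mul] at h2
  linarith

/-- The descent lemma, used only at times where `φ` is positive, for a curve which is
differentiable almost everywhere. -/
lemma descent_pos_ae {t₀ T η : ℝ} {x v : ℝ → Fin d → ℝ} {φ : ℝ → ℝ} (hη : 0 ≤ η)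
    (hder : ∀ᵐ t, t ∈ Ioo t₀ T → HasDerivAt x (v t) t)
    (hcont : ContinuousOn φ (Ico t₀ T))
    (hlip : ∀ T', T' < T → ∃ Λ : ℝ≥0, LipschitzOnWith Λ φ (Icc t₀ T'))
    (hsub : ∀ t ∈ Ioo t₀ T, 0 < φ t → ∃ g : Fin d → ℝ,
      (∀ s ∈ Ico t₀ T, φ t - φ s ≤ dot g (x t) - dot g (x s)) ∧ dot g (v t) ≤ -η) :
    ∀ t ∈ Ico t₀ T, φ t ≤ max 0 (φ t₀ - η * (t - t₀)) := by
  intro t ht
  obtain ⟨Λ, hΛ⟩ := hlip t ht.2
  have hder2 : ∀ a, t₀ ≤ a → ∀ᵐ u, u ∈ Ioo a t → HasDerivAt x (v u) u := by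
    intro a ha
    filter_upwards [hder] with u hu hu2
    exact hu ⟨lt_of_le_of_lt ha hu2.1, lt_trans hu2.2 ht.2⟩
  have hseg : ∀ a, t₀ ≤ a → a ≤ t → (∀ u ∈ Ioo a t, 0 < φ u) → φ t ≤ φ a - η * (t - a) := by
    intro a ha hat hpos
    refine descent_seg hat (hder2 a ha) (hΛ.mono (Icc_subset_Icc_left ha)) ?_
    intro u hu
    have hu' : u ∈ Ioo t₀ T := ⟨lt_of_le_of_lt ha hu.1, lt_trans hu.2 ht.2⟩
    obtain ⟨g, hg1, hg2⟩ := hsub u hu' (hpos u hu)
    exact ⟨g, fun s hs => hg1 s ⟨ha.trans hs.1, lt_trans hs.2 hu'.2⟩, hg2⟩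
  let S : Set ℝ := Icc t₀ t ∩ φ ⁻¹' Iic 0
  have hsub1 : Icc t₀ t ⊆ Ico t₀ T := fun u hu => ⟨hu.1, lt_of_le_of_lt hu.2 ht.2⟩
  have hSc : IsClosed S :=
    (hcont.mono hsub1).preimage_isClosed_of_isClosed isClosed_Icc isClosed_Iic
  by_cases hSne : S.Nonempty
  · have hbdd : BddAbove S := ⟨t, fun u hu => hu.1.2⟩
    have hmem : sSup S ∈ S := hSc.csSup_mem hSne hbdd
    have h1 := hseg (sSup S) hmem.1.1 hmem.1.2 (by
      intro u hu
      by_contra hcon
      have hu2 : u ∈ S := ⟨⟨hmem.1.1.trans hu.1.le, hu.2.le⟩, not_lt.mp hcon⟩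
      exact not_le.mpr hu.1 (le_csSup hbdd hu2))
    have h2 : φ (sSup S) ≤ 0 := hmem.2
    have h3 : 0 ≤ η * (t - sSup S) := mul_nonneg hη (by linarith [hmem.1.2])
    exact (by linarith : φ t ≤ 0).trans (le_max_left _ _)
  · refine le_trans (hseg t₀ le_rfl ht.1 ?_) (le_max_right _ _)
    intro u hu
    by_contra hcon
    exact hSne ⟨u, ⟨hu.1.le, hu.2.le⟩, not_lt.mp hcon⟩

/-- The maximum of finitely many affine functions along a Lipschitz curve is Lipschitz. -/
lemma lip_sup {ι : Type*} [Fintype ι] [Nonempty ι] (g : ι → Fin d → ℝ) (c : ι → ℝ)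
    {x : ℝ → Fin d → ℝ} {S : Set ℝ} {Λ : ℝ≥0} (hx : LipschitzOnWith Λ x S) :
    ∃ Λ' : ℝ≥0, LipschitzOnWith Λ' (fun t => ⨆ i, (dot (g i) (x t) - c i)) S := by
  set A : ℝ := ∑ i, ∑ j, |g i j| with hA
  have hA0 : 0 ≤ A := sum_nonneg (fun _ _ => sum_nonneg (fun _ _ => abs_nonneg _))
  refine ⟨A.toNNReal * Λ, LipschitzOnWith.of_dist_le_mul ?_⟩
  intro t ht s hs
  have hdist := hx.dist_le_mul t ht s hs
  have hone : ∀ i (y z : Fin d → ℝ), dot (g i) y - c i ≤ dot (g i) z - c i + A * dist y z := by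
    intro i y z
    have h1 : dot (g i) y - dot (g i) z ≤ ∑ j, |g i j| * dist y z := by
      unfold dot
      rw [← sum_sub_distrib]
      apply sum_le_sum
      intro j _
      have h2 : |y j - z j| ≤ dist y z := by
        rw [← Real.dist_eq]
        exact dist_le_pi_dist y z j
      have h3 : g i j * y j - g i j * z j = g i j * (y j - z j) := by ring
      rw [h3]
      calc g i j * (y j - z j) ≤ |g i j * (y j - z j)| := le_abs_self _
        _ = |g i j| * |y j - z j| := abs_mul _ _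
        _ ≤ |g i j| * dist y z := mul_le_mul_of_nonneg_left h2 (abs_nonneg _)
    have h4 : ∑ j, |g i j| * dist y z ≤ A * dist y z := by
      rw [← sum_mul]
      apply mul_le_mul_of_nonneg_right _ dist_nonneg
      exact single_le_sum (f := fun i => ∑ j, |g i j|)
        (fun _ _ => sum_nonneg (fun _ _ => abs_nonneg _)) (mem_univ i)
    linarith
  have hle : ∀ i (z : Fin d → ℝ), dot (g i) z - c i ≤ ⨆ i, (dot (g i) z - c i) := fun i z =>
    le_ciSup (f := fun i => dot (g i) z - c i) (Set.finite_range _).bddAbove i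
  have h5 : dist (x t) (x s) ≤ Λ * dist t s := hdist
  have h6 : A * dist (x t) (x s) ≤ A * (Λ * dist t s) := mul_le_mul_of_nonneg_left h5 hA0
  rw [Real.dist_eq, abs_le]
  have h7 : (⨆ i, (dot (g i) (x t) - c i)) ≤ (⨆ i, (dot (g i) (x s) - c i)) + A * dist (x t) (x s) :=
    ciSup_le fun i => (hone i _ _).trans (by linarith [hle i (x s)])
  have h8 : (⨆ i, (dot (g i) (x s) - c i)) ≤ (⨆ i, (dot (g i) (x t) - c i)) + A * dist (x t) (x s) := by
    refine ciSup_le fun i => (hone i (x s) (x t)).trans ?_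
    rw [dist_comm]
    linarith [hle i (x t)]
  have e : (((A.toNNReal * Λ : ℝ≥0) : ℝ)) * dist t s = A * (Λ * dist t s) := by
    rw [NNReal.coe_mul, Real.coe_toNNReal A hA0]
    ring
  rw [e]
  constructor <;> linarith

/-- A solution shifted in time. -/
lemma IsAeSolution.shift {k : ℝ → Cx d × Cx d → ℝ} {T : ℝ} {x : ℝ → Fin d → ℝ}
    (hsol : IsAeSolution R k T x) {t₀ : ℝ} (ht₀ : 0 ≤ t₀) :
    IsAeSolution R (fun t => k (t + t₀)) (T - t₀) (fun t => x (t + t₀)) := by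
  refine ⟨fun t ht => hsol.pos _ ⟨by linarith [ht.1], by linarith [ht.2]⟩, ?_, ?_, ?_, ?_⟩
  · refine hsol.cont.comp (by fun_prop) ?_
    intro t ht
    exact ⟨by linarith [ht.1], by linarith [ht.2]⟩
  · intro T' hT'
    obtain ⟨Λ, hΛ⟩ := hsol.lip (T' + t₀) (by linarith)
    refine ⟨Λ, LipschitzOnWith.of_dist_le_mul ?_⟩
    intro t ht s hs
    have h1 := hΛ.dist_le_mul (t + t₀) ⟨by linarith [ht.1], by linarith [ht.2]⟩ (s + t₀)
      ⟨by linarith [hs.1], by linarith [hs.2]⟩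
    have h2 : dist (t + t₀) (s + t₀) = dist t s := by simp [Real.dist_eq]
    rw [h2] at h1
    exact h1
  · have h1 := (measurePreserving_add_right (volume : Measure ℝ) t₀).quasiMeasurePreserving.ae
      hsol.deriv
    filter_upwards [h1] with t ht ht2
    exact (ht ⟨by linarith [ht2.1], by linarith [ht2.2]⟩).comp_add_const t t₀
  · intro t ht
    have h1 := hsol.cls (t + t₀) ⟨by linarith [ht.1], by linarith [ht.2]⟩
    have h2 := hsol.cls t₀ ⟨ht₀, by linarith [ht.1, ht.2]⟩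
    have h3 : (fun i => x (t + t₀) i - x (0 + t₀) i)
        = (fun i => x (t + t₀) i - x 0 i) - (fun i => x t₀ i - x 0 i) := by
      funext i
      simp
    show (fun i => x (t + t₀) i - x (0 + t₀) i) ∈ stoich R
    rw [h3]
    exact Submodule.sub_mem _ h1 h2

lemma inClass_ae {k : ℝ → Cx d × Cx d → ℝ} {T : ℝ} {x : ℝ → Fin d → ℝ} {c₀ : Fin d → ℝ}
    (hsol : IsAeSolution R k T x) (hcl0 : InClass R c₀ (x 0)) {t : ℝ} (ht : t ∈ Ico 0 T) :
    InClass R c₀ (x t) := by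
  have h1 := hsol.cls t ht
  unfold InClass at hcl0 ⊢
  have h2 : (fun i => x t i - c₀ i) = (fun i => x t i - x 0 i) + (fun i => x 0 i - c₀ i) := by
    funext i
    simp only [Pi.add_apply]
    ring
  rw [h2]
  exact Submodule.add_mem _ h1 hcl0

section Poly

variable {ι : Type*} [Fintype ι] {g : ι → Fin d → ℝ} {h : ℝ → ι → ℝ} {L₀ a b : ℝ}

/-- Invariance of the polytope: a solution from time `0`. -/
lemma ae_poly_invariant (hP : IsPolyFamily (↑(dirs R) : Set (Fin d → ℝ)) g h L₀ a b) (hε : 0 < ε)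
    {L : ℝ} (hL : L₀ ≤ L) (hfl : FluxOK R ε L) {k : ℝ → Cx d × Cx d → ℝ} {T : ℝ}
    {x : ℝ → Fin d → ℝ} (hk : ∀ t r, ε ≤ k t r ∧ k t r ≤ ε⁻¹) (hsol : IsAeSolution R k T x)
    (h0 : ∀ i, dot (g i) (x 0) ≤ h L i) :
    ∀ t ∈ Ico 0 T, ∀ i, dot (g i) (x t) ≤ h L i := by
  classical
  intro t₁ ht₁
  have hT0 : (0 : ℝ) ∈ Ico 0 T := ⟨le_refl _, lt_of_le_of_lt ht₁.1 ht₁.2⟩
  have hLpos : 0 < L := lt_of_lt_of_le hP.hL₀ hL
  have ha := hP.ha
  have hb := hP.hb
  -- the open box and the closed set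
  let U : Set (Fin d → ℝ) := {y | ∀ j, exp (-(L * (a + 1))) < y j ∧ y j < exp (L * (b + 1))}
  let V : Set (Fin d → ℝ) :=
    {y | (∀ j, exp (-(L * a)) ≤ y j ∧ y j ≤ exp (L * b)) ∧ ∀ i, dot (g i) y ≤ h L i}
  have hU : IsOpen U := by
    have : U = ⋂ j, {y : Fin d → ℝ | exp (-(L * (a + 1))) < y j ∧ y j < exp (L * (b + 1))} := by
      ext y; simp [U]
    rw [this]
    apply isOpen_iInter_of_finite
    intro j
    exact (isOpen_lt continuous_const (continuous_apply j)).inter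
      (isOpen_lt (continuous_apply j) continuous_const)
  have hdotc : ∀ (w : Fin d → ℝ), Continuous (fun y : Fin d → ℝ => dot w y) := by
    intro w
    unfold dot
    fun_prop
  have hV : IsClosed V := by
    have : V = (⋂ j, {y : Fin d → ℝ | exp (-(L * a)) ≤ y j ∧ y j ≤ exp (L * b)}) ∩
        ⋂ i, {y : Fin d → ℝ | dot (g i) y ≤ h L i} := by
      ext y
      simp only [V, Set.mem_ofPred_eq, mem_inter_iff, mem_iInter]
    rw [this]
    apply IsClosed.inter
    · apply isClosed_iInter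
      intro j
      exact (isClosed_le continuous_const (continuous_apply j)).inter
        (isClosed_le (continuous_apply j) continuous_const)
    · apply isClosed_iInter
      intro i
      exact isClosed_le (hdotc _) continuous_const
  have hlo : exp (-(L * (a + 1))) < exp (-(L * a)) := by
    apply exp_lt_exp.mpr
    nlinarith
  have hhi : exp (L * b) < exp (L * (b + 1)) := by
    apply exp_lt_exp.mpr
    nlinarith
  have hVU : V ⊆ U := fun y hy j =>
    ⟨lt_of_lt_of_le hlo (hy.1 j).1, lt_of_le_of_lt (hy.1 j).2 hhi⟩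
  have hx0V : x 0 ∈ V := ⟨hP.G1 L hL _ (hsol.pos 0 hT0) h0, h0⟩
  have key := stay_in hsol.cont hU hV hVU (hVU hx0V) ?_
  · exact (key t₁ ht₁).2
  intro s hs hsT hsU
  -- on `[0,s)` the values stay nonpositive
  let φ : ℝ → ℝ := fun t => ⨆ i, (dot (g i) (x t) - h L i)
  by_cases hι : Nonempty ι
  · have hle : ∀ t i, dot (g i) (x t) - h L i ≤ φ t := fun t i =>
      le_ciSup (f := fun i => dot (g i) (x t) - h L i) (Set.finite_range _).bddAbove i
    have hcontφ : ContinuousOn φ (Ico 0 s) := by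
      have hrw : φ = fun t => (Finset.univ : Finset ι).sup' Finset.univ_nonempty
          (fun i => dot (g i) (x t) - h L i) := by
        funext t
        exact (Finset.sup'_univ_eq_ciSup _).symm
      rw [hrw]
      apply ContinuousOn.finset_sup'_apply
      intro i _
      refine ((hdotc (g i)).comp_continuousOn ?_).sub continuousOn_const
      exact hsol.cont.mono (Ico_subset_Ico_right hsT)
    have hφ0 : φ 0 ≤ 0 := ciSup_le (fun i => by linarith [h0 i])
    have hdes := descent_pos_ae (t₀ := 0) (T := s) (η := 0) (x := x)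
      (v := fun t => massAction R (k t) (x t)) (φ := φ) (le_refl _)
      (by
        filter_upwards [hsol.deriv] with t ht ht2
        exact ht ⟨ht2.1, lt_of_lt_of_le ht2.2 hsT⟩) hcontφ
      (fun T' hT' => by
        obtain ⟨Λ, hΛ⟩ := hsol.lip T' (lt_of_lt_of_le hT' hsT)
        exact lip_sup g (h L) hΛ) ?_
    · intro t ht
      have h1 := hdes t ht
      simp only [zero_mul, sub_zero] at h1
      have h2 : φ t ≤ 0 := h1.trans (max_le (le_refl _) hφ0)
      have h3 : ∀ i, dot (g i) (x t) ≤ h L i := fun i => by linarith [hle t i]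
      exact ⟨hP.G1 L hL _ (hsol.pos t ⟨ht.1, lt_of_lt_of_le ht.2 hsT⟩) h3, h3⟩
    · intro t ht _
      have htI : t ∈ Ico 0 s := ⟨ht.1.le, ht.2⟩
      have hbox : ∀ j, exp (-(L * (a + 1))) ≤ x t j ∧ x t j ≤ exp (L * (b + 1)) :=
        fun j => ⟨(hsU t htI j).1.le, (hsU t htI j).2.le⟩
      obtain ⟨i, hi, hsign⟩ := hP.G2 L hL (x t) hbox
      refine ⟨g i, ?_, ?_⟩
      · intro r _
        have h1 : φ t ≤ dot (g i) (x t) - h L i := ciSup_le hi
        have h2 := hle r i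
        linarith
      · have := flux_normal_le hfl hε (hsol.pos t ⟨ht.1.le, lt_of_lt_of_le ht.2 hsT⟩) (hk t) hsign
        simpa using this
  · intro t ht
    have h3 : ∀ i, dot (g i) (x t) ≤ h L i := fun i => absurd ⟨i⟩ hι
    exact ⟨hP.G1 L hL _ (hsol.pos t ⟨ht.1, lt_of_lt_of_le ht.2 hsT⟩) h3, h3⟩

/-- Invariance of the polytope from any time. -/
lemma ae_poly_invariant_from (hP : IsPolyFamily (↑(dirs R) : Set (Fin d → ℝ)) g h L₀ a b) (hε : 0 < ε)
    {L : ℝ} (hL : L₀ ≤ L) (hfl : FluxOK R ε L) {k : ℝ → Cx d × Cx d → ℝ} {T : ℝ}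
    {x : ℝ → Fin d → ℝ} (hk : ∀ t r, ε ≤ k t r ∧ k t r ≤ ε⁻¹) (hsol : IsAeSolution R k T x)
    {t₀ : ℝ} (ht₀ : 0 ≤ t₀) (h0 : ∀ i, dot (g i) (x t₀) ≤ h L i) :
    ∀ t, t₀ ≤ t → t < T → ∀ i, dot (g i) (x t) ≤ h L i := by
  intro t ht htT
  have h1 := ae_poly_invariant hP hε hL hfl (k := fun t => k (t + t₀)) (T := T - t₀)
    (x := fun t => x (t + t₀)) (fun t r => hk _ r) (hsol.shift ht₀) (by simpa using h0)
    (t - t₀) ⟨by linarith, by linarith⟩
  simpa using h1

/-- One descent step: a global solution in the class staying in a bigger polytope enters the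
smaller polytope `Q L'` in a finite time. -/
lemma ae_poly_step (hP : IsPolyFamily (↑(dirs R) : Set (Fin d → ℝ)) g h L₀ a b)
    (hWR : WeaklyReversible R) (hε : 0 < ε)
    {L' : ℝ} (hL' : L₀ ≤ L') (hfl : FluxOK R ε L') {c₀ : Fin d → ℝ}
    (hc₀ : ∀ i, dot (g i) c₀ ≤ h L' i) {δ C : ℝ} (hδ0 : 0 < δ) (hδ1 : δ ≤ 1)
    (hδ : exp (-(L' * (a + 1))) ≤ δ) (hC : C ≤ exp (L' * (b + 1)))
    {k : ℝ → Cx d × Cx d → ℝ} {x : ℝ → Fin d → ℝ}
    (hk : ∀ t r, ε ≤ k t r ∧ k t r ≤ ε⁻¹) (hsol : ∀ T, IsAeSolution R k T x)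
    (hcl : InClass R c₀ (x 0)) (hbox : ∀ t, 0 ≤ t → ∀ j, δ ≤ x t j ∧ x t j ≤ C) :
    ∃ t₁, 0 ≤ t₁ ∧ ∀ i, dot (g i) (x t₁) ≤ h L' i := by
  classical
  by_cases hι : Nonempty ι
  swap
  · exact ⟨0, le_refl _, fun i => absurd ⟨i⟩ hι⟩
  obtain ⟨Δ, hΔ, hdrop⟩ := exists_drop_lb R g
  set η : ℝ := ε * δ ^ (Dmax R) * Δ / 2 with hη
  have hη0 : 0 < η := by positivity
  let φ : ℝ → ℝ := fun t => ⨆ i, (dot (g i) (x t) - h L' i)
  have hle : ∀ t i, dot (g i) (x t) - h L' i ≤ φ t := fun t i =>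
    le_ciSup (f := fun i => dot (g i) (x t) - h L' i) (Set.finite_range _).bddAbove i
  have hdotc : ∀ (w : Fin d → ℝ), Continuous (fun y : Fin d → ℝ => dot w y) := by
    intro w
    unfold dot
    fun_prop
  have hpos : ∀ t, 0 ≤ t → ∀ j, 0 < x t j := fun t ht j =>
    lt_of_lt_of_le hδ0 (hbox t ht j).1
  have hmain : ∀ T : ℝ, ∀ t ∈ Ico (0 : ℝ) T, φ t ≤ max 0 (φ 0 - η * (t - 0)) := by
    intro T
    apply descent_pos_ae (x := x) (v := fun t => massAction R (k t) (x t)) hη0.le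
    · exact (hsol T).deriv
    · have hrw : φ = fun t => (Finset.univ : Finset ι).sup' Finset.univ_nonempty
          (fun i => dot (g i) (x t) - h L' i) := by
        funext t
        exact (Finset.sup'_univ_eq_ciSup _).symm
      rw [hrw]
      apply ContinuousOn.finset_sup'_apply
      intro i _
      exact ((hdotc (g i)).comp_continuousOn (hsol T).cont).sub continuousOn_const
    · intro T' hT'
      obtain ⟨Λ, hΛ⟩ := (hsol T).lip T' hT'
      exact lip_sup g (h L') hΛ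
    · intro t ht hφ
      have ht0 : 0 ≤ t := ht.1.le
      have hxbox : ∀ j, exp (-(L' * (a + 1))) ≤ x t j ∧ x t j ≤ exp (L' * (b + 1)) := fun j =>
        ⟨hδ.trans (hbox t ht0 j).1, (hbox t ht0 j).2.trans hC⟩
      obtain ⟨i, hi, hsign⟩ := hP.G2 L' hL' (x t) hxbox
      have hφi : φ t = dot (g i) (x t) - h L' i :=
        le_antisymm (ciSup_le hi) (hle t i)
      -- the slope is not orthogonal to the class
      have hdown : ∃ e ∈ R, hOf (g i) e.2 < hOf (g i) e.1 := by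
        by_contra hno
        have hcl' : InClass R c₀ (x t) := inClass_ae (hsol (t + 1)) hcl ⟨ht0, by linarith⟩
        have h1 := dot_eq_zero_of_no_down hWR hno hcl'
        have h2 : dot (g i) (fun j => x t j - c₀ j) = dot (g i) (x t) - dot (g i) c₀ := by
          unfold dot
          rw [← Finset.sum_sub_distrib]
          exact Finset.sum_congr rfl (fun j _ => by ring)
        have h3 := hc₀ i
        linarith
      obtain ⟨e, he, hedown⟩ := hdown
      refine ⟨g i, ?_, ?_⟩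
      · intro s _
        have h2 := hle s i
        linarith
      · have h1 := flux_normal hfl (hpos t ht0) (hk t) hsign he
        have h2 := mono_ge_Dmax (R := R) hδ0 hδ1 (fun j => (hbox t ht0 j).1) he
        have h3 : Δ ≤ max (hOf (g i) e.1 - hOf (g i) e.2) 0 :=
          (hdrop i e he hedown).trans (le_max_left _ _)
        have h4 : δ ^ Dmax R * Δ ≤ mono (x t) e.1 * max (hOf (g i) e.1 - hOf (g i) e.2) 0 :=
          mul_le_mul h2 h3 hΔ.le (mono_pos (hpos t ht0) _).le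
        have h5 : ε * (δ ^ Dmax R * Δ)
            ≤ ε * (mono (x t) e.1 * max (hOf (g i) e.1 - hOf (g i) e.2) 0) :=
          mul_le_mul_of_nonneg_left h4 hε.le
        have h6 : η = ε * (δ ^ Dmax R * Δ) / 2 := by rw [hη]; ring
        have h7 : ε * mono (x t) e.1 * max (hOf (g i) e.1 - hOf (g i) e.2) 0
            = ε * (mono (x t) e.1 * max (hOf (g i) e.1 - hOf (g i) e.2) 0) := by ring
        rw [h7] at h1
        linarith
  refine ⟨|φ 0| / η, by positivity, fun i => ?_⟩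
  have ht0 : 0 ≤ |φ 0| / η := by positivity
  have h1 := hmain (|φ 0| / η + 1) (|φ 0| / η) ⟨ht0, by linarith⟩
  have h2 : φ 0 - η * (|φ 0| / η - 0) ≤ 0 := by
    have h3 : η * (|φ 0| / η - 0) = |φ 0| := by
      field_simp
      ring
    rw [h3]
    linarith [le_abs_self (φ 0)]
  have h3 : φ (|φ 0| / η) ≤ 0 := h1.trans (max_le (le_refl _) h2)
  linarith [hle (|φ 0| / η) i]

/-- Finitely many descent steps lead to the smallest polytope. -/
lemma ae_poly_descend (hP : IsPolyFamily (↑(dirs R) : Set (Fin d → ℝ)) g h L₀ a b)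
    (hWR : WeaklyReversible R) (hε : 0 < ε) {B₀ L₁ : ℝ}
    (hfl : ∀ B, B₀ ≤ B → FluxOK R ε B) (hL₁ : L₀ ≤ L₁) (hB₁ : B₀ ≤ L₁) {c₀ : Fin d → ℝ}
    (hc₀ : ∀ L, L₁ ≤ L → ∀ i, dot (g i) c₀ ≤ h L i)
    {k : ℝ → Cx d × Cx d → ℝ} {x : ℝ → Fin d → ℝ}
    (hk : ∀ t r, ε ≤ k t r ∧ k t r ≤ ε⁻¹) (hsol : ∀ T, IsAeSolution R k T x)
    (hcl : InClass R c₀ (x 0)) :
    ∀ (n : ℕ) (L : ℝ), L₁ ≤ L → thetaOf a b ^ n * L ≤ L₁ → ∀ t₀, 0 ≤ t₀ →
      (∀ i, dot (g i) (x t₀) ≤ h L i) → ∃ t₁, t₀ ≤ t₁ ∧ ∀ i, dot (g i) (x t₁) ≤ h L₁ i := by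
  have ha := hP.ha
  have hb := hP.hb
  have hθ0 := thetaOf_pos (b := b) ha
  have hθ1 := thetaOf_lt_one ha hb
  have hL₁pos : 0 < L₁ := lt_of_lt_of_le hP.hL₀ hL₁
  intro n
  induction n with
  | zero =>
    intro L hL hL2 t₀ ht₀ h0
    have hLL : L = L₁ := le_antisymm (by simpa using hL2) hL
    subst hLL
    exact ⟨t₀, le_refl _, h0⟩
  | succ n ih =>
    intro L hL hL2 t₀ ht₀ h0
    set L' := max (thetaOf a b * L) L₁ with hL'
    have hL'1 : L₁ ≤ L' := le_max_right _ _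
    have hLpos : 0 < L := lt_of_lt_of_le hL₁pos hL
    have hL'θ : thetaOf a b * L ≤ L' := le_max_left _ _
    have hLL₀ : L₀ ≤ L := hL₁.trans hL
    have hBL : B₀ ≤ L := hB₁.trans hL
    -- the shifted solution
    have hsol' : ∀ T, IsAeSolution R (fun t => k (t + t₀)) T (fun t => x (t + t₀)) := by
      intro T
      have := (hsol (T + t₀)).shift ht₀
      simpa using this
    have hk' : ∀ (t : ℝ) (r : Cx d × Cx d), ε ≤ k (t + t₀) r ∧ k (t + t₀) r ≤ ε⁻¹ :=
      fun t r => hk _ r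
    have hcl' : InClass R c₀ (x (0 + t₀)) := by
      rw [zero_add]
      exact inClass_ae (hsol (t₀ + 1)) hcl ⟨ht₀, by linarith⟩
    have hinv : ∀ t, 0 ≤ t → ∀ i, dot (g i) (x (t + t₀)) ≤ h L i := by
      intro t ht
      exact ae_poly_invariant_from hP hε hLL₀ (hfl L hBL) hk (hsol (t + t₀ + 1)) ht₀ h0 _
        (by linarith) (by linarith)
    have hboxL : ∀ t, 0 ≤ t → ∀ j, exp (-(L * a)) ≤ x (t + t₀) j ∧ x (t + t₀) j ≤ exp (L * b) := by
      intro t ht
      exact hP.G1 L hLL₀ _ ((hsol (t + t₀ + 1)).pos _ ⟨by linarith, by linarith⟩) (hinv t ht)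
    have hθa : a / (a + 1) ≤ thetaOf a b := le_max_left _ _
    have hθb : b / (b + 1) ≤ thetaOf a b := le_max_right _ _
    have hLa : L * a ≤ L' * (a + 1) := by
      have h1 : a / (a + 1) * L ≤ L' := (mul_le_mul_of_nonneg_right hθa hLpos.le).trans hL'θ
      have h2 : a / (a + 1) * L * (a + 1) = L * a := by
        field_simp
      have h3 := mul_le_mul_of_nonneg_right h1 (by linarith : 0 ≤ a + 1)
      linarith
    have hLb : L * b ≤ L' * (b + 1) := by
      have h1 : b / (b + 1) * L ≤ L' := (mul_le_mul_of_nonneg_right hθb hLpos.le).trans hL'θ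
      have h2 : b / (b + 1) * L * (b + 1) = L * b := by
        field_simp
      have h3 := mul_le_mul_of_nonneg_right h1 (by linarith : 0 ≤ b + 1)
      linarith
    obtain ⟨t₂, ht₂, hent⟩ := ae_poly_step hP hWR hε (L' := L') (hL₁.trans hL'1)
      (hfl L' (hB₁.trans hL'1)) (hc₀ L' hL'1) (δ := min (exp (-(L * a))) 1) (C := exp (L * b))
      (lt_min (exp_pos _) one_pos) (min_le_right _ _)
      (by
        apply le_min
        · apply exp_le_exp.mpr
          linarith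
        · apply Real.exp_le_one_iff.mpr
          have : 0 ≤ L' * (a + 1) := by
            have := lt_of_lt_of_le hL₁pos hL'1
            positivity
          linarith)
      (exp_le_exp.mpr hLb) hk' hsol' hcl'
      (fun t ht j => ⟨(min_le_left _ _).trans (hboxL t ht j).1, (hboxL t ht j).2⟩)
    have hnext : thetaOf a b ^ n * L' ≤ L₁ := by
      rw [hL']
      have hpow : 0 < thetaOf a b ^ n := pow_pos hθ0 n
      rcases le_total (thetaOf a b * L) L₁ with hc | hc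
      · rw [max_eq_right hc]
        have h1 : thetaOf a b ^ n ≤ 1 := pow_le_one₀ hθ0.le hθ1.le
        have := mul_le_mul_of_nonneg_right h1 hL₁pos.le
        linarith
      · rw [max_eq_left hc]
        have : thetaOf a b ^ n * (thetaOf a b * L) = thetaOf a b ^ (n + 1) * L := by
          rw [pow_succ]; ring
        rw [this]
        exact hL2
    obtain ⟨t₁, ht₁, hfin⟩ := ih L' hL'1 hnext (t₂ + t₀) (by linarith) hent
    exact ⟨t₁, by linarith, hfin⟩

/-- Uniform bounds: for each positive initial point there are uniform positive lower and upper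
bounds for all solutions, all admissible rates and all existence times. -/
theorem ae_poly_uniform_bounds (hP : IsPolyFamily (↑(dirs R) : Set (Fin d → ℝ)) g h L₀ a b)
    (hWR : WeaklyReversible R) (hε : 0 < ε) {x₀ : Fin d → ℝ} (hx₀ : ∀ i, 0 < x₀ i) :
    ∃ δ C' : ℝ, 0 < δ ∧ ∀ (k : ℝ → Cx d × Cx d → ℝ) (T : ℝ) (x : ℝ → Fin d → ℝ),
      (∀ t r, ε ≤ k t r ∧ k t r ≤ ε⁻¹) → x 0 = x₀ → IsAeSolution R k T x →
      ∀ t ∈ Ico 0 T, ∀ i, δ ≤ x t i ∧ x t i ≤ C' := by
  obtain ⟨B₀, hfl⟩ := flux_strict hWR hε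
  obtain ⟨L₂, hL₂⟩ := hP.G3 x₀ hx₀
  set L := max (max L₀ B₀) L₂ with hL
  have h1 : L₀ ≤ L := (le_max_left _ _).trans (le_max_left _ _)
  have h2 : B₀ ≤ L := (le_max_right _ _).trans (le_max_left _ _)
  have h3 : L₂ ≤ L := le_max_right _ _
  refine ⟨exp (-(L * a)), exp (L * b), exp_pos _, ?_⟩
  intro k T x hk hx0 hsol t ht i
  have h0 : ∀ i, dot (g i) (x 0) ≤ h L i := by
    rw [hx0]
    exact hL₂ L h3
  have hinv := ae_poly_invariant hP hε h1 (hfl L h2) hk hsol h0 t ht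
  exact hP.G1 L h1 _ (hsol.pos t ht) hinv i

/-- The absorbing compact set: every global positive solution in the class eventually stays in
a box depending only on the class, the network and `ε`. -/
theorem ae_poly_absorbing (hP : IsPolyFamily (↑(dirs R) : Set (Fin d → ℝ)) g h L₀ a b)
    (hWR : WeaklyReversible R) (hε : 0 < ε) {c₀ : Fin d → ℝ} (hc₀ : ∀ i, 0 < c₀ i) :
    ∃ δ₀ C₀ : ℝ, 0 < δ₀ ∧ ∀ (k : ℝ → Cx d × Cx d → ℝ) (x : ℝ → Fin d → ℝ),
      (∀ t r, ε ≤ k t r ∧ k t r ≤ ε⁻¹) → (∀ T, IsAeSolution R k T x) → InClass R c₀ (x 0) →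
      ∃ t₁ : ℝ, ∀ t, t₁ ≤ t → ∀ i, δ₀ ≤ x t i ∧ x t i ≤ C₀ := by
  obtain ⟨B₀, hfl⟩ := flux_strict hWR hε
  obtain ⟨L₂, hL₂⟩ := hP.G3 c₀ hc₀
  set L₁ := max (max L₀ B₀) L₂ with hL₁
  have h1 : L₀ ≤ L₁ := (le_max_left _ _).trans (le_max_left _ _)
  have h2 : B₀ ≤ L₁ := (le_max_right _ _).trans (le_max_left _ _)
  have h3 : L₂ ≤ L₁ := le_max_right _ _
  have ha := hP.ha
  have hb := hP.hb
  have hL₁pos : 0 < L₁ := lt_of_lt_of_le hP.hL₀ h1
  refine ⟨exp (-(L₁ * a)), exp (L₁ * b), exp_pos _, ?_⟩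
  intro k x hk hsol hcl
  have hpos0 : ∀ j, 0 < x 0 j := fun j => (hsol 1).pos 0 ⟨le_refl _, one_pos⟩ j
  obtain ⟨L₃, hL₃⟩ := hP.G3 (x 0) hpos0
  set L := max L₁ L₃ with hL
  have hθ0 := thetaOf_pos (b := b) ha
  have hθ1 := thetaOf_lt_one ha hb
  have hLpos : 0 < L := lt_of_lt_of_le hL₁pos (le_max_left _ _)
  obtain ⟨n, hn⟩ := exists_pow_lt_of_lt_one (div_pos hL₁pos hLpos) hθ1
  have hn' : thetaOf a b ^ n * L ≤ L₁ := by
    rw [lt_div_iff₀ hLpos] at hn
    exact hn.le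
  obtain ⟨t₁, ht₁, hent⟩ := ae_poly_descend hP hWR hε hfl h1 h2
    (fun L hLL => hL₂ L (h3.trans hLL)) hk hsol hcl n L (le_max_left _ _) hn' 0 (le_refl _)
    (hL₃ L (le_max_right _ _))
  refine ⟨t₁, fun t ht i => ?_⟩
  have hinv := ae_poly_invariant_from hP hε h1 (hfl L₁ h2) hk (hsol (t + 1)) ht₁ hent t ht
    (by linarith)
  exact hP.G1 L₁ h1 _ ((hsol (t + 1)).pos t ⟨by linarith, by linarith⟩) hinv i

end Poly

end Vale.Agent.Lib.P072
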