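import Vale.Agent.Lib.P072.Perm2

/-! From a family of invariant polytopes to permanence in all dimensions: the flow part.

The geometric input is `IsPolyFamily`: a finite family of slopes `g i` and offsets `h L i`, such that
the polytopes `Q L = {x | ∀ i, dot (g i) x ≤ h L i}` satisfy the three properties `G1`, `G2`, `G3`.
Everything else (invariance, finite time descent from a large polytope to a smaller one, the
absorbing compact set, global existence and uniqueness) is derived in this file. -/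

namespace Vale.Agent.Lib.P072

open Finset Real Set Filter Topology
open scoped NNReal

variable {d : ℕ}

/-- The geometric properties of a family of polytopes `Q L = {x | ∀ i, dot (g i) x ≤ h L i}` for
a set `W` of directions. -/
structure IsPolyFamily {ι : Type*} [Fintype ι] (W : Set (Fin d → ℝ)) (g : ι → Fin d → ℝ)
    (h : ℝ → ι → ℝ) (L₀ a b : ℝ) : Prop where
  ha : 0 < a
  hb : 0 < b
  hL₀ : 0 < L₀
  G1 : ∀ L, L₀ ≤ L → ∀ x : Fin d → ℝ, (∀ j, 0 < x j) → (∀ i, dot (g i) x ≤ h L i) →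
    ∀ j, exp (-(L * a)) ≤ x j ∧ x j ≤ exp (L * b)
  G2 : ∀ L, L₀ ≤ L → ∀ x : Fin d → ℝ,
    (∀ j, exp (-(L * (a + 1))) ≤ x j ∧ x j ≤ exp (L * (b + 1))) →
    ∃ i, (∀ i', dot (g i') x - h L i' ≤ dot (g i) x - h L i) ∧
      ∀ u ∈ W, 0 < dot u (g i) → L ≤ dot u (lv x)
  G3 : ∀ x : Fin d → ℝ, (∀ j, 0 < x j) → ∃ L₁, ∀ L, L₁ ≤ L → ∀ i, dot (g i) x ≤ h L i

/-- The strict flux property at the level `B`. -/
def FluxOK (R : Finset (Cx d × Cx d)) (ε B : ℝ) : Prop :=
  ∀ (h mon : Cx d → ℝ) (κ : Cx d × Cx d → ℝ),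
      (∀ c, 0 < mon c) →
      (∀ s a, Reach R s a → h a < h s → exp B * mon a ≤ mon s) →
      (∀ r, ε ≤ κ r ∧ κ r ≤ ε⁻¹) →
      ∀ e ∈ R, ∑ r ∈ R, κ r * mon r.1 * (h r.2 - h r.1)
        ≤ -(ε * mon e.1 * max (h e.1 - h e.2) 0) / 2

variable {R : Finset (Cx d × Cx d)} {ε : ℝ}

lemma flux_normal_le {B : ℝ} (hfl : FluxOK R ε B) (hε : 0 < ε)
    {g x : Fin d → ℝ} {κ : Cx d × Cx d → ℝ} (hx : ∀ i, 0 < x i)
    (hκ : ∀ r, ε ≤ κ r ∧ κ r ≤ ε⁻¹)
    (hg : ∀ w' ∈ dirs R, 0 < dot w' g → B ≤ dot w' (lv x)) :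
    dot g (massAction R κ x) ≤ 0 := by
  rcases R.eq_empty_or_nonempty with hR | ⟨e, he⟩
  · subst hR
    unfold dot massAction
    simp
  · refine (flux_normal hfl hx hκ hg he).trans ?_
    have h1 := mono_pos hx e.1
    have h2 : 0 ≤ max (hOf g e.1 - hOf g e.2) 0 := le_max_right _ _
    have h3 : 0 ≤ ε * mono x e.1 * max (hOf g e.1 - hOf g e.2) 0 := by positivity
    linarith

/-- The descent lemma, used only at times where `φ` is positive. -/
lemma descent_pos {t₀ T η : ℝ} {x v : ℝ → Fin d → ℝ} {φ : ℝ → ℝ} (hη : 0 ≤ η)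
    (hder : ∀ t ∈ Ioo t₀ T, HasDerivAt x (v t) t)
    (hcont : ContinuousOn φ (Ico t₀ T))
    (hsub : ∀ t ∈ Ioo t₀ T, 0 < φ t → ∃ g : Fin d → ℝ,
      (∀ s ∈ Ico t₀ T, φ t - φ s ≤ dot g (x t) - dot g (x s)) ∧ dot g (v t) ≤ -η) :
    ∀ t ∈ Ico t₀ T, φ t ≤ max 0 (φ t₀ - η * (t - t₀)) := by
  intro t ht
  by_contra hcon
  push Not at hcon
  set m := max 0 (φ t₀ - η * (t - t₀)) with hm
  set ν := (φ t - m) / 2 with hν
  have hνpos : 0 < ν := by rw [hν]; linarith
  set A := 1 / (|φ t₀ - ν| + 2) with hA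
  have hApos : 0 < A := by positivity
  have h1 : A * (φ t₀ - ν) < 1 := by
    rw [hA, one_div_mul_eq_div, div_lt_one (by positivity)]
    have := le_abs_self (φ t₀ - ν)
    linarith
  have key := descent (t₀ := t₀) (T := T) (η := A * η) (x := x) (v := v)
    (φ := fun s => A * (φ s - ν)) (mul_nonneg hApos.le hη) hder
    (continuousOn_const.mul (hcont.sub continuousOn_const)) h1 ?_ t ht
  · have h2 : A * (φ t - ν) ≤ A * m := by
      refine key.trans (max_le ?_ ?_)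
      · have : 0 ≤ m := le_max_left _ _
        positivity
      · have h3 : φ t₀ - η * (t - t₀) ≤ m := le_max_right _ _
        have h4 : A * (φ t₀ - ν) - A * η * (t - t₀) = A * (φ t₀ - η * (t - t₀) - ν) := by ring
        rw [h4]
        exact mul_le_mul_of_nonneg_left (by linarith) hApos.le
    have h3 : φ t - ν ≤ m := le_of_mul_le_mul_left h2 hApos
    linarith
  · intro s hs h0 _
    have h2 : ν ≤ φ s := by
      have := nonneg_of_mul_nonneg_right (a := A) (b := φ s - ν) h0 hApos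
      linarith
    obtain ⟨g, hg1, hg2⟩ := hsub s hs (by linarith)
    refine ⟨fun i => A * g i, fun r hr => ?_, ?_⟩
    · rw [dot_smul_left, dot_smul_left]
      have := mul_le_mul_of_nonneg_left (hg1 r hr) hApos.le
      linarith
    · rw [dot_smul_left]
      have := mul_le_mul_of_nonneg_left hg2 hApos.le
      linarith

section Poly

variable {ι : Type*} [Fintype ι] {g : ι → Fin d → ℝ} {h : ℝ → ι → ℝ} {L₀ a b : ℝ}

/-- Invariance of the polytope: a solution from time `0`. -/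
lemma poly_invariant (hP : IsPolyFamily (↑(dirs R) : Set (Fin d → ℝ)) g h L₀ a b) (hε : 0 < ε)
    {L : ℝ} (hL : L₀ ≤ L) (hfl : FluxOK R ε L) {k : ℝ → Cx d × Cx d → ℝ} {T : ℝ}
    {x : ℝ → Fin d → ℝ} (hk : ∀ t r, ε ≤ k t r ∧ k t r ≤ ε⁻¹) (hsol : IsPosSolution R k T x)
    (h0 : ∀ i, dot (g i) (x 0) ≤ h L i) :
    ∀ t ∈ Ico 0 T, ∀ i, dot (g i) (x t) ≤ h L i := by
  classical
  intro t₁ ht₁
  have hT0 : (0 : ℝ) ∈ Ico 0 T := ⟨le_refl _, lt_of_le_of_lt ht₁.1 ht₁.2⟩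
  have hLpos : 0 < L := lt_of_lt_of_le hP.hL₀ hL
  have ha := hP.ha
  have hb := hP.hb
  -- the open box and the closed set
  let U : Set (Fin d → ℝ) := {y | ∀ j, exp (-(L * (a + 1))) < y j ∧ y j < exp (L * (b + 1))}
  let V : Set (Fin d → ℝ) :=
    {y | (∀ j, exp (-(L * a)) ≤ y j ∧ y j ≤ exp (L * b)) ∧ ∀ i, dot (g i) y ≤ h L i}
  have hU : IsOpen U := by
    have : U = ⋂ j, {y : Fin d → ℝ | exp (-(L * (a + 1))) < y j ∧ y j < exp (L * (b + 1))} := by
      ext y; simp [U]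
    rw [this]
    apply isOpen_iInter_of_finite
    intro j
    exact (isOpen_lt continuous_const (continuous_apply j)).inter
      (isOpen_lt (continuous_apply j) continuous_const)
  have hdotc : ∀ (w : Fin d → ℝ), Continuous (fun y : Fin d → ℝ => dot w y) := by
    intro w
    unfold dot
    fun_prop
  have hV : IsClosed V := by
    have : V = (⋂ j, {y : Fin d → ℝ | exp (-(L * a)) ≤ y j ∧ y j ≤ exp (L * b)}) ∩
        ⋂ i, {y : Fin d → ℝ | dot (g i) y ≤ h L i} := by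
      ext y
      simp only [V, Set.mem_ofPred_eq, mem_inter_iff, mem_iInter]
    rw [this]
    apply IsClosed.inter
    · apply isClosed_iInter
      intro j
      exact (isClosed_le continuous_const (continuous_apply j)).inter
        (isClosed_le (continuous_apply j) continuous_const)
    · apply isClosed_iInter
      intro i
      exact isClosed_le (hdotc _) continuous_const
  have hlo : exp (-(L * (a + 1))) < exp (-(L * a)) := by
    apply exp_lt_exp.mpr
    nlinarith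
  have hhi : exp (L * b) < exp (L * (b + 1)) := by
    apply exp_lt_exp.mpr
    nlinarith
  have hVU : V ⊆ U := fun y hy j =>
    ⟨lt_of_lt_of_le hlo (hy.1 j).1, lt_of_le_of_lt (hy.1 j).2 hhi⟩
  have hx0V : x 0 ∈ V := ⟨hP.G1 L hL _ (hsol.pos 0 hT0) h0, h0⟩
  have key := stay_in hsol.cont hU hV hVU (hVU hx0V) ?_
  · exact (key t₁ ht₁).2
  intro s hs hsT hsU
  -- on `[0,s)` the values stay nonpositive
  let φ : ℝ → ℝ := fun t => ⨆ i, (dot (g i) (x t) - h L i)
  by_cases hι : Nonempty ι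
  · have hle : ∀ t i, dot (g i) (x t) - h L i ≤ φ t := fun t i =>
      le_ciSup (f := fun i => dot (g i) (x t) - h L i) (Set.finite_range _).bddAbove i
    have hcontφ : ContinuousOn φ (Ico 0 s) := by
      have hrw : φ = fun t => (Finset.univ : Finset ι).sup' Finset.univ_nonempty
          (fun i => dot (g i) (x t) - h L i) := by
        funext t
        exact (Finset.sup'_univ_eq_ciSup _).symm
      rw [hrw]
      apply ContinuousOn.finset_sup'_apply
      intro i _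
      refine ((hdotc (g i)).comp_continuousOn ?_).sub continuousOn_const
      exact hsol.cont.mono (Ico_subset_Ico_right hsT)
    have hφ0 : φ 0 ≤ 0 := ciSup_le (fun i => by linarith [h0 i])
    have hdes := descent_pos (t₀ := 0) (T := s) (η := 0) (x := x)
      (v := fun t => massAction R (k t) (x t)) (φ := φ) (le_refl _)
      (fun t ht => hsol.deriv t ⟨ht.1, lt_of_lt_of_le ht.2 hsT⟩) hcontφ ?_
    · intro t ht
      have h1 := hdes t ht
      simp only [zero_mul, sub_zero] at h1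
      have h2 : φ t ≤ 0 := h1.trans (max_le (le_refl _) hφ0)
      have h3 : ∀ i, dot (g i) (x t) ≤ h L i := fun i => by linarith [hle t i]
      exact ⟨hP.G1 L hL _ (hsol.pos t ⟨ht.1, lt_of_lt_of_le ht.2 hsT⟩) h3, h3⟩
    · intro t ht _
      have htI : t ∈ Ico 0 s := ⟨ht.1.le, ht.2⟩
      have hbox : ∀ j, exp (-(L * (a + 1))) ≤ x t j ∧ x t j ≤ exp (L * (b + 1)) :=
        fun j => ⟨(hsU t htI j).1.le, (hsU t htI j).2.le⟩
      obtain ⟨i, hi, hsign⟩ := hP.G2 L hL (x t) hbox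
      refine ⟨g i, ?_, ?_⟩
      · intro r _
        have h1 : φ t ≤ dot (g i) (x t) - h L i := ciSup_le hi
        have h2 := hle r i
        linarith
      · have := flux_normal_le hfl hε (hsol.pos t ⟨ht.1.le, lt_of_lt_of_le ht.2 hsT⟩) (hk t) hsign
        simpa using this
  · intro t ht
    have h3 : ∀ i, dot (g i) (x t) ≤ h L i := fun i => absurd ⟨i⟩ hι
    exact ⟨hP.G1 L hL _ (hsol.pos t ⟨ht.1, lt_of_lt_of_le ht.2 hsT⟩) h3, h3⟩

/-- A solution shifted in time. -/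
lemma IsPosSolution.shift {k : ℝ → Cx d × Cx d → ℝ} {T : ℝ} {x : ℝ → Fin d → ℝ}
    (hsol : IsPosSolution R k T x) {t₀ : ℝ} (ht₀ : 0 ≤ t₀) :
    IsPosSolution R (fun t => k (t + t₀)) (T - t₀) (fun t => x (t + t₀)) := by
  refine ⟨fun t ht => hsol.pos _ ⟨by linarith [ht.1], by linarith [ht.2]⟩, ?_, fun t ht => ?_⟩
  · refine hsol.cont.comp (by fun_prop) ?_
    intro t ht
    exact ⟨by linarith [ht.1], by linarith [ht.2]⟩
  · exact (hsol.deriv _ ⟨by linarith [ht.1], by linarith [ht.2]⟩).comp_add_const t t₀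

/-- Invariance of the polytope from any time. -/
lemma poly_invariant_from (hP : IsPolyFamily (↑(dirs R) : Set (Fin d → ℝ)) g h L₀ a b) (hε : 0 < ε)
    {L : ℝ} (hL : L₀ ≤ L) (hfl : FluxOK R ε L) {k : ℝ → Cx d × Cx d → ℝ} {T : ℝ}
    {x : ℝ → Fin d → ℝ} (hk : ∀ t r, ε ≤ k t r ∧ k t r ≤ ε⁻¹) (hsol : IsPosSolution R k T x)
    {t₀ : ℝ} (ht₀ : 0 ≤ t₀) (h0 : ∀ i, dot (g i) (x t₀) ≤ h L i) :
    ∀ t, t₀ ≤ t → t < T → ∀ i, dot (g i) (x t) ≤ h L i := by
  intro t ht htT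
  have h1 := poly_invariant hP hε hL hfl (k := fun t => k (t + t₀)) (T := T - t₀)
    (x := fun t => x (t + t₀)) (fun t r => hk _ r) (hsol.shift ht₀) (by simpa using h0)
    (t - t₀) ⟨by linarith, by linarith⟩
  simpa using h1

/-- The positive lower bound of the drops. -/
lemma exists_drop_lb (R : Finset (Cx d × Cx d)) (g : ι → Fin d → ℝ) :
    ∃ Δ : ℝ, 0 < Δ ∧ ∀ i, ∀ e ∈ R, hOf (g i) e.2 < hOf (g i) e.1 →
      Δ ≤ hOf (g i) e.1 - hOf (g i) e.2 := by
  classical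
  obtain ⟨Δ, hΔ, -, hle⟩ := exists_pos_lb
    (((Finset.univ : Finset ι) ×ˢ R).filter
      (fun p => hOf (g p.1) p.2.2 < hOf (g p.1) p.2.1))
    (fun p => hOf (g p.1) p.2.1 - hOf (g p.1) p.2.2)
    (fun p hp => by
      have := (Finset.mem_filter.mp hp).2
      linarith)
  refine ⟨Δ, hΔ, fun i e he hlt => ?_⟩
  exact hle (i, e) (Finset.mem_filter.mpr ⟨Finset.mem_product.mpr ⟨Finset.mem_univ _, he⟩, hlt⟩)

/-- If no reaction goes down for `g`, then `g` is orthogonal to the stoichiometric subspace. -/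
lemma dot_eq_zero_of_no_down (hWR : WeaklyReversible R) {w : Fin d → ℝ}
    (hno : ¬ ∃ e ∈ R, hOf w e.2 < hOf w e.1) {v : Fin d → ℝ} (hv : v ∈ stoich R) : dot w v = 0 := by
  classical
  unfold stoich at hv
  induction hv using Submodule.span_induction with
  | mem v hv =>
    obtain ⟨r, hr, rfl⟩ := hv
    have hrR : r ∈ R := Finset.mem_coe.mp hr
    have heq : hOf w r.2 = hOf w r.1 := by
      by_contra hne
      exact hno (exists_down hWR hrR hne)
    unfold dot rxnVec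
    have h1 : ∑ i, w i * ((r.2 i : ℝ) - (r.1 i : ℝ)) = hOf w r.2 - hOf w r.1 := by
      unfold hOf
      rw [← Finset.sum_sub_distrib]
      exact Finset.sum_congr rfl (fun i _ => by ring)
    rw [h1, heq, sub_self]
  | zero => simp [dot]
  | add u v _ _ hu hv =>
    have : dot w (u + v) = dot w u + dot w v := by
      unfold dot
      rw [← Finset.sum_add_distrib]
      exact Finset.sum_congr rfl (fun i _ => by simp only [Pi.add_apply]; ring)
    rw [this, hu, hv, add_zero]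
  | smul c v _ hv =>
    have : dot w (c • v) = c * dot w v := by
      unfold dot
      rw [Finset.mul_sum]
      exact Finset.sum_congr rfl (fun i _ => by simp only [Pi.smul_apply, smul_eq_mul]; ring)
    rw [this, hv, mul_zero]

/-- One descent step: a global solution in the class staying in a bigger polytope enters the
smaller polytope `Q L'` in a finite time. -/
lemma poly_step (hP : IsPolyFamily (↑(dirs R) : Set (Fin d → ℝ)) g h L₀ a b)
    (hWR : WeaklyReversible R) (hε : 0 < ε)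
    {L' : ℝ} (hL' : L₀ ≤ L') (hfl : FluxOK R ε L') {c₀ : Fin d → ℝ}
    (hc₀ : ∀ i, dot (g i) c₀ ≤ h L' i) {δ C : ℝ} (hδ0 : 0 < δ) (hδ1 : δ ≤ 1)
    (hδ : exp (-(L' * (a + 1))) ≤ δ) (hC : C ≤ exp (L' * (b + 1)))
    {k : ℝ → Cx d × Cx d → ℝ} {x : ℝ → Fin d → ℝ}
    (hk : ∀ t r, ε ≤ k t r ∧ k t r ≤ ε⁻¹) (hsol : ∀ T, IsPosSolution R k T x)
    (hcl : InClass R c₀ (x 0)) (hbox : ∀ t, 0 ≤ t → ∀ j, δ ≤ x t j ∧ x t j ≤ C) :
    ∃ t₁, 0 ≤ t₁ ∧ ∀ i, dot (g i) (x t₁) ≤ h L' i := by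
  classical
  by_cases hι : Nonempty ι
  swap
  · exact ⟨0, le_refl _, fun i => absurd ⟨i⟩ hι⟩
  obtain ⟨Δ, hΔ, hdrop⟩ := exists_drop_lb R g
  set η : ℝ := ε * δ ^ (Dmax R) * Δ / 2 with hη
  have hη0 : 0 < η := by positivity
  let φ : ℝ → ℝ := fun t => ⨆ i, (dot (g i) (x t) - h L' i)
  have hle : ∀ t i, dot (g i) (x t) - h L' i ≤ φ t := fun t i =>
    le_ciSup (f := fun i => dot (g i) (x t) - h L' i) (Set.finite_range _).bddAbove i
  have hdotc : ∀ (w : Fin d → ℝ), Continuous (fun y : Fin d → ℝ => dot w y) := by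
    intro w
    unfold dot
    fun_prop
  have hpos : ∀ t, 0 ≤ t → ∀ j, 0 < x t j := fun t ht j =>
    lt_of_lt_of_le hδ0 (hbox t ht j).1
  have hmain : ∀ T : ℝ, ∀ t ∈ Ico (0 : ℝ) T, φ t ≤ max 0 (φ 0 - η * (t - 0)) := by
    intro T
    apply descent_pos (x := x) (v := fun t => massAction R (k t) (x t)) hη0.le
    · exact (hsol T).deriv
    · have hrw : φ = fun t => (Finset.univ : Finset ι).sup' Finset.univ_nonempty
          (fun i => dot (g i) (x t) - h L' i) := by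
        funext t
        exact (Finset.sup'_univ_eq_ciSup _).symm
      rw [hrw]
      apply ContinuousOn.finset_sup'_apply
      intro i _
      exact ((hdotc (g i)).comp_continuousOn (hsol T).cont).sub continuousOn_const
    · intro t ht hφ
      have ht0 : 0 ≤ t := ht.1.le
      have hxbox : ∀ j, exp (-(L' * (a + 1))) ≤ x t j ∧ x t j ≤ exp (L' * (b + 1)) := fun j =>
        ⟨hδ.trans (hbox t ht0 j).1, (hbox t ht0 j).2.trans hC⟩
      obtain ⟨i, hi, hsign⟩ := hP.G2 L' hL' (x t) hxbox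
      have hφi : φ t = dot (g i) (x t) - h L' i :=
        le_antisymm (ciSup_le hi) (hle t i)
      -- the slope is not orthogonal to the class
      have hdown : ∃ e ∈ R, hOf (g i) e.2 < hOf (g i) e.1 := by
        by_contra hno
        have hcl' : InClass R c₀ (x t) := inClass_solution (hsol (t + 1)) hcl ⟨ht0, by linarith⟩
        have h1 := dot_eq_zero_of_no_down hWR hno hcl'
        have h2 : dot (g i) (fun j => x t j - c₀ j) = dot (g i) (x t) - dot (g i) c₀ := by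
          unfold dot
          rw [← Finset.sum_sub_distrib]
          exact Finset.sum_congr rfl (fun j _ => by ring)
        have h3 := hc₀ i
        linarith
      obtain ⟨e, he, hedown⟩ := hdown
      refine ⟨g i, ?_, ?_⟩
      · intro s _
        have h2 := hle s i
        linarith
      · have h1 := flux_normal hfl (hpos t ht0) (hk t) hsign he
        have h2 := mono_ge_Dmax (R := R) hδ0 hδ1 (fun j => (hbox t ht0 j).1) he
        have h3 : Δ ≤ max (hOf (g i) e.1 - hOf (g i) e.2) 0 :=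
          (hdrop i e he hedown).trans (le_max_left _ _)
        have h4 : δ ^ Dmax R * Δ ≤ mono (x t) e.1 * max (hOf (g i) e.1 - hOf (g i) e.2) 0 :=
          mul_le_mul h2 h3 hΔ.le (mono_pos (hpos t ht0) _).le
        have h5 : ε * (δ ^ Dmax R * Δ)
            ≤ ε * (mono (x t) e.1 * max (hOf (g i) e.1 - hOf (g i) e.2) 0) :=
          mul_le_mul_of_nonneg_left h4 hε.le
        have h6 : η = ε * (δ ^ Dmax R * Δ) / 2 := by rw [hη]; ring
        have h7 : ε * mono (x t) e.1 * max (hOf (g i) e.1 - hOf (g i) e.2) 0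
            = ε * (mono (x t) e.1 * max (hOf (g i) e.1 - hOf (g i) e.2) 0) := by ring
        rw [h7] at h1
        linarith
  refine ⟨|φ 0| / η, by positivity, fun i => ?_⟩
  have ht0 : 0 ≤ |φ 0| / η := by positivity
  have h1 := hmain (|φ 0| / η + 1) (|φ 0| / η) ⟨ht0, by linarith⟩
  have h2 : φ 0 - η * (|φ 0| / η - 0) ≤ 0 := by
    have h3 : η * (|φ 0| / η - 0) = |φ 0| := by
      field_simp
      ring
    rw [h3]
    linarith [le_abs_self (φ 0)]
  have h3 : φ (|φ 0| / η) ≤ 0 := h1.trans (max_le (le_refl _) h2)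
  linarith [hle (|φ 0| / η) i]

/-- The rate of the geometric decrease of the levels. -/
noncomputable def thetaOf (a b : ℝ) : ℝ := max (a / (a + 1)) (b / (b + 1))

lemma thetaOf_lt_one {a b : ℝ} (ha : 0 < a) (hb : 0 < b) : thetaOf a b < 1 := by
  unfold thetaOf
  apply max_lt
  · rw [div_lt_one (by linarith)]; linarith
  · rw [div_lt_one (by linarith)]; linarith

lemma thetaOf_pos {a b : ℝ} (ha : 0 < a) : 0 < thetaOf a b :=
  lt_of_lt_of_le (by positivity) (le_max_left _ _)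

/-- Finitely many descent steps lead to the smallest polytope. -/
lemma poly_descend (hP : IsPolyFamily (↑(dirs R) : Set (Fin d → ℝ)) g h L₀ a b)
    (hWR : WeaklyReversible R) (hε : 0 < ε) {B₀ L₁ : ℝ}
    (hfl : ∀ B, B₀ ≤ B → FluxOK R ε B) (hL₁ : L₀ ≤ L₁) (hB₁ : B₀ ≤ L₁) {c₀ : Fin d → ℝ}
    (hc₀ : ∀ L, L₁ ≤ L → ∀ i, dot (g i) c₀ ≤ h L i)
    {k : ℝ → Cx d × Cx d → ℝ} {x : ℝ → Fin d → ℝ}
    (hk : ∀ t r, ε ≤ k t r ∧ k t r ≤ ε⁻¹) (hsol : ∀ T, IsPosSolution R k T x)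
    (hcl : InClass R c₀ (x 0)) :
    ∀ (n : ℕ) (L : ℝ), L₁ ≤ L → thetaOf a b ^ n * L ≤ L₁ → ∀ t₀, 0 ≤ t₀ →
      (∀ i, dot (g i) (x t₀) ≤ h L i) → ∃ t₁, t₀ ≤ t₁ ∧ ∀ i, dot (g i) (x t₁) ≤ h L₁ i := by
  have ha := hP.ha
  have hb := hP.hb
  have hθ0 := thetaOf_pos (b := b) ha
  have hθ1 := thetaOf_lt_one ha hb
  have hL₁pos : 0 < L₁ := lt_of_lt_of_le hP.hL₀ hL₁
  intro n
  induction n with
  | zero =>
    intro L hL hL2 t₀ ht₀ h0
    have hLL : L = L₁ := le_antisymm (by simpa using hL2) hL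
    subst hLL
    exact ⟨t₀, le_refl _, h0⟩
  | succ n ih =>
    intro L hL hL2 t₀ ht₀ h0
    set L' := max (thetaOf a b * L) L₁ with hL'
    have hL'1 : L₁ ≤ L' := le_max_right _ _
    have hLpos : 0 < L := lt_of_lt_of_le hL₁pos hL
    have hL'θ : thetaOf a b * L ≤ L' := le_max_left _ _
    have hLL₀ : L₀ ≤ L := hL₁.trans hL
    have hBL : B₀ ≤ L := hB₁.trans hL
    -- the shifted solution
    have hsol' : ∀ T, IsPosSolution R (fun t => k (t + t₀)) T (fun t => x (t + t₀)) := by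
      intro T
      have := (hsol (T + t₀)).shift ht₀
      simpa using this
    have hk' : ∀ (t : ℝ) (r : Cx d × Cx d), ε ≤ k (t + t₀) r ∧ k (t + t₀) r ≤ ε⁻¹ :=
      fun t r => hk _ r
    have hcl' : InClass R c₀ (x (0 + t₀)) := by
      rw [zero_add]
      exact inClass_solution (hsol (t₀ + 1)) hcl ⟨ht₀, by linarith⟩
    have hinv : ∀ t, 0 ≤ t → ∀ i, dot (g i) (x (t + t₀)) ≤ h L i := by
      intro t ht
      exact poly_invariant_from hP hε hLL₀ (hfl L hBL) hk (hsol (t + t₀ + 1)) ht₀ h0 _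
        (by linarith) (by linarith)
    have hboxL : ∀ t, 0 ≤ t → ∀ j, exp (-(L * a)) ≤ x (t + t₀) j ∧ x (t + t₀) j ≤ exp (L * b) := by
      intro t ht
      exact hP.G1 L hLL₀ _ ((hsol (t + t₀ + 1)).pos _ ⟨by linarith, by linarith⟩) (hinv t ht)
    have hθa : a / (a + 1) ≤ thetaOf a b := le_max_left _ _
    have hθb : b / (b + 1) ≤ thetaOf a b := le_max_right _ _
    have hLa : L * a ≤ L' * (a + 1) := by
      have h1 : a / (a + 1) * L ≤ L' := (mul_le_mul_of_nonneg_right hθa hLpos.le).trans hL'θ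
      have h2 : a / (a + 1) * L * (a + 1) = L * a := by
        field_simp
      have h3 := mul_le_mul_of_nonneg_right h1 (by linarith : 0 ≤ a + 1)
      linarith
    have hLb : L * b ≤ L' * (b + 1) := by
      have h1 : b / (b + 1) * L ≤ L' := (mul_le_mul_of_nonneg_right hθb hLpos.le).trans hL'θ
      have h2 : b / (b + 1) * L * (b + 1) = L * b := by
        field_simp
      have h3 := mul_le_mul_of_nonneg_right h1 (by linarith : 0 ≤ b + 1)
      linarith
    obtain ⟨t₂, ht₂, hent⟩ := poly_step hP hWR hε (L' := L') (hL₁.trans hL'1)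
      (hfl L' (hB₁.trans hL'1)) (hc₀ L' hL'1) (δ := min (exp (-(L * a))) 1) (C := exp (L * b))
      (lt_min (exp_pos _) one_pos) (min_le_right _ _)
      (by
        apply le_min
        · apply exp_le_exp.mpr
          linarith
        · apply Real.exp_le_one_iff.mpr
          have : 0 ≤ L' * (a + 1) := by
            have := lt_of_lt_of_le hL₁pos hL'1
            positivity
          linarith)
      (exp_le_exp.mpr hLb) hk' hsol' hcl'
      (fun t ht j => ⟨(min_le_left _ _).trans (hboxL t ht j).1, (hboxL t ht j).2⟩)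
    have hnext : thetaOf a b ^ n * L' ≤ L₁ := by
      rw [hL']
      have hpow : 0 < thetaOf a b ^ n := pow_pos hθ0 n
      rcases le_total (thetaOf a b * L) L₁ with hc | hc
      · rw [max_eq_right hc]
        have h1 : thetaOf a b ^ n ≤ 1 := pow_le_one₀ hθ0.le hθ1.le
        have := mul_le_mul_of_nonneg_right h1 hL₁pos.le
        linarith
      · rw [max_eq_left hc]
        have : thetaOf a b ^ n * (thetaOf a b * L) = thetaOf a b ^ (n + 1) * L := by
          rw [pow_succ]; ring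
        rw [this]
        exact hL2
    obtain ⟨t₁, ht₁, hfin⟩ := ih L' hL'1 hnext (t₂ + t₀) (by linarith) hent
    exact ⟨t₁, by linarith, hfin⟩

/-- Uniform bounds: for each positive initial point there are uniform positive lower and upper
bounds for all solutions, all admissible rates and all existence times. -/
theorem poly_uniform_bounds (hP : IsPolyFamily (↑(dirs R) : Set (Fin d → ℝ)) g h L₀ a b)
    (hWR : WeaklyReversible R) (hε : 0 < ε) {x₀ : Fin d → ℝ} (hx₀ : ∀ i, 0 < x₀ i) :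
    ∃ δ C' : ℝ, 0 < δ ∧ ∀ (k : ℝ → Cx d × Cx d → ℝ) (T : ℝ) (x : ℝ → Fin d → ℝ),
      (∀ t r, ε ≤ k t r ∧ k t r ≤ ε⁻¹) → x 0 = x₀ → IsPosSolution R k T x →
      ∀ t ∈ Ico 0 T, ∀ i, δ ≤ x t i ∧ x t i ≤ C' := by
  obtain ⟨B₀, hfl⟩ := flux_strict hWR hε
  obtain ⟨L₂, hL₂⟩ := hP.G3 x₀ hx₀
  set L := max (max L₀ B₀) L₂ with hL
  have h1 : L₀ ≤ L := (le_max_left _ _).trans (le_max_left _ _)
  have h2 : B₀ ≤ L := (le_max_right _ _).trans (le_max_left _ _)
  have h3 : L₂ ≤ L := le_max_right _ _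
  refine ⟨exp (-(L * a)), exp (L * b), exp_pos _, ?_⟩
  intro k T x hk hx0 hsol t ht i
  have h0 : ∀ i, dot (g i) (x 0) ≤ h L i := by
    rw [hx0]
    exact hL₂ L h3
  have hinv := poly_invariant hP hε h1 (hfl L h2) hk hsol h0 t ht
  exact hP.G1 L h1 _ (hsol.pos t ht) hinv i

/-- The absorbing compact set: every global positive solution in the class eventually stays in
a box depending only on the class, the network and `ε`. -/
theorem poly_absorbing (hP : IsPolyFamily (↑(dirs R) : Set (Fin d → ℝ)) g h L₀ a b)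
    (hWR : WeaklyReversible R) (hε : 0 < ε) {c₀ : Fin d → ℝ} (hc₀ : ∀ i, 0 < c₀ i) :
    ∃ δ₀ C₀ : ℝ, 0 < δ₀ ∧ ∀ (k : ℝ → Cx d × Cx d → ℝ) (x : ℝ → Fin d → ℝ),
      (∀ t r, ε ≤ k t r ∧ k t r ≤ ε⁻¹) → (∀ T, IsPosSolution R k T x) → InClass R c₀ (x 0) →
      ∃ t₁ : ℝ, ∀ t, t₁ ≤ t → ∀ i, δ₀ ≤ x t i ∧ x t i ≤ C₀ := by
  obtain ⟨B₀, hfl⟩ := flux_strict hWR hε
  obtain ⟨L₂, hL₂⟩ := hP.G3 c₀ hc₀
  set L₁ := max (max L₀ B₀) L₂ with hL₁
  have h1 : L₀ ≤ L₁ := (le_max_left _ _).trans (le_max_left _ _)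
  have h2 : B₀ ≤ L₁ := (le_max_right _ _).trans (le_max_left _ _)
  have h3 : L₂ ≤ L₁ := le_max_right _ _
  have ha := hP.ha
  have hb := hP.hb
  have hL₁pos : 0 < L₁ := lt_of_lt_of_le hP.hL₀ h1
  refine ⟨exp (-(L₁ * a)), exp (L₁ * b), exp_pos _, ?_⟩
  intro k x hk hsol hcl
  have hpos0 : ∀ j, 0 < x 0 j := fun j => (hsol 1).pos 0 ⟨le_refl _, one_pos⟩ j
  obtain ⟨L₃, hL₃⟩ := hP.G3 (x 0) hpos0
  set L := max L₁ L₃ with hL
  have hθ0 := thetaOf_pos (b := b) ha
  have hθ1 := thetaOf_lt_one ha hb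
  have hLpos : 0 < L := lt_of_lt_of_le hL₁pos (le_max_left _ _)
  obtain ⟨n, hn⟩ := exists_pow_lt_of_lt_one (div_pos hL₁pos hLpos) hθ1
  have hn' : thetaOf a b ^ n * L ≤ L₁ := by
    rw [lt_div_iff₀ hLpos] at hn
    exact hn.le
  obtain ⟨t₁, ht₁, hent⟩ := poly_descend hP hWR hε hfl h1 h2
    (fun L hLL => hL₂ L (h3.trans hLL)) hk hsol hcl n L (le_max_left _ _) hn' 0 (le_refl _)
    (hL₃ L (le_max_right _ _))
  refine ⟨t₁, fun t ht i => ?_⟩
  have hinv := poly_invariant_from hP hε h1 (hfl L₁ h2) hk (hsol (t + 1)) ht₁ hent t ht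
    (by linarith)
  exact hP.G1 L₁ h1 _ ((hsol (t + 1)).pos t ⟨by linarith, by linarith⟩) hinv i

end Poly

/-! ### Existence and uniqueness from the a priori bounds -/

section Global

variable {κ : Cx d × Cx d → ℝ}

/-- The uniform bounds property of the network. -/
def UniformBounds (R : Finset (Cx d × Cx d)) : Prop :=
  ∀ ε : ℝ, 0 < ε → ∀ x₀ : Fin d → ℝ, (∀ i, 0 < x₀ i) →
    ∃ δ C' : ℝ, 0 < δ ∧ ∀ (k : ℝ → Cx d × Cx d → ℝ) (T : ℝ) (x : ℝ → Fin d → ℝ),
      (∀ t r, ε ≤ k t r ∧ k t r ≤ ε⁻¹) → x 0 = x₀ → IsPosSolution R k T x →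
      ∀ t ∈ Ico 0 T, ∀ i, δ ≤ x t i ∧ x t i ≤ C'

/-- The absorbing box property of the network. -/
def AbsorbingBox (R : Finset (Cx d × Cx d)) : Prop :=
  ∀ ε : ℝ, 0 < ε → ∀ c₀ : Fin d → ℝ, (∀ i, 0 < c₀ i) →
    ∃ δ₀ C₀ : ℝ, 0 < δ₀ ∧ ∀ (k : ℝ → Cx d × Cx d → ℝ) (x : ℝ → Fin d → ℝ),
      (∀ t r, ε ≤ k t r ∧ k t r ≤ ε⁻¹) → (∀ T, IsPosSolution R k T x) → InClass R c₀ (x 0) →
      ∃ t₁ : ℝ, ∀ t, t₁ ≤ t → ∀ i, δ₀ ≤ x t i ∧ x t i ≤ C₀

/-- The a priori box. -/
lemma exists_box_of (hU : UniformBounds R)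
    (hκ : ∀ r ∈ R, 0 < κ r) {x₀ : Fin d → ℝ} (hx₀ : ∀ i, 0 < x₀ i) :
    ∃ δ C : ℝ, 0 < δ ∧ δ ≤ C ∧ (∀ i, δ ≤ x₀ i ∧ x₀ i ≤ C) ∧
      ∀ T (G : (Fin d → ℝ) → (Fin d → ℝ)) (x : ℝ → Fin d → ℝ),
        (∀ y, (∀ i, δ / 2 ≤ y i ∧ y i ≤ C + 1) → G y = massAction R κ y) → x 0 = x₀ →
        ContinuousOn x (Ico 0 T) → (∀ t ∈ Ioo 0 T, HasDerivAt x (G (x t)) t) →
        ∀ t ∈ Ico 0 T, ∀ i, δ ≤ x t i ∧ x t i ≤ C := by
  classical
  obtain ⟨ε, hε, hε1, hεκ⟩ := exists_eps R κ hκ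
  obtain ⟨δ₀, C₀, hδ₀, hbd⟩ := hU ε hε x₀ hx₀
  obtain ⟨δ₁, hδ₁, -, hδ₁le⟩ := exists_pos_lb Finset.univ x₀ (fun i _ => hx₀ i)
  obtain ⟨C₁, hC₁⟩ : ∃ C₁, ∀ i, x₀ i ≤ C₁ := by
    obtain ⟨C₁, hC₁⟩ := (Set.finite_range x₀).bddAbove
    exact ⟨C₁, fun i => hC₁ (mem_range_self i)⟩
  let δ := min δ₀ δ₁
  let C := max (max C₀ C₁) δ
  have hδ : 0 < δ := lt_min hδ₀ hδ₁
  have hC₀C : C₀ ≤ C := (le_max_left _ _).trans (le_max_left _ _)
  have hC₁C : C₁ ≤ C := (le_max_right _ _).trans (le_max_left _ _)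
  refine ⟨δ, C, hδ, le_max_right _ _, fun i => ⟨(min_le_right _ _).trans (hδ₁le i (Finset.mem_univ i)),
    (hC₁ i).trans hC₁C⟩, ?_⟩
  intro T G x hG h0 hc hd
  let U : Set (Fin d → ℝ) := {y | ∀ i, δ / 2 < y i ∧ y i < C + 1}
  let V : Set (Fin d → ℝ) := {y | ∀ i, δ ≤ y i ∧ y i ≤ C}
  have hU' : IsOpen U := by
    have : U = ⋂ i, {y : Fin d → ℝ | δ / 2 < y i ∧ y i < C + 1} := by
      ext y; simp [U]
    rw [this]
    apply isOpen_iInter_of_finite
    intro i
    exact (isOpen_lt continuous_const (continuous_apply i)).inter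
      (isOpen_lt (continuous_apply i) continuous_const)
  have hV : IsClosed V := by
    have : V = ⋂ i, {y : Fin d → ℝ | δ ≤ y i ∧ y i ≤ C} := by
      ext y; simp [V]
    rw [this]
    apply isClosed_iInter
    intro i
    exact (isClosed_le continuous_const (continuous_apply i)).inter
      (isClosed_le (continuous_apply i) continuous_const)
  have hVU : V ⊆ U := fun y hy i => ⟨by linarith [(hy i).1], by linarith [(hy i).2]⟩
  have hx0V : ∀ i, δ ≤ x 0 i ∧ x 0 i ≤ C := by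
    intro i
    rw [h0]
    exact ⟨(min_le_right _ _).trans (hδ₁le i (Finset.mem_univ i)), (hC₁ i).trans hC₁C⟩
  have key := stay_in hc hU' hV hVU (hVU hx0V) ?_
  · exact fun t ht i => key t ht i
  intro s hs hsT hsU t ht i
  have hsol : IsPosSolution R (fun _ => extRate R κ) s x := by
    refine ⟨fun t ht i => by linarith [(hsU t ht i).1], hc.mono (Ico_subset_Ico_right hsT), ?_⟩
    intro t ht
    have h1 := hd t ⟨ht.1, lt_of_lt_of_le ht.2 hsT⟩
    rw [hG (x t) (fun i => ⟨(hsU t ⟨ht.1.le, ht.2⟩ i).1.le, (hsU t ⟨ht.1.le, ht.2⟩ i).2.le⟩)] at h1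
    rw [massAction_extRate]
    exact h1
  have hk : ∀ (t : ℝ) (r : Cx d × Cx d), ε ≤ (fun _ => extRate R κ) t r ∧
      (fun _ => extRate R κ) t r ≤ ε⁻¹ := by
    intro _ r
    by_cases hr : r ∈ R
    · simpa [extRate, hr] using hεκ r hr
    · simp only [extRate, hr, if_false]
      exact ⟨hε1, (one_le_inv₀ hε).mpr hε1⟩
  have hfin := hbd _ s x hk h0 hsol t ht i
  exact ⟨(min_le_left _ _).trans hfin.1, hfin.2.trans hC₀C⟩

/-- Existence of a global positive solution and uniqueness among all solutions. -/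
theorem exists_unique_global_of (hU : UniformBounds R)
    (hκ : ∀ r ∈ R, 0 < κ r) {x₀ : Fin d → ℝ} (hx₀ : ∀ i, 0 < x₀ i) :
    ∃ x : ℝ → Fin d → ℝ, x 0 = x₀ ∧ (∀ T, IsPosSolution R (fun _ => κ) T x) ∧
      ∀ T (y : ℝ → Fin d → ℝ), IsSolution R κ T y → y 0 = x₀ → ∀ t ∈ Ico 0 T, y t = x t := by
  obtain ⟨δ, C, hδ, hδC, hx₀box, hbox⟩ := exists_box_of hU hκ hx₀
  obtain ⟨F, K, L, hF, hFb, hFf⟩ := exists_truncated (massAction R κ) (contDiff_massAction R κ)
    (a := δ / 2) (b := C + 1) (by linarith)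
  obtain ⟨x, hx0, hxc, hxd⟩ := exists_global_solution F K L hF hFb x₀
  have hxcI : ∀ T, ContinuousOn x (Ico 0 T) := fun T => hxc.mono (fun s hs => hs.1)
  have hxbox : ∀ t, 0 ≤ t → ∀ i, δ ≤ x t i ∧ x t i ≤ C := fun t ht i =>
    hbox (t + 1) F x hFf hx0 (hxcI _) (fun s hs => hxd s hs.1) t ⟨ht, by linarith⟩ i
  have hFx : ∀ t, 0 ≤ t → F (x t) = massAction R κ (x t) := fun t ht =>
    hFf _ (fun i => ⟨by linarith [(hxbox t ht i).1], by linarith [(hxbox t ht i).2]⟩)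
  refine ⟨x, hx0, ?_, ?_⟩
  · intro T
    refine ⟨fun t ht i => lt_of_lt_of_le hδ (hxbox t ht.1 i).1, hxcI T, fun t ht => ?_⟩
    rw [← hFx t ht.1.le]
    exact hxd t ht.1
  · intro T y hy hy0 t₁ ht₁
    have hybox := hbox T (massAction R κ) y (fun _ _ => rfl) hy0 hy.cont hy.deriv
    have hFy : ∀ t ∈ Ico 0 T, F (y t) = massAction R κ (y t) := fun t ht =>
      hFf _ (fun i => ⟨by linarith [(hybox t ht i).1], by linarith [(hybox t ht i).2]⟩)
    have hyd : ∀ t ∈ Ioo 0 T, HasDerivAt y (F (y t)) t := fun t ht => by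
      rw [hFy t ⟨ht.1.le, ht.2⟩]
      exact hy.deriv t ht
    rcases eq_or_lt_of_le ht₁.1 with h | h
    · rw [← h, hy0, hx0]
    have hT : 0 < T := lt_trans h ht₁.2
    have hsub : Icc 0 t₁ ⊆ Ico 0 T := fun s hs => ⟨hs.1, lt_of_le_of_lt hs.2 ht₁.2⟩
    have hxd0 : HasDerivWithinAt x (F (x 0)) (Ici 0) 0 :=
      hasDerivWithinAt_zero hF.continuous (T := 1) one_pos (hxcI 1) (fun t ht => hxd t ht.1)
    have hyd0 : HasDerivWithinAt y (F (y 0)) (Ici 0) 0 :=
      hasDerivWithinAt_zero hF.continuous hT hy.cont hyd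
    have huniq := ODE_solution_unique (v := fun _ => F) (f := y) (g := x) (a := 0) (b := t₁) (K := K)
      (fun _ => hF) (hy.cont.mono hsub) ?_ ((hxcI T).mono hsub) ?_ (by rw [hy0, hx0])
    · exact huniq ⟨h.le, le_refl _⟩
    · intro t ht
      rcases eq_or_lt_of_le ht.1 with h' | h'
      · rw [← h']; exact hyd0
      · exact (hyd t ⟨h', lt_trans ht.2 ht₁.2⟩).hasDerivWithinAt
    · intro t ht
      rcases eq_or_lt_of_le ht.1 with h' | h'
      · rw [← h']; exact hxd0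
      · exact (hxd t h').hasDerivWithinAt

/-- Permanence on each positive stoichiometric class. -/
theorem compact_absorbing_of (hU : UniformBounds R) (hA : AbsorbingBox R)
    (hκ : ∀ r ∈ R, 0 < κ r) {c₀ : Fin d → ℝ} (hc₀ : ∀ i, 0 < c₀ i) :
    ∃ K : Set (Fin d → ℝ), IsCompact K ∧ (∀ y ∈ K, (∀ i, 0 < y i) ∧ (fun i => y i - c₀ i) ∈ stoich R) ∧
      ∀ x : ℝ → Fin d → ℝ, (∀ T, IsSolution R κ T x) → (∀ i, 0 < x 0 i) →
        (fun i => x 0 i - c₀ i) ∈ stoich R → ∃ t₁ : ℝ, ∀ t, t₁ ≤ t → x t ∈ K := by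
  classical
  obtain ⟨ε, hε, hε1, hεκ⟩ := exists_eps R κ hκ
  obtain ⟨δ₀, C₀, hδ₀, habs⟩ := hA ε hε c₀ hc₀
  have hk : ∀ (t : ℝ) (r : Cx d × Cx d), ε ≤ (fun _ => extRate R κ) t r ∧
      (fun _ => extRate R κ) t r ≤ ε⁻¹ := by
    intro _ r
    by_cases hr : r ∈ R
    · simpa [extRate, hr] using hεκ r hr
    · simp only [extRate, hr, if_false]
      exact ⟨hε1, (one_le_inv₀ hε).mpr hε1⟩
  let K : Set (Fin d → ℝ) := Icc (fun _ => δ₀) (fun _ => C₀) ∩ {y | (fun i => y i - c₀ i) ∈ stoich R}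
  have hclosedS : IsClosed {y : Fin d → ℝ | (fun i => y i - c₀ i) ∈ stoich R} := by
    have h1 : IsClosed ((stoich R : Submodule ℝ (Fin d → ℝ)) : Set (Fin d → ℝ)) :=
      Submodule.closed_of_finiteDimensional _
    have h2 : Continuous (fun y : Fin d → ℝ => (fun i => y i - c₀ i)) := by fun_prop
    exact h1.preimage h2
  refine ⟨K, isCompact_Icc.inter_right hclosedS, ?_, ?_⟩
  · intro y hy
    exact ⟨fun i => lt_of_lt_of_le hδ₀ (hy.1.1 i), hy.2⟩
  · intro x hx hx0 hcl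
    obtain ⟨δ, C, hδ, -, -, hbox⟩ := exists_box_of hU hκ hx0
    have hxbox : ∀ t, 0 ≤ t → ∀ i, δ ≤ x t i ∧ x t i ≤ C := fun t ht i =>
      hbox (t + 1) (massAction R κ) x (fun _ _ => rfl) rfl (hx _).cont (hx _).deriv t
        ⟨ht, by linarith⟩ i
    have hpos : ∀ T, IsPosSolution R (fun _ => extRate R κ) T x := by
      intro T
      refine ⟨fun t ht i => lt_of_lt_of_le hδ (hxbox t ht.1 i).1, (hx T).cont, fun t ht => ?_⟩
      rw [massAction_extRate]
      exact (hx T).deriv t ht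
    obtain ⟨t₁, ht₁⟩ := habs _ x hk hpos hcl
    refine ⟨max t₁ 0, fun t ht => ⟨⟨fun i => (ht₁ t ((le_max_left _ _).trans ht) i).1,
      fun i => (ht₁ t ((le_max_left _ _).trans ht) i).2⟩, ?_⟩⟩
    have ht0 : 0 ≤ t := (le_max_right _ _).trans ht
    have h1 := solution_mem_stoich (hpos (t + 1)) (t := t) ⟨ht0, by linarith⟩
    have h2 : (fun i => x t i - c₀ i) = (fun i => x t i - x 0 i) + (fun i => x 0 i - c₀ i) := by
      funext i; simp
    show (fun i => x t i - c₀ i) ∈ stoich R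
    rw [h2]
    exact (stoich R).add_mem h1 hcl

end Global

/-- Everything about a weakly reversible network which follows from a family of polytopes. -/
theorem permanence_of_poly {ι : Type*} [Fintype ι] {g : ι → Fin d → ℝ} {h : ℝ → ι → ℝ}
    {L₀ a b : ℝ} (hP : IsPolyFamily (↑(dirs R) : Set (Fin d → ℝ)) g h L₀ a b)
    (hWR : WeaklyReversible R) : UniformBounds R ∧ AbsorbingBox R :=
  ⟨fun _ hε _ hx₀ => poly_uniform_bounds hP hWR hε hx₀,
    fun _ hε _ hc₀ => poly_absorbing hP hWR hε hc₀⟩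

/-- The integer vectors with entries bounded by `N` in absolute value, as real vectors. -/
def intBox (d N : ℕ) : Set (Fin d → ℝ) :=
  {u | ∃ z : Fin d → ℤ, (∀ i, u i = (z i : ℝ)) ∧ ∀ i, |z i| ≤ (N : ℤ)}

lemma IsPolyFamily.mono {ι : Type*} [Fintype ι] {W W' : Set (Fin d → ℝ)} {g : ι → Fin d → ℝ}
    {h : ℝ → ι → ℝ} {L₀ a b : ℝ} (hP : IsPolyFamily W' g h L₀ a b) (hW : W ⊆ W') :
    IsPolyFamily W g h L₀ a b where
  ha := hP.ha
  hb := hP.hb
  hL₀ := hP.hL₀
  G1 := hP.G1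
  G2 := fun L hL x hx => by
    obtain ⟨i, hi, hs⟩ := hP.G2 L hL x hx
    exact ⟨i, hi, fun u hu => hs u (hW hu)⟩
  G3 := hP.G3

/-- The complex differences of a network lie in a box of integer vectors. -/
lemma dirs_subset_intBox (R : Finset (Cx d × Cx d)) :
    ∃ N : ℕ, (↑(dirs R) : Set (Fin d → ℝ)) ⊆ intBox d N := by
  obtain ⟨N₀, -, hN₀⟩ := dirs_bound R
  refine ⟨⌈N₀⌉₊, fun u hu => ?_⟩
  have hu' : u ∈ dirs R := hu
  obtain ⟨s, a, -, -, rfl⟩ := dirs_spec hu'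
  refine ⟨fun i => (s i : ℤ) - (a i : ℤ), fun i => by simp [diffv], fun i => ?_⟩
  have h1 := hN₀ _ hu' i
  have h2 : |diffv s a i| ≤ (⌈N₀⌉₊ : ℝ) := h1.trans (Nat.le_ceil _)
  have h3 : diffv s a i = (((s i : ℤ) - (a i : ℤ) : ℤ) : ℝ) := by simp [diffv]
  rw [h3] at h2
  have h4 : ((|((s i : ℤ) - (a i : ℤ))| : ℤ) : ℝ) ≤ ((⌈N₀⌉₊ : ℤ) : ℝ) := by
    push_cast at h2 ⊢
    exact h2
  exact_mod_cast h4

/-- The geometric input, for all bounds `N` on the entries. -/
def PolyInput (d : ℕ) : Prop :=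
  ∀ N : ℕ, ∃ (ι : Type) (_ : Fintype ι) (g : ι → Fin d → ℝ) (h : ℝ → ι → ℝ) (L₀ a b : ℝ),
    IsPolyFamily (intBox d N) g h L₀ a b

/-- Permanence of all weakly reversible networks in `d` species from the geometric input. -/
theorem permanence_of_input (hG : PolyInput d) (hWR : WeaklyReversible R) :
    UniformBounds R ∧ AbsorbingBox R := by
  obtain ⟨N, hN⟩ := dirs_subset_intBox R
  obtain ⟨ι, _, g, h, L₀, a, b, hP⟩ := hG N
  exact permanence_of_poly (hP.mono hN) hWR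

/-- The geometric input in dimension zero. -/
lemma polyInput_zero : PolyInput 0 := by
  intro N
  refine ⟨Unit, inferInstance, fun _ _ => 0, fun _ _ => 0, 1, 1, 1, ?_⟩
  refine ⟨one_pos, one_pos, one_pos, fun L _ x _ _ j => j.elim0, fun L _ x _ => ?_,
    fun x _ => ⟨0, fun L _ i => by simp [dot]⟩⟩
  refine ⟨(), fun i' => le_refl _, fun u _ hu => ?_⟩
  simp [dot] at hu

end Vale.Agent.Lib.P072
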