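import Vale.Agent.Lib.P072.All.Zero
import Vale.Agent.Lib.P072.All.Flow

/-!
# The family of polytopes in all dimensions
-/

namespace Vale.Agent.Lib.P072.All

open Finset Real

variable {d : ℕ}

/-- A vector on `Fin d`, after a permutation, as a function on the natural numbers. -/
noncomputable def xt (x : Fin d → ℝ) (p : Equiv.Perm (Fin d)) : ℕ → ℝ :=
  fun i => if h : i < d then x (p ⟨i, h⟩) else 0

lemma xt_val (x : Fin d → ℝ) (p : Equiv.Perm (Fin d)) (i : Fin d) : xt x p i.val = x (p i) := by
  simp [xt, i.isLt]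

lemma sum_range_fin (f : ℕ → ℝ) : ∑ i ∈ range d, f i = ∑ i : Fin d, f i.val :=
  (Fin.sum_univ_eq_sum_range f d).symm

lemma sum_xt (f : ℕ → ℝ) (x : Fin d → ℝ) (p : Equiv.Perm (Fin d)) :
    ∑ i ∈ range d, f i * xt x p i = ∑ j, f (p.symm j).val * x j := by
  rw [sum_range_fin, ← Equiv.sum_comp p (fun j => f (p.symm j).val * x j)]
  apply sum_congr rfl
  intro i _
  rw [xt_val]
  simp

lemma sum_xt_one (x : Fin d → ℝ) (p : Equiv.Perm (Fin d)) :
    ∑ i ∈ range d, xt x p i = ∑ j, x j := by
  have := sum_xt (fun _ => 1) x p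
  simpa using this

/-- An integer vector on `Fin d` as a function on the natural numbers. -/
def extZ (z : Fin d → ℤ) : ℕ → ℤ := fun i => if h : i < d then z ⟨i, h⟩ else 0

lemma extZ_val (z : Fin d → ℤ) (i : Fin d) : extZ z i.val = z i := by
  simp [extZ, i.isLt]

/-- A permutation sorting a vector. -/
lemma exists_sorted (x : Fin d → ℝ) : ∃ p : Equiv.Perm (Fin d),
    ∀ i j : ℕ, i ≤ j → j < d → xt x p j ≤ xt x p i := by
  refine ⟨Tuple.sort (fun j => -x j), fun i j hij hj => ?_⟩
  have hi : i < d := by omega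
  have h1 := Tuple.monotone_sort (fun j => -x j)
    (show (⟨i, hi⟩ : Fin d) ≤ ⟨j, hj⟩ from hij)
  simp only [Function.comp_apply] at h1
  simp only [xt, hi, hj, dif_pos]
  linarith

variable {Y : Sys d}

/-- The rearrangement inequality on paths. -/
lemma rearrange {s : St} (hs : s ∈ Paths Y) {x : Fin d → ℝ} {p : Equiv.Perm (Fin d)}
    (hp : ∀ i j : ℕ, i ≤ j → j < d → xt x p j ≤ xt x p i) (p' : Equiv.Perm (Fin d)) (L : ℝ) :
    V d L (xt x p') s ≤ V d L (xt x p) s := by
  unfold V
  apply add_le_add_left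
  rw [sum_range_fin, sum_range_fin]
  have hmono : Monovary (fun i : Fin d => s.ν i.val) (fun i : Fin d => x (p i)) := by
    intro i j hij
    have hji : j.val ≤ i.val := by
      by_contra hcon
      push Not at hcon
      have := hp i.val j.val hcon.le j.isLt
      rw [xt_val, xt_val] at this
      linarith
    exact path_anti' hs hji i.isLt
  have h := hmono.sum_mul_comp_perm_le_sum_mul (σ := p⁻¹ * p')
  have hpp : ∀ i, p ((p⁻¹ * p') i) = p' i := fun i => by simp
  simp only [hpp] at h
  simpa only [xt_val] using h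

/-- The family attached to a system. -/
theorem family_of_sys (hd : 0 < d) (Y : Sys d) (N : ℕ)
    (hD : ∀ z : Fin d → ℤ, (∀ j, |z j| ≤ (N : ℤ)) → extZ z ∈ Y.D d)
    (hM : 2 * d * N + 1 ≤ Y.M d) :
    ∃ (ι : Type) (_ : Fintype ι) (g : ι → Fin d → ℝ) (h : ℝ → ι → ℝ) (L₀ a b : ℝ),
      IsPolyFamily (intBox d N) g h L₀ a b := by
  classical
  obtain ⟨S, hS⟩ := exists_slopeBd Y
  have hS0 := hS.1
  have hfin : Fintype (Paths Y) := (paths_finite (Y := Y)).fintype
  let ι : Type := Equiv.Perm (Fin d) × (Paths Y)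
  let g : ι → Fin d → ℝ := fun i j => i.2.1.ν (i.1.symm j).val
  let h : ℝ → ι → ℝ := fun L i => (zeroSt Y d).C L - i.2.1.C L
  have hdot : ∀ (i : ι) (x : Fin d → ℝ) (L : ℝ),
      dot (g i) x - h L i = V d L (xt x i.1) i.2.1 - (zeroSt Y d).C L := by
    intro i x L
    unfold V dot
    rw [sum_xt]
    simp only [g, h]
    ring
  have hle : ∀ (i : ι) (x : Fin d → ℝ) (L : ℝ), dot (g i) x ≤ h L i ↔
      V d L (xt x i.1) i.2.1 ≤ (zeroSt Y d).C L := by
    intro i x L
    have := hdot i x L
    constructor <;> intro h1 <;> linarith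
  have hK := Y.K_three 0 hd
  have hbstar : 0 < bstar Y := by
    unfold bstar
    apply prod_pos
    intro i hi
    have := Y.K_three i (mem_range.mp hi)
    linarith
  set L₀ : ℝ := max 1 (max (log (2 * d)) (2 * d * S)) with hL₀
  have hL₀1 : 1 ≤ L₀ := le_max_left _ _
  have hL₀2 : log (2 * d) ≤ L₀ := (le_max_left _ _).trans (le_max_right _ _)
  have hL₀3 : 2 * d * S ≤ L₀ := (le_max_right _ _).trans (le_max_right _ _)
  have hsmall : ∀ L, L₀ ≤ L → d * S * exp (-L) ≤ 1 / 2 := by
    intro L hL
    have h1 : 2 * d * S ≤ exp L := by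
      have := add_one_le_exp L
      linarith
    rw [exp_neg, ← div_eq_mul_inv, div_le_iff₀ (exp_pos _)]
    linarith
  refine ⟨ι, inferInstance, g, h, L₀, bstar Y, Y.K 0, ?_⟩
  refine ⟨hbstar, by linarith, by linarith, ?_, ?_, ?_⟩
  · -- the bounds on the polytope
    intro L hL x hx hQ
    have hall : ∀ (p : Equiv.Perm (Fin d)), ∀ s ∈ Paths Y,
        V d L (xt x p) s ≤ (zeroSt Y d).C L := fun p s hs => (hle (p, ⟨s, hs⟩) x L).mp (hQ _)
    intro j
    constructor
    · let last : Fin d := ⟨d - 1, by omega⟩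
      have h1 := lower_bound hd (hall (Equiv.swap last j))
      have h2 : xt x (Equiv.swap last j) (d - 1) = x j := by
        have := xt_val x (Equiv.swap last j) last
        simpa [last] using this
      rw [h2] at h1
      exact h1
    · have hy : ∀ i < d, 0 ≤ xt x 1 i := by
        intro i hi
        have := xt_val x 1 ⟨i, hi⟩
        simp only at this
        rw [this]
        exact (hx _).le
      have h1 := upper_bound hd hy (hall 1) j.val j.isLt
      rw [xt_val] at h1
      exact h1
  · -- the sign property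
    intro L hL x hbox
    have hL1 : 1 ≤ L := hL₀1.trans hL
    have hx : ∀ j, 0 < x j := fun j => (exp_pos _).trans_le (hbox j).1
    obtain ⟨p, hp⟩ := exists_sorted x
    obtain ⟨s, hs, hmax⟩ := Set.exists_max_image (Paths Y) (fun s => V d L (xt x p) s) paths_finite
      paths_nonempty
    refine ⟨(p, ⟨s, hs⟩), ?_, ?_⟩
    · rintro ⟨p', s', hs'⟩
      rw [hdot, hdot]
      have h1 := rearrange hs' hp p' L
      have h2 := hmax s' hs'
      simp only at h1 h2 ⊢
      linarith
    · rintro u ⟨z, huz, hz⟩ hpos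
      have hzero : 0 < zz (extZ (fun i => z (p i))) s.ν d := by
        unfold zz
        rw [sum_range_fin]
        have h1 : 0 < ∑ j, u j * s.ν (p.symm j).val := by
          have : dot u (g (p, ⟨s, hs⟩)) = ∑ j, u j * s.ν (p.symm j).val := rfl
          rwa [this] at hpos
        rw [← Equiv.sum_comp p (fun j => u j * s.ν (p.symm j).val)] at h1
        convert h1 using 2 with i
        rw [extZ_val, huz]
        simp
      have hmem : extZ (fun i => z (p i)) ∈ Y.D d := hD _ (fun j => hz _)
      have hsumabs : 2 * ∑ i ∈ range d, |((extZ (fun i => z (p i)) i : ℤ) : ℝ)| + 1 ≤ Y.M d := by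
        refine le_trans ?_ hM
        have h1 : ∑ i ∈ range d, |((extZ (fun i => z (p i)) i : ℤ) : ℝ)| ≤ d * N := by
          rw [sum_range_fin]
          have h2 : ∀ i ∈ (univ : Finset (Fin d)),
              |((extZ (fun i => z (p i)) i.val : ℤ) : ℝ)| ≤ (N : ℝ) := by
            intro i _
            rw [extZ_val]
            have := hz (p i)
            have h3 : ((|z (p i)| : ℤ) : ℝ) ≤ ((N : ℤ) : ℝ) := by exact_mod_cast this
            simpa using h3
          have h4 := sum_le_card_nsmul _ _ _ h2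
          simpa using h4
        linarith
      have hsign := sign_of_box hS hL1 (hsmall L hL) (hL₀2.trans hL)
        (x := xt x p) (fun i hi => by
          have := xt_val x p ⟨i, hi⟩
          simp only at this
          rw [this]
          exact hx _) hp
        (fun i hi => by
          have := xt_val x p ⟨i, hi⟩
          simp only at this
          rw [this, le_log_iff_exp_le (hx _)]
          exact (hbox _).1)
        (fun i hi => by
          have := xt_val x p ⟨i, hi⟩
          simp only at this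
          rw [this, log_le_iff_le_exp (hx _)]
          exact (hbox _).2)
        hs hmax hmem hsumabs hzero
      have h5 : ∑ i ∈ range d, ((extZ (fun i => z (p i)) i : ℤ) : ℝ) * log (xt x p i)
          = dot u (lv x) := by
        rw [sum_range_fin]
        unfold dot lv
        rw [← Equiv.sum_comp p (fun j => u j * log (x j))]
        apply sum_congr rfl
        intro i _
        rw [extZ_val, xt_val, huz]
      rw [← h5]
      exact hsign
  · -- every point lies in the polytopes at a large scale
    intro x hx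
    have : Nonempty (Fin d) := ⟨⟨0, hd⟩⟩
    obtain ⟨j₀, hj₀⟩ := Finite.exists_min x
    set m := x j₀ with hm
    have hm0 : 0 < m := hx j₀
    set σ₀ := ∑ j, x j with hσ₀
    refine ⟨max L₀ (max (2 * σ₀) ((d + 1) * S / m)), ?_⟩
    intro L hL i
    rw [hle]
    have hLL₀ : L₀ ≤ L := (le_max_left _ _).trans hL
    have hL1 : 1 ≤ L := hL₀1.trans hLL₀
    have hL2 : 2 * σ₀ ≤ L := ((le_max_left _ _).trans (le_max_right _ _)).trans hL
    have hL3 : (d + 1) * S / m ≤ L := ((le_max_right _ _).trans (le_max_right _ _)).trans hL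
    have hexpL := add_one_le_exp L
    refine zero_dom hS hL1 hm0 ?_ (sum_xt_one x i.1).le ?_ ?_ i.2.1 i.2.2
    · intro k hk
      have := xt_val x i.1 ⟨k, hk⟩
      simp only at this
      rw [this]
      exact hj₀ _
    · rw [exp_neg, ← div_eq_mul_inv, div_le_iff₀ (exp_pos _)]
      have h1 : (d + 1) * S / m ≤ exp L := by linarith
      rw [div_le_iff₀ hm0] at h1
      linarith
    · intro _
      have hL0 : 0 ≤ L := by linarith
      have hE : exp L ≤ exp (L * Y.K 0) :=
        exp_le_exp.mpr (by nlinarith)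
      have hEpos := exp_pos (L * Y.K 0)
      have h1 : exp (L * (Y.K 0 - 2)) ≤ exp (L * Y.K 0) * exp (-L) := by
        rw [← exp_add]
        apply exp_le_exp.mpr
        nlinarith
      have h2 := hsmall L hLL₀
      have h3 : (d : ℝ) * S * exp (L * (Y.K 0 - 2)) ≤ exp (L * Y.K 0) * (1 / 2) := by
        have h4 : (d : ℝ) * S * exp (L * (Y.K 0 - 2)) ≤ d * S * (exp (L * Y.K 0) * exp (-L)) :=
          mul_le_mul_of_nonneg_left h1 (by positivity)
        have h5 : (d : ℝ) * S * (exp (L * Y.K 0) * exp (-L)) = exp (L * Y.K 0) * (d * S * exp (-L)) := by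
          ring
        rw [h5] at h4
        exact h4.trans (mul_le_mul_of_nonneg_left h2 hEpos.le)
      have h6 : 2 * σ₀ ≤ exp (L * Y.K 0) := by linarith
      nlinarith

open scoped Classical in
/-- The set of vectors. -/
noncomputable def boxW (d N : ℕ) : Finset (ℕ → ℤ) :=
  (Fintype.piFinset (fun _ : Fin d => Finset.Icc (-(N : ℤ)) N)).image extZ

open scoped Classical in
lemma mem_boxW {N : ℕ} {z : Fin d → ℤ} (hz : ∀ j, |z j| ≤ (N : ℤ)) : extZ z ∈ boxW d N := by
  unfold boxW
  rw [mem_image]
  refine ⟨z, ?_, rfl⟩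
  rw [Fintype.mem_piFinset]
  intro j
  rw [Finset.mem_Icc, ← abs_le]
  exact hz j

lemma exchV_mem_boxW {N l : ℕ} (hN : 1 ≤ N) (hld : l < d) : exchV l ∈ boxW d N := by
  have h1 : exchV l = extZ (fun j : Fin d => exchV l j.val) := by
    funext i
    by_cases hi : i < d
    · simp [extZ, hi]
    · have h2 : ¬ i + 1 = l := by omega
      have h3 : ¬ i = l := by omega
      simp [extZ, hi, exchV, h2, h3]
  rw [h1]
  apply mem_boxW
  intro j
  have h2 : |exchV l j.val| ≤ 1 := by
    unfold exchV
    split_ifs <;> simp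
  have h3 : (1 : ℤ) ≤ N := by exact_mod_cast hN
  exact h2.trans h3

/-- The geometric input in all dimensions. -/
theorem polyInput (d : ℕ) : PolyInput d := by
  rcases Nat.eq_zero_or_pos d with rfl | hd
  · exact polyInput_zero
  intro N
  have hW : ∀ l, 1 ≤ l → l < d → exchV l ∈ boxW d (max N 1) := fun l _ hl =>
    exchV_mem_boxW (le_max_right _ _) hl
  have hM₀ : (1 : ℝ) ≤ 2 * d * (max N 1 : ℕ) + 1 := by
    have : (0 : ℝ) ≤ 2 * d * (max N 1 : ℕ) := by positivity
    linarith
  obtain ⟨ι, i1, g, h, L₀, a, b, hP⟩ := family_of_sys hd (mkSys (boxW d (max N 1)) d _ hM₀ hW)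
    (max N 1) (by
      intro z hz
      rw [mkSys_D_top]
      exact mem_boxW hz) (by
      rw [mkSys_M_top])
  refine ⟨ι, i1, g, h, L₀, a, b, hP.mono ?_⟩
  rintro u ⟨z, h1, h2⟩
  refine ⟨z, h1, fun i => (h2 i).trans ?_⟩
  have : N ≤ max N 1 := le_max_left _ _
  exact_mod_cast this

end Vale.Agent.Lib.P072.All
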