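import Vale.Agent.Lib.P072.All.CarExist
import Vale.Agent.Lib.P072.All.Family

/-! Global existence, uniqueness and permanence for measurable rates. -/

namespace Vale.Agent.Lib.P072

open Finset Real Set Filter Topology MeasureTheory
open scoped NNReal

variable {d : ℕ} {R : Finset (Cx d × Cx d)} {ε : ℝ}

/-- A truncation of the field which is bounded and globally Lipschitz. -/
lemma exists_trunc_field {k : ℝ → Cx d × Cx d → ℝ} (hε : 0 < ε)
    (hkm : ∀ r, Measurable fun t => k t r) (hk : ∀ t r, ε ≤ k t r ∧ k t r ≤ ε⁻¹)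
    {a b : ℝ} (hab : a ≤ b) :
    ∃ (Φ : ℝ → (Fin d → ℝ) → Fin d → ℝ) (K M : ℝ), 0 < K ∧ 0 ≤ M ∧
      (∀ u : ℝ → Fin d → ℝ, Continuous u → ∀ i a b,
        IntervalIntegrable (fun s => Φ s (u s) i) volume a b) ∧
      (∀ s y z i, |Φ s y i - Φ s z i| ≤ K * ‖y - z‖) ∧
      (∀ s y i, |Φ s y i| ≤ M) ∧
      ∀ s y, (∀ i, a ≤ y i ∧ y i ≤ b) → Φ s y = massAction R (k s) y := by
  have hcd : ∀ r : Cx d × Cx d, ContDiff ℝ 1 (fun (y : Fin d → ℝ) (i : Fin d) =>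
      mono y r.1 * rxnVec r i) := fun r =>
    contDiff_pi.2 (fun i => (contDiff_mono r.1).mul contDiff_const)
  choose F K L hF hb heq using fun r : Cx d × Cx d =>
    exists_truncated (fun (y : Fin d → ℝ) (i : Fin d) => mono y r.1 * rxnVec r i) (hcd r) hab
  have hε' : 0 < ε⁻¹ := inv_pos.mpr hε
  have hkpos : ∀ t r, 0 < k t r := fun t r => lt_of_lt_of_le hε (hk t r).1
  refine ⟨fun s y i => ∑ r ∈ R, k s r * F r y i, (∑ r ∈ R, ε⁻¹ * (K r : ℝ)) + 1,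
    ∑ r ∈ R, ε⁻¹ * (L r : ℝ), ?_, ?_, ?_, ?_, ?_, ?_⟩
  · have : 0 ≤ ∑ r ∈ R, ε⁻¹ * (K r : ℝ) := sum_nonneg (fun _ _ => by positivity)
    linarith
  · exact sum_nonneg (fun _ _ => by positivity)
  · intro u hu i a b
    have h : (fun s => ∑ r ∈ R, k s r * F r (u s) i) = ∑ r ∈ R, fun s => k s r * F r (u s) i := by
      funext s
      simp
    rw [h]
    apply IntervalIntegrable.sum
    intro r _
    apply (rate_intervalIntegrable hε hkm hk r a b).mul_continuousOn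
    exact (((continuous_apply i).comp ((hF r).continuous.comp hu))).continuousOn
  · intro s y z i
    rw [← sum_sub_distrib]
    refine (abs_sum_le_sum_abs _ _).trans ?_
    have h1 : ∀ r ∈ R, |k s r * F r y i - k s r * F r z i| ≤ ε⁻¹ * (K r : ℝ) * ‖y - z‖ := by
      intro r _
      rw [← mul_sub, abs_mul, abs_of_pos (hkpos s r), mul_assoc]
      have h2 : |F r y i - F r z i| ≤ (K r : ℝ) * ‖y - z‖ := by
        have h3 : |F r y i - F r z i| ≤ ‖F r y - F r z‖ := by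
          have := norm_le_pi_norm (F r y - F r z) i
          rwa [Pi.sub_apply, Real.norm_eq_abs] at this
        have h4 := (hF r).dist_le_mul y z
        rw [dist_eq_norm, dist_eq_norm] at h4
        exact h3.trans h4
      exact mul_le_mul (hk s r).2 h2 (abs_nonneg _) hε'.le
    refine (sum_le_sum h1).trans ?_
    rw [← sum_mul]
    have : 0 ≤ ‖y - z‖ := norm_nonneg _
    nlinarith
  · intro s y i
    refine (abs_sum_le_sum_abs _ _).trans (sum_le_sum fun r _ => ?_)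
    rw [abs_mul, abs_of_pos (hkpos s r)]
    have h3 : |F r y i| ≤ ‖F r y‖ := by
      have := norm_le_pi_norm (F r y) i
      rwa [Real.norm_eq_abs] at this
    exact mul_le_mul (hk s r).2 (h3.trans (hb r y)) (abs_nonneg _) hε'.le
  · intro s y hy
    funext i
    unfold massAction
    apply sum_congr rfl
    intro r _
    rw [heq r y hy, mul_assoc]

/-- The a priori bounds give a box which is stable under truncation. -/
lemma car_box {x₀ : Fin d → ℝ} (hx₀ : ∀ i, 0 < x₀ i) {δ₀ C₀ : ℝ} (hδ₀ : 0 < δ₀)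
    (hbd : ∀ (k : ℝ → Cx d × Cx d → ℝ) (T : ℝ) (x : ℝ → Fin d → ℝ),
      (∀ t r, ε ≤ k t r ∧ k t r ≤ ε⁻¹) → x 0 = x₀ → IsAeSolution R k T x →
      ∀ t ∈ Ico 0 T, ∀ i, δ₀ ≤ x t i ∧ x t i ≤ C₀) (hε : 0 < ε) :
    ∃ δ C : ℝ, 0 < δ ∧ δ ≤ C ∧ (∀ i, δ ≤ x₀ i ∧ x₀ i ≤ C) ∧
      ∀ (k : ℝ → Cx d × Cx d → ℝ), (∀ r, Measurable fun t => k t r) →
      (∀ t r, ε ≤ k t r ∧ k t r ≤ ε⁻¹) →
      ∀ (T : ℝ) (G : ℝ → (Fin d → ℝ) → Fin d → ℝ) (x : ℝ → Fin d → ℝ),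
        (∀ s y, (∀ i, δ / 2 ≤ y i ∧ y i ≤ C + 1) → G s y = massAction R (k s) y) → x 0 = x₀ →
        ContinuousOn x (Ico 0 T) →
        (∀ t ∈ Ico 0 T, ∀ i, x t i = x₀ i + ∫ s in (0 : ℝ)..t, G s (x s) i) →
        ∀ t ∈ Ico 0 T, ∀ i, δ ≤ x t i ∧ x t i ≤ C := by
  classical
  obtain ⟨δ₁, hδ₁, -, hδ₁le⟩ := exists_pos_lb Finset.univ x₀ (fun i _ => hx₀ i)
  obtain ⟨C₁, hC₁⟩ : ∃ C₁, ∀ i, x₀ i ≤ C₁ := by
    obtain ⟨C₁, hC₁⟩ := (Set.finite_range x₀).bddAbove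
    exact ⟨C₁, fun i => hC₁ (mem_range_self i)⟩
  let δ := min δ₀ δ₁
  let C := max (max C₀ C₁) δ
  have hδ : 0 < δ := lt_min hδ₀ hδ₁
  have hC₀C : C₀ ≤ C := (le_max_left _ _).trans (le_max_left _ _)
  have hC₁C : C₁ ≤ C := (le_max_right _ _).trans (le_max_left _ _)
  have hx₀box : ∀ i, δ ≤ x₀ i ∧ x₀ i ≤ C := fun i =>
    ⟨(min_le_right _ _).trans (hδ₁le i (Finset.mem_univ i)), (hC₁ i).trans hC₁C⟩
  refine ⟨δ, C, hδ, le_max_right _ _, hx₀box, ?_⟩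
  intro k hkm hk T G x hG h0 hc he
  let U : Set (Fin d → ℝ) := {y | ∀ i, δ / 2 < y i ∧ y i < C + 1}
  let V : Set (Fin d → ℝ) := {y | ∀ i, δ ≤ y i ∧ y i ≤ C}
  have hU' : IsOpen U := by
    have : U = ⋂ i, {y : Fin d → ℝ | δ / 2 < y i ∧ y i < C + 1} := by
      ext y; simp [U]
    rw [this]
    apply isOpen_iInter_of_finite
    intro i
    exact (isOpen_lt continuous_const (continuous_apply i)).inter
      (isOpen_lt (continuous_apply i) continuous_const)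
  have hV : IsClosed V := by
    have : V = ⋂ i, {y : Fin d → ℝ | δ ≤ y i ∧ y i ≤ C} := by
      ext y; simp [V]
    rw [this]
    apply isClosed_iInter
    intro i
    exact (isClosed_le continuous_const (continuous_apply i)).inter
      (isClosed_le (continuous_apply i) continuous_const)
  have hVU : V ⊆ U := fun y hy i => ⟨by linarith [(hy i).1], by linarith [(hy i).2]⟩
  have hx0V : x 0 ∈ V := by
    intro i
    rw [h0]
    exact hx₀box i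
  have key := stay_in hc hU' hV hVU (hVU hx0V) ?_
  · exact fun t ht i => key t ht i
  intro s hs hsT hsU t ht i
  have hcar : IsCarSolution R k s x := by
    refine ⟨hc.mono (Ico_subset_Ico_right hsT), ?_⟩
    intro t ht i
    rw [h0]
    have h1 := he t ⟨ht.1, lt_of_lt_of_le ht.2 hsT⟩ i
    rw [h1]
    congr 1
    apply intervalIntegral.integral_congr
    intro v hv
    rw [uIcc_of_le ht.1] at hv
    have hvs : v ∈ Ico 0 s := ⟨hv.1, lt_of_le_of_lt hv.2 ht.2⟩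
    show G v (x v) i = massAction R (k v) (x v) i
    rw [hG v (x v) (fun j => ⟨(hsU v hvs j).1.le, (hsU v hvs j).2.le⟩)]
  have hsol := hcar.toAe hε hkm hk (fun t ht j => by linarith [(hsU t ht j).1])
  have hfin := hbd k s x hk h0 hsol t ht i
  exact ⟨(min_le_left _ _).trans hfin.1, hfin.2.trans hC₀C⟩

/-- Existence and uniqueness in a box. -/
theorem car_exists_unique {x₀ : Fin d → ℝ} (hx₀ : ∀ i, 0 < x₀ i) {δ C : ℝ} (hδ : 0 < δ)
    (hδC : δ ≤ C) (hε : 0 < ε)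
    (hbox : ∀ (k : ℝ → Cx d × Cx d → ℝ), (∀ r, Measurable fun t => k t r) →
      (∀ t r, ε ≤ k t r ∧ k t r ≤ ε⁻¹) →
      ∀ (T : ℝ) (G : ℝ → (Fin d → ℝ) → Fin d → ℝ) (x : ℝ → Fin d → ℝ),
        (∀ s y, (∀ i, δ / 2 ≤ y i ∧ y i ≤ C + 1) → G s y = massAction R (k s) y) → x 0 = x₀ →
        ContinuousOn x (Ico 0 T) →
        (∀ t ∈ Ico 0 T, ∀ i, x t i = x₀ i + ∫ s in (0 : ℝ)..t, G s (x s) i) →
        ∀ t ∈ Ico 0 T, ∀ i, δ ≤ x t i ∧ x t i ≤ C)
    {k : ℝ → Cx d × Cx d → ℝ} (hkm : ∀ r, Measurable fun t => k t r)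
    (hk : ∀ t r, ε ≤ k t r ∧ k t r ≤ ε⁻¹) :
    ∃ x : ℝ → Fin d → ℝ, x 0 = x₀ ∧ (∀ T, IsCarSolution R k T x) ∧
      (∀ t, 0 ≤ t → ∀ i, δ ≤ x t i ∧ x t i ≤ C) ∧
      ∀ (T : ℝ) (y : ℝ → Fin d → ℝ), IsCarSolution R k T y → y 0 = x₀ →
        ∀ t ∈ Ico 0 T, y t = x t := by
  obtain ⟨Φ, K, M, hK, hM, hint, hlip, hbd, hΦ⟩ := exists_trunc_field (R := R) hε hkm hk
    (a := δ / 2) (b := C + 1) (by linarith)
  obtain ⟨x, hxc, hx0, hxe⟩ := picard_exists hK hM hint hlip hbd x₀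
  have hxb : ∀ t, 0 ≤ t → ∀ i, δ ≤ x t i ∧ x t i ≤ C := fun t ht i =>
    hbox k hkm hk (t + 1) Φ x hΦ hx0 hxc.continuousOn (fun s hs => hxe s hs.1) t
      ⟨ht, by linarith⟩ i
  have hΦx : ∀ s, 0 ≤ s → Φ s (x s) = massAction R (k s) (x s) := fun s hs =>
    hΦ s _ (fun i => ⟨by linarith [(hxb s hs i).1], by linarith [(hxb s hs i).2]⟩)
  have hint0 : ∀ t, 0 ≤ t → ∀ i,
      ∫ s in (0 : ℝ)..t, Φ s (x s) i = ∫ s in (0 : ℝ)..t, massAction R (k s) (x s) i := by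
    intro t ht i
    apply intervalIntegral.integral_congr
    intro v hv
    rw [uIcc_of_le ht] at hv
    show Φ v (x v) i = massAction R (k v) (x v) i
    rw [hΦx v hv.1]
  refine ⟨x, hx0, ?_, hxb, ?_⟩
  · intro T
    refine ⟨hxc.continuousOn, fun t ht i => ?_⟩
    rw [hx0, hxe t ht.1 i, hint0 t ht.1 i]
  · intro T y hy hy0 t₁ ht₁
    have hyb := hbox k hkm hk T (fun s => massAction R (k s)) y (fun _ _ _ => rfl) hy0 hy.cont
      (fun t ht i => by rw [← hy0]; exact hy.eqn t ht i)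
    have hsub : Icc 0 t₁ ⊆ Ico 0 T := fun s hs => ⟨hs.1, lt_of_le_of_lt hs.2 ht₁.2⟩
    have hΦy : ∀ s ∈ Ico 0 T, Φ s (y s) = massAction R (k s) (y s) := fun s hs =>
      hΦ s _ (fun i => ⟨by linarith [(hyb s hs i).1], by linarith [(hyb s hs i).2]⟩)
    refine integral_unique (f := fun s i => Φ s (y s) i - Φ s (x s) i) hK ht₁.1
      (hy.cont.mono hsub) hxc.continuousOn ?_ (fun s _ i => hlip s _ _ i) 
    intro t ht i
    have ht' := hsub ht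
    have hyc : ContinuousOn y (uIcc 0 t) := hy.cont.mono (by
      rw [uIcc_of_le ht.1]
      exact fun s hs => ⟨hs.1, lt_of_le_of_lt hs.2 ht'.2⟩)
    have hxI := field_intervalIntegrable (R := R) hε hkm hk
      (x := x) (a := 0) (b := t) hxc.continuousOn i
    have hyI := field_intervalIntegrable (R := R) hε hkm hk
      (x := y) (a := 0) (b := t) hyc i
    have e1 : ∫ s in (0 : ℝ)..t, (Φ s (y s) i - Φ s (x s) i)
        = ∫ s in (0 : ℝ)..t, (massAction R (k s) (y s) i - massAction R (k s) (x s) i) := by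
      apply intervalIntegral.integral_congr
      intro v hv
      rw [uIcc_of_le ht.1] at hv
      show Φ v (y v) i - Φ v (x v) i = massAction R (k v) (y v) i - massAction R (k v) (x v) i
      rw [hΦx v hv.1, hΦy v ⟨hv.1, lt_of_le_of_lt hv.2 ht'.2⟩]
    rw [e1, intervalIntegral.integral_sub hyI hxI, hy.eqn t ht' i, hy0, hxe t ht.1 i, hint0 t ht.1 i]
    ring

/-- Permanence with measurable rates from the family of polytopes. -/
theorem car_permanence {ι : Type*} [Fintype ι] {g : ι → Fin d → ℝ} {h : ℝ → ι → ℝ}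
    {L₀ a b : ℝ} (hP : IsPolyFamily (↑(dirs R) : Set (Fin d → ℝ)) g h L₀ a b)
    (hWR : WeaklyReversible R) (hε : 0 < ε) :
    (∀ x₀ : Fin d → ℝ, (∀ i, 0 < x₀ i) →
      ∃ δ C : ℝ, 0 < δ ∧ ∀ k : ℝ → Cx d × Cx d → ℝ, (∀ r, Measurable fun t => k t r) →
        (∀ t r, ε ≤ k t r ∧ k t r ≤ ε⁻¹) →
        ∃ x : ℝ → Fin d → ℝ, x 0 = x₀ ∧ (∀ T, IsCarSolution R k T x) ∧
          (∀ t, 0 ≤ t → ∀ i, δ ≤ x t i ∧ x t i ≤ C) ∧
          ∀ (T : ℝ) (y : ℝ → Fin d → ℝ), IsCarSolution R k T y → y 0 = x₀ →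
            ∀ t ∈ Ico 0 T, y t = x t) ∧
    (∀ c₀ : Fin d → ℝ, (∀ i, 0 < c₀ i) →
      ∃ K : Set (Fin d → ℝ), IsCompact K ∧
        (∀ y ∈ K, (∀ i, 0 < y i) ∧ (fun i => y i - c₀ i) ∈ stoich R) ∧
        ∀ k : ℝ → Cx d × Cx d → ℝ, (∀ r, Measurable fun t => k t r) →
        (∀ t r, ε ≤ k t r ∧ k t r ≤ ε⁻¹) →
        ∀ x : ℝ → Fin d → ℝ, (∀ T, IsCarSolution R k T x) → (∀ i, 0 < x 0 i) →
          (fun i => x 0 i - c₀ i) ∈ stoich R → ∃ t₁ : ℝ, ∀ t, t₁ ≤ t → x t ∈ K) := by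
  constructor
  · intro x₀ hx₀
    obtain ⟨δ₀, C₀, hδ₀, hbd⟩ := ae_poly_uniform_bounds hP hWR hε hx₀
    obtain ⟨δ, C, hδ, hδC, -, hbox⟩ := car_box hx₀ hδ₀ hbd hε
    refine ⟨δ, C, hδ, fun k hkm hk => car_exists_unique hx₀ hδ hδC hε hbox hkm hk⟩
  · intro c₀ hc₀
    obtain ⟨δ₀, C₀, hδ₀, habs⟩ := ae_poly_absorbing hP hWR hε hc₀
    let K : Set (Fin d → ℝ) :=
      Icc (fun _ => δ₀) (fun _ => C₀) ∩ {y | (fun i => y i - c₀ i) ∈ stoich R}
    have hclosedS : IsClosed {y : Fin d → ℝ | (fun i => y i - c₀ i) ∈ stoich R} := by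
      have h1 : IsClosed ((stoich R : Submodule ℝ (Fin d → ℝ)) : Set (Fin d → ℝ)) :=
        Submodule.closed_of_finiteDimensional _
      have h2 : Continuous (fun y : Fin d → ℝ => (fun i => y i - c₀ i)) := by fun_prop
      exact h1.preimage h2
    refine ⟨K, isCompact_Icc.inter_right hclosedS, ?_, ?_⟩
    · intro y hy
      exact ⟨fun i => lt_of_lt_of_le hδ₀ (hy.1.1 i), hy.2⟩
    · intro k hkm hk x hx hx0 hcl
      obtain ⟨δ₁, C₁, hδ₁, hbd⟩ := ae_poly_uniform_bounds hP hWR hε hx0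
      obtain ⟨δ, C, hδ, hδC, -, hbox⟩ := car_box hx0 hδ₁ hbd hε
      have hxb : ∀ t, 0 ≤ t → ∀ i, δ ≤ x t i ∧ x t i ≤ C := fun t ht i =>
        hbox k hkm hk (t + 1) (fun s => massAction R (k s)) x (fun _ _ _ => rfl) rfl (hx _).cont
          (hx _).eqn t ⟨ht, by linarith⟩ i
      have hae : ∀ T, IsAeSolution R k T x := fun T =>
        (hx T).toAe hε hkm hk (fun t ht i => lt_of_lt_of_le hδ (hxb t ht.1 i).1)
      obtain ⟨t₁, ht₁⟩ := habs k x hk hae hcl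
      refine ⟨max t₁ 0, fun t ht => ⟨⟨fun i => (ht₁ t ((le_max_left _ _).trans ht) i).1,
        fun i => (ht₁ t ((le_max_left _ _).trans ht) i).2⟩, ?_⟩⟩
      have ht0 : 0 ≤ t := (le_max_right _ _).trans ht
      have h1 := (hae (t + 1)).cls t ⟨ht0, by linarith⟩
      have h2 : (fun i => x t i - c₀ i) = (fun i => x t i - x 0 i) + (fun i => x 0 i - c₀ i) := by
        funext i
        simp
      show (fun i => x t i - c₀ i) ∈ stoich R
      rw [h2]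
      exact (stoich R).add_mem h1 hcl

/-- Permanence with measurable rates for all weakly reversible networks. -/
theorem car_permanence_all (hWR : WeaklyReversible R) (hε : 0 < ε) :
    (∀ x₀ : Fin d → ℝ, (∀ i, 0 < x₀ i) →
      ∃ δ C : ℝ, 0 < δ ∧ ∀ k : ℝ → Cx d × Cx d → ℝ, (∀ r, Measurable fun t => k t r) →
        (∀ t r, ε ≤ k t r ∧ k t r ≤ ε⁻¹) →
        ∃ x : ℝ → Fin d → ℝ, x 0 = x₀ ∧ (∀ T, IsCarSolution R k T x) ∧
          (∀ t, 0 ≤ t → ∀ i, δ ≤ x t i ∧ x t i ≤ C) ∧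
          ∀ (T : ℝ) (y : ℝ → Fin d → ℝ), IsCarSolution R k T y → y 0 = x₀ →
            ∀ t ∈ Ico 0 T, y t = x t) ∧
    (∀ c₀ : Fin d → ℝ, (∀ i, 0 < c₀ i) →
      ∃ K : Set (Fin d → ℝ), IsCompact K ∧
        (∀ y ∈ K, (∀ i, 0 < y i) ∧ (fun i => y i - c₀ i) ∈ stoich R) ∧
        ∀ k : ℝ → Cx d × Cx d → ℝ, (∀ r, Measurable fun t => k t r) →
        (∀ t r, ε ≤ k t r ∧ k t r ≤ ε⁻¹) →
        ∀ x : ℝ → Fin d → ℝ, (∀ T, IsCarSolution R k T x) → (∀ i, 0 < x 0 i) →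
          (fun i => x 0 i - c₀ i) ∈ stoich R → ∃ t₁ : ℝ, ∀ t, t₁ ≤ t → x t ∈ K) := by
  obtain ⟨N, hN⟩ := dirs_subset_intBox R
  obtain ⟨ι, _, g, h, L₀, a, b, hP⟩ := (Vale.Agent.Lib.P072.All.polyInput d) N
  exact car_permanence (hP.mono hN) hWR hε

end Vale.Agent.Lib.P072
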