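import Vale.Agent.Lib.P072.All.Flow

/-! The form of the geometric input in which it is proved, and the permanence theorems it gives. -/

namespace Vale.Agent.Lib.P072

open Finset Real Set

variable {d : ℕ}

/-- The geometric statement for the entry bound `N`. -/
def GeomStmt (d N : ℕ) : Prop :=
  ∃ (I : Type) (_ : Fintype I) (g : I → Fin d → ℝ) (h : ℝ → I → ℝ) (L0 a b : ℝ),
    Nonempty I ∧ 1 ≤ L0 ∧ 0 < a ∧ 0 < b ∧
    (∀ L, L0 ≤ L → ∀ x : Fin d → ℝ, (∀ i, ∑ j, g i j * x j ≤ h L i) →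
      ∀ j, exp (-(L * a)) ≤ x j ∧ x j ≤ exp (L * b)) ∧
    (∀ L, L0 ≤ L → ∀ x : Fin d → ℝ,
      (∀ j, exp (-(L * (a + 1))) ≤ x j ∧ x j ≤ exp (L * (b + 1))) →
      ∀ i, (∀ i2, ∑ j, g i2 j * x j - h L i2 ≤ ∑ j, g i j * x j - h L i) →
      ∀ u : Fin d → ℤ, (∀ j, |u j| ≤ (N : ℤ)) → 0 < ∑ j, (u j : ℝ) * g i j →
      L ≤ ∑ j, (u j : ℝ) * log (x j)) ∧
    (∀ x : Fin d → ℝ, (∀ j, 0 < x j) → ∃ L1, ∀ L, L1 ≤ L → ∀ i, ∑ j, g i j * x j ≤ h L i)

lemma polyInput_of_geom (hG : ∀ N, GeomStmt d N) : PolyInput d := by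
  intro N
  obtain ⟨I, hI, g, h, L0, a, b, hne, hL0, ha, hb, G1, G2, G3⟩ := hG N
  refine ⟨I, hI, g, h, L0, a, b, ha, hb, by linarith, ?_, ?_, ?_⟩
  · intro L hL x _ hx
    exact G1 L hL x hx
  · intro L hL x hx
    obtain ⟨i, -, hi⟩ := Finset.exists_max_image (Finset.univ : Finset I)
      (fun i => dot (g i) x - h L i) Finset.univ_nonempty
    refine ⟨i, fun i' => hi i' (Finset.mem_univ _), ?_⟩
    rintro u ⟨z, hz, hzN⟩ hpos
    have h1 : dot u (g i) = ∑ j, (z j : ℝ) * g i j := by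
      unfold dot
      exact Finset.sum_congr rfl (fun j _ => by rw [hz j])
    have h2 : dot u (lv x) = ∑ j, (z j : ℝ) * log (x j) := by
      unfold dot lv
      exact Finset.sum_congr rfl (fun j _ => by rw [hz j])
    rw [h2]
    rw [h1] at hpos
    exact G2 L hL x hx i (fun i2 => hi i2 (Finset.mem_univ _)) z hzN hpos
  · intro x hx
    obtain ⟨L1, hL1⟩ := G3 x hx
    exact ⟨L1, hL1⟩

/-- Global existence, uniqueness and the compact absorbing set for constant rates, and the uniform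
bounds and the absorbing box for rates varying in time, from the geometric input. -/
theorem permanence_all (hG : PolyInput d) {R : Finset (Cx d × Cx d)} (hWR : WeaklyReversible R) :
    UniformBounds R ∧ AbsorbingBox R ∧ ∀ κ : Cx d × Cx d → ℝ, (∀ r ∈ R, 0 < κ r) →
      (∀ x₀ : Fin d → ℝ, (∀ i, 0 < x₀ i) →
        ∃ x : ℝ → Fin d → ℝ, x 0 = x₀ ∧ (∀ T, IsPosSolution R (fun _ => κ) T x) ∧
          ∀ (T : ℝ) (y : ℝ → Fin d → ℝ), IsSolution R κ T y → y 0 = x₀ →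
            ∀ t ∈ Ico 0 T, y t = x t) ∧
      (∀ c₀ : Fin d → ℝ, (∀ i, 0 < c₀ i) →
        ∃ K : Set (Fin d → ℝ), IsCompact K ∧
          (∀ y ∈ K, (∀ i, 0 < y i) ∧ (fun i => y i - c₀ i) ∈ stoich R) ∧
          ∀ x : ℝ → Fin d → ℝ, (∀ T, IsSolution R κ T x) → (∀ i, 0 < x 0 i) →
            (fun i => x 0 i - c₀ i) ∈ stoich R → ∃ t₁ : ℝ, ∀ t, t₁ ≤ t → x t ∈ K) := by
  obtain ⟨hU, hA⟩ := permanence_of_input hG hWR
  exact ⟨hU, hA, fun κ hκ => ⟨fun _ hx₀ => exists_unique_global_of hU hκ hx₀,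
    fun _ hc₀ => compact_absorbing_of hU hA hκ hc₀⟩⟩

end Vale.Agent.Lib.P072
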