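import Vale.Agent.Lib.P072.All.Sys

/-!
# The tree of slopes

At a node with `l` levels assigned, with amplitude `A`, the children are given by a tile whose
top child is the last slope with half-width `K l * A`. Cleanness is inherited.
-/

namespace Vale.Agent.Lib.P072.All

open Finset

variable {d : ℕ} (Y : Sys d)

/-- Cleanness of a node: for each relevant vector the scalar product vanishes or is large compared
with the amplitude. -/
def Clean (l : ℕ) (ν : ℕ → ℝ) (A : ℝ) : Prop :=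
  ∀ u ∈ Y.D l, zz u ν l = 0 ∨ Y.M l * A ≤ |zz u ν l|

/-- The global depth. -/
noncomputable def bstar : ℝ := ∏ i ∈ range d, Y.K i

/-- The thresholds of a node. -/
noncomputable def thr (l : ℕ) (ν : ℕ → ℝ) : Finset ℝ := by
  classical
  exact ((Y.D (l + 1)).filter (fun u => u l ≠ 0)).image (fun u => -zz u ν l / (u l : ℝ))

lemma mem_thr {l : ℕ} {ν : ℕ → ℝ} {q : ℝ} :
    q ∈ thr Y l ν ↔ ∃ u ∈ Y.D (l + 1), u l ≠ 0 ∧ -zz u ν l / (u l : ℝ) = q := by
  classical
  simp only [thr, mem_image, mem_filter]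
  constructor
  · rintro ⟨u, ⟨h1, h2⟩, h3⟩
    exact ⟨u, h1, h2, h3⟩
  · rintro ⟨u, h1, h2, h3⟩
    exact ⟨u, ⟨h1, h2⟩, h3⟩

lemma int_abs_ge_one {n : ℤ} (h : n ≠ 0) : 1 ≤ |(n : ℝ)| := by
  have : 1 ≤ |n| := Int.one_le_abs h
  exact_mod_cast this

/-- Key identity for the elimination of the coordinate `l`. -/
lemma zz_elim_thr {l : ℕ} {ν : ℕ → ℝ} {u v : ℕ → ℤ} (hu : u l ≠ 0) (hv : v l ≠ 0) :
    zz (elim l u v) ν l
      = (u l : ℝ) * (v l : ℝ) * (-zz v ν l / (v l : ℝ) - -zz u ν l / (u l : ℝ)) := by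
  rw [zz_elim]
  have hu' : (u l : ℝ) ≠ 0 := by exact_mod_cast hu
  have hv' : (v l : ℝ) ≠ 0 := by exact_mod_cast hv
  field_simp
  ring

/-- Distinct thresholds are far apart. -/
lemma thr_sep {l : ℕ} (hl : l < d) {ν : ℕ → ℝ} {A : ℝ} (hA : 0 < A) (hC : Clean Y l ν A)
    {q q' : ℝ} (hq : q ∈ thr Y l ν) (hq' : q' ∈ thr Y l ν) (hlt : q' < q) :
    (2 * Y.K l + 2) * A ≤ q - q' := by
  obtain ⟨u, hu, hu0, rfl⟩ := (mem_thr Y).mp hq
  obtain ⟨v, hv, hv0, rfl⟩ := (mem_thr Y).mp hq'
  have hid := zz_elim_thr (ν := ν) hv0 hu0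
  have hmem := Y.el l hl v hv u hu
  have hRu := Y.R_bd l hl u hu
  have hRv := Y.R_bd l hl v hv
  have hR1 := Y.R_one l
  set q := -zz u ν l / (u l : ℝ) with hqdef
  set q' := -zz v ν l / (v l : ℝ) with hq'def
  have hpos : 0 < q - q' := by linarith
  have hu1 := int_abs_ge_one hu0
  have hv1 := int_abs_ge_one hv0
  have hne : zz (elim l v u) ν l ≠ 0 := by
    rw [hid]
    have hu' : (u l : ℝ) ≠ 0 := by exact_mod_cast hu0
    have hv' : (v l : ℝ) ≠ 0 := by exact_mod_cast hv0
    exact mul_ne_zero (mul_ne_zero hv' hu') hpos.ne'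
  have hbig := (hC _ hmem).resolve_left hne
  rw [hid, abs_mul, abs_mul, abs_of_pos hpos] at hbig
  have h1 : |(v l : ℝ)| * |(u l : ℝ)| * (q - q') ≤ Y.R l ^ 2 * (q - q') := by
    apply mul_le_mul_of_nonneg_right _ hpos.le
    rw [sq]
    exact mul_le_mul hRv hRu (abs_nonneg _) (by linarith)
  have h2 : (2 * Y.K l + 2) * Y.R l ^ 2 * A ≤ Y.M l * A :=
    mul_le_mul_of_nonneg_right (Y.M_sep l hl) hA.le
  have hRsq : 0 < Y.R l ^ 2 := by positivity
  have h3 : Y.R l ^ 2 * ((2 * Y.K l + 2) * A) ≤ Y.R l ^ 2 * (q - q') := by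
    nlinarith
  exact le_of_mul_le_mul_left h3 hRsq

/-- The specification of the tile at a node with `1 ≤ l`. -/
structure TileOK (l : ℕ) (ν : ℕ → ℝ) (A : ℝ) (T : Tile) : Prop where
  one_le_m : 1 ≤ T.m
  t_zero : T.t 0 = ν (l - 1)
  w_zero : T.w 0 = Y.K l * A
  chain : T.Chain
  w_half : ∀ k ≤ T.m, 1 / 2 ≤ T.w k
  clean : ∀ k ≤ T.m, Clean Y (l + 1) (Function.update ν l (T.t k)) (max A (T.w k))
  bot : T.t T.m - T.w T.m ≤ -bstar Y

/-- Cleanness of a child which is a threshold. -/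
lemma clean_T {l : ℕ} (hl : l < d) {ν : ℕ → ℝ} {A : ℝ} (hA : 1 ≤ A) (hC : Clean Y l ν A) {t : ℝ}
    (ht : t ∈ thr Y l ν) : Clean Y (l + 1) (Function.update ν l t) (Y.K l * A) := by
  intro u hu
  have hA0 : 0 < A := by linarith
  have hK := Y.K_three l hl
  have hM1 := Y.M_one (l + 1) (by omega)
  have hR1 := Y.R_one l
  have hmul := Y.M_mul l hl
  rw [zz_update]
  by_cases hu0 : u l = 0
  · have hmem := Y.keep l hl u hu hu0
    simp only [hu0, Int.cast_zero, zero_mul, add_zero]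
    rcases hC u hmem with h | h
    · exact Or.inl h
    · right
      refine le_trans ?_ h
      have h1 : Y.M (l + 1) * Y.K l ≤ Y.R l * Y.M (l + 1) * Y.K l := by
        have : 0 ≤ Y.M (l + 1) * Y.K l := by positivity
        nlinarith
      have h2 : Y.M (l + 1) * Y.K l * A ≤ Y.M l * A :=
        mul_le_mul_of_nonneg_right (h1.trans hmul) hA0.le
      calc Y.M (l + 1) * (Y.K l * A) = Y.M (l + 1) * Y.K l * A := by ring
        _ ≤ Y.M l * A := h2
  · obtain ⟨v, hv, hv0, rfl⟩ := (mem_thr Y).mp ht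
    have hu' : (u l : ℝ) ≠ 0 := by exact_mod_cast hu0
    have hv' : (v l : ℝ) ≠ 0 := by exact_mod_cast hv0
    have hform : zz u ν l + (u l : ℝ) * (-zz v ν l / (v l : ℝ))
        = zz (elim l u v) ν l / (v l : ℝ) := by
      rw [zz_elim]
      field_simp
      ring
    rw [hform]
    have hmem := Y.el l hl u hu v hv
    rcases hC _ hmem with h | h
    · left
      rw [h, zero_div]
    · right
      rw [abs_div]
      have hRv := Y.R_bd l hl v hv
      have hv1 := int_abs_ge_one hv0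
      rw [le_div_iff₀ (by linarith)]
      have h1 : Y.M (l + 1) * (Y.K l * A) * |(v l : ℝ)| ≤ Y.M (l + 1) * (Y.K l * A) * Y.R l :=
        mul_le_mul_of_nonneg_left hRv (by positivity)
      have h2 : Y.R l * Y.M (l + 1) * Y.K l * A ≤ Y.M l * A :=
        mul_le_mul_of_nonneg_right hmul hA0.le
      nlinarith

/-- Cleanness of a child far from the thresholds. -/
lemma clean_F {l : ℕ} (hl : l < d) {ν : ℕ → ℝ} {A : ℝ} (hA : 1 ≤ A) (hC : Clean Y l ν A) {t : ℝ}
    (ht : ∀ q ∈ thr Y l ν, Y.K l * A ≤ |t - q|) : Clean Y (l + 1) (Function.update ν l t) A := by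
  intro u hu
  have hA0 : 0 < A := by linarith
  have hK := Y.K_three l hl
  have hKM := Y.K_M l hl
  have hM1 := Y.M_one (l + 1) (by omega)
  have hR1 := Y.R_one l
  have hmul := Y.M_mul l hl
  rw [zz_update]
  by_cases hu0 : u l = 0
  · have hmem := Y.keep l hl u hu hu0
    simp only [hu0, Int.cast_zero, zero_mul, add_zero]
    rcases hC u hmem with h | h
    · exact Or.inl h
    · right
      refine le_trans ?_ h
      have h1 : Y.M (l + 1) ≤ Y.R l * Y.M (l + 1) * Y.K l := by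
        have h2 : 1 ≤ Y.R l * Y.K l := by nlinarith
        nlinarith
      exact mul_le_mul_of_nonneg_right (h1.trans hmul) hA0.le
  · right
    have hu' : (u l : ℝ) ≠ 0 := by exact_mod_cast hu0
    have hq : -zz u ν l / (u l : ℝ) ∈ thr Y l ν := (mem_thr Y).mpr ⟨u, hu, hu0, rfl⟩
    have h1 := ht _ hq
    have hform : zz u ν l + (u l : ℝ) * t = (u l : ℝ) * (t - -zz u ν l / (u l : ℝ)) := by
      field_simp
      ring
    rw [hform, abs_mul]
    have hu1 := int_abs_ge_one hu0
    have h2 : Y.M (l + 1) * A ≤ Y.K l * A := mul_le_mul_of_nonneg_right hKM hA0.le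
    nlinarith [abs_nonneg (t - -zz u ν l / (u l : ℝ))]

/-- Existence of the tile at a node. -/
theorem exists_tileOK {l : ℕ} (hl1 : 1 ≤ l) (hl : l < d) {ν : ℕ → ℝ} {A : ℝ} (hA : 1 ≤ A)
    (hC : Clean Y l ν A) : ∃ T, TileOK Y l ν A T := by
  classical
  have hA0 : 0 < A := by linarith
  have hK := Y.K_three l hl
  set top := ν (l - 1) with htop
  have htopthr : top ∈ thr Y l ν := by
    refine (mem_thr Y).mpr ⟨exchV l, Y.exch l hl1 hl, ?_, ?_⟩
    · rw [exchV_self]; norm_num
    · rw [exchV_self, zz_exchV hl1]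
      push_cast
      ring
  set Q := (thr Y l ν).filter (fun q => q ≤ top) with hQ
  have hQsub : ∀ q ∈ Q, q ∈ thr Y l ν := fun q hq => (mem_filter.mp hq).1
  set a := Y.K l * A with ha
  have haA : A ≤ a := by nlinarith
  obtain ⟨T, h1, h2, h3, h4, h5, h6, h7⟩ := exists_tile (Q := Q) (top := top) (a := a) (A := A)
    (low := -bstar Y) hA haA (mem_filter.mpr ⟨htopthr, le_refl _⟩)
    (fun q hq => (mem_filter.mp hq).2)
    (fun q hq q' hq' hlt => by
      have := thr_sep Y hl hA0 hC (hQsub q hq) (hQsub q' hq') hlt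
      rw [ha]
      linarith)
  refine ⟨T, h1, h2, h3, h4, h5, ?_, h7⟩
  intro k hk
  rcases h6 k hk with ⟨ht, hw⟩ | ⟨hw, ht1, ht2⟩
  · have hmax : max A (T.w k) = a := by
      rw [hw]; exact max_eq_right haA
    rw [hmax]
    exact clean_T Y hl hA hC (hQsub _ ht)
  · have hmax : max A (T.w k) = A := max_eq_left hw
    rw [hmax]
    apply clean_F Y hl hA hC
    intro q hq
    by_cases hqt : q ≤ top
    · exact ht2 q (mem_filter.mpr ⟨hq, hqt⟩)
    · push Not at hqt
      rw [abs_sub_comm, abs_of_nonneg (by linarith)]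
      linarith

/-- The tile at the root: the slopes `K + 1`, then `0`, then a filling downward. -/
theorem exists_rootTile (hd : 0 < d) :
    ∃ T : Tile, 2 ≤ T.m ∧ T.t 0 = Y.K 0 + 1 ∧ T.w 0 = 1 ∧ T.t 1 = 0 ∧ T.w 1 = Y.K 0 ∧ T.Chain ∧
      (∀ k ≤ T.m, 1 / 2 ≤ T.w k) ∧
      (∀ k ≤ T.m, ∀ ν : ℕ → ℝ, Clean Y 1 (Function.update ν 0 (T.t k)) (max 1 (T.w k))) ∧
      T.t T.m - T.w T.m ≤ -bstar Y := by
  classical
  have hK := Y.K_three 0 hd
  have hKM := Y.K_M 0 hd
  obtain ⟨T, h1, h2, h3, h4, h5, h6, h7⟩ := exists_tile (Q := {(0 : ℝ)}) (top := 0) (a := Y.K 0)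
    (A := 1) (low := -bstar Y) le_rfl (by linarith) (by simp) (by simp) (by
      intro q hq q' hq' hlt
      simp only [mem_singleton] at hq hq'
      subst hq; subst hq'
      exact absurd hlt (lt_irrefl _))
  refine ⟨⟨T.m + 1, fun k => Nat.casesOn k (Y.K 0 + 1) T.t, fun k => Nat.casesOn k 1 T.w⟩, by
    show 2 ≤ T.m + 1
    omega, rfl, rfl, h2, h3, ?_, ?_, ?_, h7⟩
  · intro k hk
    cases k with
    | zero =>
      show T.t 0 + T.w 0 = Y.K 0 + 1 - 1
      rw [h2, h3]; ring
    | succ k =>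
      have hk' : k < T.m := by
        have : k + 1 < T.m + 1 := hk
        omega
      exact h4 k hk'
  · intro k hk
    cases k with
    | zero =>
      show (1 / 2 : ℝ) ≤ 1
      norm_num
    | succ k =>
      have hk' : k ≤ T.m := by
        have : k + 1 ≤ T.m + 1 := hk
        omega
      exact h5 k hk'
  · intro k hk ν u hu
    have hz : ∀ t : ℝ, zz u (Function.update ν 0 t) 1 = (u 0 : ℝ) * t := by
      intro t
      have := zz_update u ν 0 t
      simpa [zz] using this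
    have hM1 := Y.M_one 1 (by omega)
    cases k with
    | zero =>
      show zz u (Function.update ν 0 (Y.K 0 + 1)) 1 = 0 ∨
        Y.M 1 * max 1 1 ≤ |zz u (Function.update ν 0 (Y.K 0 + 1)) 1|
      rw [hz]
      by_cases hu0 : u 0 = 0
      · left; simp [hu0]
      · right
        have hu1 := int_abs_ge_one hu0
        rw [abs_mul, abs_of_pos (by linarith : (0 : ℝ) < Y.K 0 + 1), max_self, mul_one]
        nlinarith
    | succ k =>
      have hk' : k ≤ T.m := by
        have : k + 1 ≤ T.m + 1 := hk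
        omega
      show zz u (Function.update ν 0 (T.t k)) 1 = 0 ∨
        Y.M 1 * max 1 (T.w k) ≤ |zz u (Function.update ν 0 (T.t k)) 1|
      rw [hz]
      rcases h6 k hk' with ⟨ht, hw⟩ | ⟨hw, ht1, ht2⟩
      · left
        simp only [mem_singleton] at ht
        rw [ht, mul_zero]
      · have hmax : max 1 (T.w k) = 1 := max_eq_left hw
        rw [hmax, mul_one]
        by_cases hu0 : u 0 = 0
        · left; simp [hu0]
        · right
          have hu1 := int_abs_ge_one hu0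
          have h8 := ht2 0 (by simp)
          rw [sub_zero] at h8
          rw [abs_mul]
          nlinarith [abs_nonneg (T.t k)]

end Vale.Agent.Lib.P072.All
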