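import Vale.Agent.Lib.P072.All.Tile

/-!
# Vector systems and constants

`D l` is the finite set of integer vectors relevant for the first `l` levels: it is closed under
eliminating the coordinate `l`. The constants `M l`, `K l` are chosen downward.
-/

namespace Vale.Agent.Lib.P072.All

open Finset

/-- The scalar product with the first `l` slopes. -/
noncomputable def zz (u : ℕ → ℤ) (ν : ℕ → ℝ) (l : ℕ) : ℝ := ∑ i ∈ range l, (u i : ℝ) * ν i

lemma zz_update (u : ℕ → ℤ) (ν : ℕ → ℝ) (l : ℕ) (t : ℝ) :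
    zz u (Function.update ν l t) (l + 1) = zz u ν l + (u l : ℝ) * t := by
  unfold zz
  rw [sum_range_succ]
  congr 1
  · apply sum_congr rfl
    intro i hi
    have : i ≠ l := (mem_range.mp hi).ne
    simp [Function.update_of_ne this]
  · simp

/-- Elimination of the coordinate `l`. -/
def elim (l : ℕ) (u v : ℕ → ℤ) : ℕ → ℤ := fun i => v l * u i - u l * v i

lemma zz_elim (l : ℕ) (u v : ℕ → ℤ) (ν : ℕ → ℝ) (n : ℕ) :
    zz (elim l u v) ν n = (v l : ℝ) * zz u ν n - (u l : ℝ) * zz v ν n := by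
  unfold zz elim
  rw [mul_sum, mul_sum, ← sum_sub_distrib]
  apply sum_congr rfl
  intro i _
  push_cast
  ring

/-- The exchange vector of the coordinates `l - 1` and `l`. -/
def exchV (l : ℕ) : ℕ → ℤ := fun i => if i + 1 = l then 1 else if i = l then -1 else 0

lemma exchV_self {l : ℕ} : exchV l l = -1 := by
  simp [exchV]

lemma zz_exchV {l : ℕ} (hl : 1 ≤ l) (ν : ℕ → ℝ) : zz (exchV l) ν l = ν (l - 1) := by
  unfold zz
  obtain ⟨n, rfl⟩ : ∃ n, l = n + 1 := ⟨l - 1, by omega⟩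
  rw [sum_range_succ]
  have h0 : ∑ i ∈ range n, ((exchV (n + 1) i : ℤ) : ℝ) * ν i = 0 := by
    apply sum_eq_zero
    intro i hi
    have : i < n := mem_range.mp hi
    have h1 : ¬ i = n := by omega
    have h2 : ¬ i = n + 1 := by omega
    simp [exchV, h1, h2]
  rw [h0]
  simp [exchV]

/-- The vector system together with the constants. -/
structure Sys (d : ℕ) where
  D : ℕ → Finset (ℕ → ℤ)
  R : ℕ → ℝ
  M : ℕ → ℝ
  K : ℕ → ℝ
  keep : ∀ l < d, ∀ u ∈ D (l + 1), u l = 0 → u ∈ D l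
  el : ∀ l < d, ∀ u ∈ D (l + 1), ∀ v ∈ D (l + 1), elim l u v ∈ D l
  exch : ∀ l, 1 ≤ l → l < d → exchV l ∈ D (l + 1)
  R_one : ∀ l, 1 ≤ R l
  R_bd : ∀ l < d, ∀ u ∈ D (l + 1), |(u l : ℝ)| ≤ R l
  M_one : ∀ l ≤ d, 1 ≤ M l
  K_three : ∀ l < d, 3 ≤ K l
  K_M : ∀ l < d, M (l + 1) ≤ K l
  M_sep : ∀ l < d, (2 * K l + 2) * R l ^ 2 ≤ M l
  M_mul : ∀ l < d, R l * M (l + 1) * K l ≤ M l

section Construct

variable (W : Finset (ℕ → ℤ)) (d : ℕ)

/-- The downward recursion of the vector sets: `Dn n` is `D (d - n)`. -/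
noncomputable def Dn : ℕ → Finset (ℕ → ℤ)
  | 0 => W
  | n + 1 => by
    classical
    exact (Dn n).filter (fun u => u (d - (n + 1)) = 0) ∪
      ((Dn n) ×ˢ (Dn n)).image (fun p => elim (d - (n + 1)) p.1 p.2)

lemma mem_Dn_succ_of_zero {n : ℕ} {u : ℕ → ℤ} (hu : u ∈ Dn W d n) (h0 : u (d - (n + 1)) = 0) :
    u ∈ Dn W d (n + 1) := by
  classical
  simp only [Dn, mem_union, mem_filter]
  exact Or.inl ⟨hu, h0⟩

lemma mem_Dn_succ_of_elim {n : ℕ} {u v : ℕ → ℤ} (hu : u ∈ Dn W d n) (hv : v ∈ Dn W d n) :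
    elim (d - (n + 1)) u v ∈ Dn W d (n + 1) := by
  classical
  simp only [Dn, mem_union, mem_image, mem_product]
  exact Or.inr ⟨(u, v), ⟨hu, hv⟩, rfl⟩

/-- The vector sets. -/
noncomputable def DD : ℕ → Finset (ℕ → ℤ) := fun l => Dn W d (d - l)

/-- The coefficient bound. -/
noncomputable def RR (l : ℕ) : ℝ := 1 + ∑ u ∈ DD W d (l + 1), |(u l : ℝ)|

lemma RR_one (l : ℕ) : 1 ≤ RR W d l := by
  unfold RR
  have : 0 ≤ ∑ u ∈ DD W d (l + 1), |(u l : ℝ)| := sum_nonneg (fun _ _ => abs_nonneg _)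
  linarith

lemma RR_bd (l : ℕ) {u : ℕ → ℤ} (hu : u ∈ DD W d (l + 1)) : |(u l : ℝ)| ≤ RR W d l := by
  unfold RR
  have := single_le_sum (f := fun u : ℕ → ℤ => |(u l : ℝ)|) (fun _ _ => abs_nonneg _) hu
  linarith

/-- The downward recursion of the constants, with final value `M₀`. -/
noncomputable def Mn (M₀ : ℝ) : ℕ → ℝ
  | 0 => M₀
  | n + 1 =>
    (2 * (Mn M₀ n + 3) + 2) * RR W d (d - (n + 1)) ^ 2
      + RR W d (d - (n + 1)) * Mn M₀ n * (Mn M₀ n + 3) + 1

lemma Mn_one {M₀ : ℝ} (h : 1 ≤ M₀) (n : ℕ) : 1 ≤ Mn W d M₀ n := by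
  induction n with
  | zero => exact h
  | succ n ih =>
    have hR := RR_one W d (d - (n + 1))
    simp only [Mn]
    have : 0 ≤ RR W d (d - (n + 1)) * Mn W d M₀ n * (Mn W d M₀ n + 3) := by positivity
    have : 0 ≤ (2 * (Mn W d M₀ n + 3) + 2) * RR W d (d - (n + 1)) ^ 2 := by positivity
    linarith

end Construct

/-- The system of a set of vectors containing the exchange vectors. -/
noncomputable def mkSys (W : Finset (ℕ → ℤ)) (d : ℕ) (M₀ : ℝ) (hM₀ : 1 ≤ M₀)
    (hW : ∀ l, 1 ≤ l → l < d → exchV l ∈ W) : Sys d where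
  D := DD W d
  R := RR W d
  M := fun l => Mn W d M₀ (d - l)
  K := fun l => Mn W d M₀ (d - (l + 1)) + 3
  keep := by
    intro l hl u hu h0
    have h1 : d - l = (d - (l + 1)) + 1 := by omega
    have h2 : d - ((d - (l + 1)) + 1) = l := by omega
    show u ∈ Dn W d (d - l)
    rw [h1]
    apply mem_Dn_succ_of_zero W d hu
    rw [h2]
    exact h0
  el := by
    intro l hl u hu v hv
    have h1 : d - l = (d - (l + 1)) + 1 := by omega
    have h2 : d - ((d - (l + 1)) + 1) = l := by omega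
    show elim l u v ∈ Dn W d (d - l)
    rw [h1]
    have := mem_Dn_succ_of_elim W d hu hv
    rwa [h2] at this
  exch := by
    intro l hl hld
    show exchV l ∈ Dn W d (d - (l + 1))
    have key : ∀ n, n ≤ d - (l + 1) → exchV l ∈ Dn W d n := by
      intro n
      induction n with
      | zero => intro _; exact hW l hl hld
      | succ n ih =>
        intro hn
        apply mem_Dn_succ_of_zero W d (ih (by omega))
        have h3 : ¬ (d - (n + 1)) + 1 = l := by omega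
        have h4 : ¬ d - (n + 1) = l := by omega
        simp [exchV, h3, h4]
    exact key _ le_rfl
  R_one := RR_one W d
  R_bd := by
    intro l _ u hu
    exact RR_bd W d l hu
  M_one := by
    intro l _
    exact Mn_one W d hM₀ _
  K_three := by
    intro l _
    have := Mn_one W d hM₀ (d - (l + 1))
    show 3 ≤ Mn W d M₀ (d - (l + 1)) + 3
    linarith
  K_M := by
    intro l _
    show Mn W d M₀ (d - (l + 1)) ≤ Mn W d M₀ (d - (l + 1)) + 3
    linarith
  M_sep := by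
    intro l hl
    have h1 : d - l = (d - (l + 1)) + 1 := by omega
    have h2 : d - ((d - (l + 1)) + 1) = l := by omega
    show (2 * (Mn W d M₀ (d - (l + 1)) + 3) + 2) * RR W d l ^ 2 ≤ Mn W d M₀ (d - l)
    rw [h1]
    simp only [Mn]
    rw [h2]
    have hm := Mn_one W d hM₀ (d - (l + 1))
    have hR := RR_one W d l
    have : 0 ≤ RR W d l * Mn W d M₀ (d - (l + 1)) * (Mn W d M₀ (d - (l + 1)) + 3) := by positivity
    linarith
  M_mul := by
    intro l hl
    have h1 : d - l = (d - (l + 1)) + 1 := by omega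
    have h2 : d - ((d - (l + 1)) + 1) = l := by omega
    show RR W d l * Mn W d M₀ (d - (l + 1)) * (Mn W d M₀ (d - (l + 1)) + 3) ≤ Mn W d M₀ (d - l)
    rw [h1]
    simp only [Mn]
    rw [h2]
    have hm := Mn_one W d hM₀ (d - (l + 1))
    have hR := RR_one W d l
    have : 0 ≤ (2 * (Mn W d M₀ (d - (l + 1)) + 3) + 2) * RR W d l ^ 2 := by positivity
    linarith

lemma mkSys_D_top (W : Finset (ℕ → ℤ)) (d : ℕ) (M₀ : ℝ) (hM₀ : 1 ≤ M₀)
    (hW : ∀ l, 1 ≤ l → l < d → exchV l ∈ W) : (mkSys W d M₀ hM₀ hW).D d = W := by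
  show Dn W d (d - d) = W
  simp [Dn]

lemma mkSys_M_top (W : Finset (ℕ → ℤ)) (d : ℕ) (M₀ : ℝ) (hM₀ : 1 ≤ M₀)
    (hW : ∀ l, 1 ≤ l → l < d → exchV l ∈ W) : (mkSys W d M₀ hM₀ hW).M d = M₀ := by
  show Mn W d M₀ (d - d) = M₀
  simp [Mn]

end Vale.Agent.Lib.P072.All
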