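import Mathlib

/-!
# Tilings of the line by slopes

A tile system is a list of children `(t, w)`, from the top downward, with
`t' + w' = t - w` for consecutive children. It has an element `(q, a)` for each threshold `q` of a
finite set and elements of half-width between `A / 2` and `A` in between.
-/

namespace Vale.Agent.Lib.P072.All

/-- `Seg L hi lo`: the list `L` of children tiles the interval from `hi` down to `lo`. -/
def Seg : List (ℝ × ℝ) → ℝ → ℝ → Prop
  | [], hi, lo => hi = lo
  | p :: L, hi, _lo => p.1 + p.2 = hi ∧ Seg L (p.1 - p.2) _lo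

lemma Seg.append {L L' : List (ℝ × ℝ)} {hi mid lo : ℝ} (h : Seg L hi mid) (h' : Seg L' mid lo) :
    Seg (L ++ L') hi lo := by
  induction L generalizing hi with
  | nil =>
    have : hi = mid := h
    subst this
    simpa [Seg] using h'
  | cons p L ih =>
    exact ⟨h.1, ih h.2⟩

/-- Subdivision of an interval of length at least `2 A` in tiles of half-width between `A / 2`
and `A`. -/
lemma exists_fill {A : ℝ} (hA : 0 < A) (n : ℕ) :
    ∀ hi lo : ℝ, 2 * A ≤ hi - lo → hi - lo ≤ 2 * A * (n + 1) →
      ∃ L : List (ℝ × ℝ), Seg L hi lo ∧ L ≠ [] ∧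
        ∀ p ∈ L, A / 2 ≤ p.2 ∧ p.2 ≤ A ∧ lo ≤ p.1 - p.2 ∧ p.1 + p.2 ≤ hi := by
  induction n with
  | zero =>
    intro hi lo h1 h2
    refine ⟨[(hi - (hi - lo) / 2, (hi - lo) / 2)], ?_, by simp, ?_⟩
    · refine ⟨by ring, ?_⟩
      show hi - (hi - lo) / 2 - (hi - lo) / 2 = lo
      ring
    · intro p hp
      simp only [List.mem_singleton] at hp
      subst hp
      simp only
      constructor
      · linarith
      constructor
      · push_cast at h2
        linarith
      constructor <;> linarith
  | succ n ih =>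
    intro hi lo h1 h2
    by_cases h4 : hi - lo ≤ 4 * A
    · -- two equal tiles
      refine ⟨[(hi - (hi - lo) / 4, (hi - lo) / 4), (hi - 3 * (hi - lo) / 4, (hi - lo) / 4)],
        ?_, by simp, ?_⟩
      · refine ⟨by ring, ?_, ?_⟩
        · show hi - 3 * (hi - lo) / 4 + (hi - lo) / 4 = hi - (hi - lo) / 4 - (hi - lo) / 4
          ring
        · show hi - 3 * (hi - lo) / 4 - (hi - lo) / 4 = lo
          ring
      · intro p hp
        simp only [List.mem_cons, List.not_mem_nil, or_false] at hp
        rcases hp with rfl | rfl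
        · refine ⟨by simp only; linarith, by simp only; linarith, by simp only; linarith,
            by simp only; linarith⟩
        · refine ⟨by simp only; linarith, by simp only; linarith, by simp only; linarith,
            by simp only; linarith⟩
    · push Not at h4
      have h5 : 2 * A ≤ (hi - 2 * A) - lo := by linarith
      have h6 : (hi - 2 * A) - lo ≤ 2 * A * ((n : ℝ) + 1) := by
        push_cast at h2
        nlinarith
      obtain ⟨L, hL, hne, hp⟩ := ih (hi - 2 * A) lo h5 h6
      refine ⟨(hi - A, A) :: L, ⟨by ring, ?_⟩, by simp, ?_⟩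
      · show Seg L (hi - A - A) lo
        have : hi - A - A = hi - 2 * A := by ring
        rw [this]
        exact hL
      · intro p hpm
        simp only [List.mem_cons] at hpm
        rcases hpm with rfl | hpm
        · refine ⟨by simp only; linarith, le_refl _, by simp only; linarith, by simp only; linarith⟩
        · obtain ⟨h7, h8, h9, h10⟩ := hp p hpm
          exact ⟨h7, h8, h9, by linarith⟩

lemma exists_fill' {A : ℝ} (hA : 0 < A) (hi lo : ℝ) (h : 2 * A ≤ hi - lo) :
    ∃ L : List (ℝ × ℝ), Seg L hi lo ∧ L ≠ [] ∧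
      ∀ p ∈ L, A / 2 ≤ p.2 ∧ p.2 ≤ A ∧ lo ≤ p.1 - p.2 ∧ p.1 + p.2 ≤ hi := by
  obtain ⟨n, hn⟩ := exists_nat_ge ((hi - lo) / (2 * A))
  refine exists_fill hA n hi lo h ?_
  have h2 : (hi - lo) / (2 * A) ≤ (n : ℝ) + 1 := by linarith
  rw [div_le_iff₀ (by positivity)] at h2
  linarith

/-- The list form of the tile lemma. `Q` is the set of thresholds, `top` its largest element. -/
lemma exists_tile_list {a A low : ℝ} (hA : 1 ≤ A) (ha : A ≤ a) (n : ℕ) :
    ∀ (Q : Finset ℝ) (top : ℝ), Q.card = n → top ∈ Q → (∀ q ∈ Q, q ≤ top) →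
      (∀ q ∈ Q, ∀ q' ∈ Q, q' < q → 2 * a + 2 * A ≤ q - q') →
      ∃ (L : List (ℝ × ℝ)) (lo : ℝ), L ≠ [] ∧ Seg L (top - a) lo ∧ lo ≤ low ∧
        (∀ p ∈ L, (p.1 ∈ Q ∧ p.2 = a) ∨
          (A / 2 ≤ p.2 ∧ p.2 ≤ A ∧ p.1 ≤ top - a ∧ ∀ q ∈ Q, a ≤ |p.1 - q|)) := by
  have hA0 : 0 < A := by linarith
  induction n using Nat.strong_induction_on with
  | _ n ih =>
    intro Q top hcard htop hmax hsep
    by_cases hQ' : Q.erase top = ∅
    · -- only `top`: fill below
      have hQ1 : ∀ q ∈ Q, q = top := by
        intro q hq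
        by_contra hne
        have : q ∈ Q.erase top := Finset.mem_erase.mpr ⟨hne, hq⟩
        rw [hQ'] at this
        simp at this
      obtain ⟨L, hL, hne, hp⟩ := exists_fill' hA0 (top - a) (min (top - a) low - 2 * A) (by
        have : min (top - a) low ≤ top - a := min_le_left _ _
        linarith)
      refine ⟨L, min (top - a) low - 2 * A, hne, hL, ?_, ?_⟩
      · have : min (top - a) low ≤ low := min_le_right _ _
        linarith
      · intro p hpm
        obtain ⟨h1, h2, h3, h4⟩ := hp p hpm
        right
        have h5 : p.1 ≤ top - a - p.2 := by linarith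
        refine ⟨h1, h2, by linarith, ?_⟩
        intro q hq
        rw [hQ1 q hq, abs_sub_comm]
        rw [abs_of_nonneg (by linarith)]
        linarith
    · -- next threshold
      have hne' : (Q.erase top).Nonempty := Finset.nonempty_iff_ne_empty.mpr hQ'
      set top' := (Q.erase top).max' hne' with htop'
      have htop'm : top' ∈ Q.erase top := Finset.max'_mem _ hne'
      have htop'Q : top' ∈ Q := Finset.mem_of_mem_erase htop'm
      have htop'ne : top' ≠ top := Finset.ne_of_mem_erase htop'm
      have hlt : top' < top := lt_of_le_of_ne (hmax _ htop'Q) htop'ne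
      have hgap := hsep top htop top' htop'Q hlt
      have hcard' : (Q.erase top).card < n := by
        rw [Finset.card_erase_of_mem htop, hcard]
        have : 0 < Q.card := Finset.card_pos.mpr ⟨top, htop⟩
        omega
      obtain ⟨L', lo, hne2, hL', hlo, hp'⟩ := ih _ hcard' (Q.erase top) top' rfl htop'm
        (fun q hq => Finset.le_max' _ _ hq)
        (fun q hq q' hq' h => hsep q (Finset.mem_of_mem_erase hq) q' (Finset.mem_of_mem_erase hq') h)
      obtain ⟨L, hL, hne, hp⟩ := exists_fill' hA0 (top - a) (top' + a) (by linarith)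
      refine ⟨L ++ ((top', a) :: L'), lo, by simp, ?_, hlo, ?_⟩
      · exact hL.append ⟨rfl, hL'⟩
      · intro p hpm
        simp only [List.mem_append, List.mem_cons] at hpm
        rcases hpm with hpm | rfl | hpm
        · obtain ⟨h1, h2, h3, h4⟩ := hp p hpm
          right
          have h5 : p.1 ≤ top - a - p.2 := by linarith
          refine ⟨h1, h2, by linarith, ?_⟩
          intro q hq
          rcases eq_or_ne q top with rfl | hqne
          · rw [abs_sub_comm, abs_of_nonneg (by linarith)]
            linarith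
          · have hq2 : q ≤ top' := Finset.le_max' _ _ (Finset.mem_erase.mpr ⟨hqne, hq⟩)
            rw [abs_of_nonneg (by linarith)]
            linarith
        · left
          exact ⟨htop'Q, rfl⟩
        · rcases hp' p hpm with ⟨h1, h2⟩ | ⟨h1, h2, h3, h4⟩
          · left
            exact ⟨Finset.mem_of_mem_erase h1, h2⟩
          · right
            refine ⟨h1, h2, by linarith, ?_⟩
            intro q hq
            rcases eq_or_ne q top with rfl | hqne
            · rw [abs_sub_comm, abs_of_nonneg (by linarith)]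
              linarith
            · exact h4 q (Finset.mem_erase.mpr ⟨hqne, hq⟩)

/-- A tile: indexed from the top. -/
structure Tile where
  m : ℕ
  t : ℕ → ℝ
  w : ℕ → ℝ

/-- Consecutive children meet. -/
def Tile.Chain (T : Tile) : Prop := ∀ k < T.m, T.t (k + 1) + T.w (k + 1) = T.t k - T.w k

lemma seg_get {L : List (ℝ × ℝ)} {hi lo : ℝ} (h : Seg L hi lo) :
    ∀ k, k + 1 < L.length →
      (L.getD (k + 1) (0, 0)).1 + (L.getD (k + 1) (0, 0)).2
        = (L.getD k (0, 0)).1 - (L.getD k (0, 0)).2 := by
  induction L generalizing hi with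
  | nil => intro k hk; simp at hk
  | cons p L ih =>
    intro k hk
    cases k with
    | zero =>
      cases L with
      | nil => simp at hk
      | cons p' L' =>
        simpa using h.2.1
    | succ k =>
      simp only [List.getD_cons_succ]
      exact ih h.2 k (by simpa using hk)

lemma seg_last {L : List (ℝ × ℝ)} {hi lo : ℝ} (h : Seg L hi lo) (hne : L ≠ []) :
    (L.getD (L.length - 1) (0, 0)).1 - (L.getD (L.length - 1) (0, 0)).2 = lo := by
  induction L generalizing hi with
  | nil => exact absurd rfl hne
  | cons p L ih =>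
    cases L with
    | nil =>
      have h2 : p.1 - p.2 = lo := h.2
      simpa using h2
    | cons p' L' =>
      have := ih h.2 (by simp)
      simpa using this

/-- The tile lemma. -/
theorem exists_tile {Q : Finset ℝ} {top a A low : ℝ} (hA : 1 ≤ A) (ha : A ≤ a) (htop : top ∈ Q)
    (hmax : ∀ q ∈ Q, q ≤ top) (hsep : ∀ q ∈ Q, ∀ q' ∈ Q, q' < q → 2 * a + 2 * A ≤ q - q') :
    ∃ T : Tile, 1 ≤ T.m ∧ T.t 0 = top ∧ T.w 0 = a ∧ T.Chain ∧
      (∀ k ≤ T.m, 1 / 2 ≤ T.w k) ∧
      (∀ k ≤ T.m, (T.t k ∈ Q ∧ T.w k = a) ∨
        (T.w k ≤ A ∧ T.t k ≤ top - a ∧ ∀ q ∈ Q, a ≤ |T.t k - q|)) ∧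
      T.t T.m - T.w T.m ≤ low := by
  obtain ⟨L, lo, hne, hL, hlo, hp⟩ := exists_tile_list (low := low) hA ha Q.card Q top rfl htop hmax hsep
  set L₀ : List (ℝ × ℝ) := (top, a) :: L with hL₀
  have hS : Seg L₀ (top + a) lo := ⟨rfl, hL⟩
  have hlen : 1 ≤ L.length := List.length_pos_iff.mpr hne
  refine ⟨⟨L.length, fun k => (L₀.getD k (0, 0)).1, fun k => (L₀.getD k (0, 0)).2⟩, hlen,
    by simp [hL₀], by simp [hL₀], ?_, ?_, ?_, ?_⟩
  · intro k hk
    have := seg_get hS k (by simp [hL₀]; omega)
    simpa using this
  · intro k hk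
    simp only at hk ⊢
    cases k with
    | zero => simp [hL₀]; linarith
    | succ k =>
      have hk' : k < L.length := by omega
      simp only [hL₀, List.getD_cons_succ]
      have hmem : L.getD k (0, 0) ∈ L := by
        rw [List.getD_eq_getElem _ _ hk']
        exact List.getElem_mem _
      rcases hp _ hmem with ⟨_, h2⟩ | ⟨h1, _⟩
      · rw [h2]; linarith
      · linarith
  · intro k hk
    simp only at hk ⊢
    cases k with
    | zero => left; simp [hL₀]; exact htop
    | succ k =>
      have hk' : k < L.length := by omega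
      simp only [hL₀, List.getD_cons_succ]
      have hmem : L.getD k (0, 0) ∈ L := by
        rw [List.getD_eq_getElem _ _ hk']
        exact List.getElem_mem _
      rcases hp _ hmem with h | ⟨_, h2, h3, h4⟩
      · left; exact h
      · right; exact ⟨h2, h3, h4⟩
  · have := seg_last hS (by simp [hL₀])
    have hl : L₀.length - 1 = L.length := by simp [hL₀]
    rw [hl] at this
    simp only
    rw [this]
    exact hlo

end Vale.Agent.Lib.P072.All
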