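import Vale.Agent.Lib.P072.All.Node

/-!
# States of the tree of slopes
-/

namespace Vale.Agent.Lib.P072.All

open Finset Real

variable {d : ℕ} (Y : Sys d)

/-- A state: the slopes so far, the amplitude and the accumulated constant (a function of the
scale). -/
structure St where
  ν : ℕ → ℝ
  A : ℝ
  C : ℝ → ℝ

/-- The tile at the root. -/
noncomputable def rootT : Tile :=
  if h : 0 < d then (exists_rootTile Y h).choose else ⟨0, fun _ => 0, fun _ => 0⟩

open scoped Classical in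
/-- The tile at a node. -/
noncomputable def tileOf (l : ℕ) (s : St) : Tile :=
  if l = 0 then rootT Y else
    if h : ∃ T, TileOK Y l s.ν s.A T then h.choose else ⟨0, fun _ => 0, fun _ => 0⟩

/-- The constant of the child `k` of a tile. -/
noncomputable def cval (T : Tile) (k : ℕ) (L : ℝ) : ℝ :=
  ∑ j ∈ range k, (T.t j - T.t (j + 1)) * exp (L * (T.t j - T.w j))

lemma cval_zero (T : Tile) (L : ℝ) : cval T 0 L = 0 := by simp [cval]

lemma cval_succ (T : Tile) (k : ℕ) (L : ℝ) :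
    cval T (k + 1) L = cval T k L + (T.t k - T.t (k + 1)) * exp (L * (T.t k - T.w k)) := by
  simp [cval, sum_range_succ]

/-- The child of a state. -/
noncomputable def child (l : ℕ) (s : St) (k : ℕ) : St :=
  ⟨Function.update s.ν l ((tileOf Y l s).t k), max s.A ((tileOf Y l s).w k),
    fun L => s.C L + cval (tileOf Y l s) k L⟩

/-- The descendants after `n` levels. -/
def desc : ℕ → ℕ → St → Set St
  | _, 0, s => {s}
  | l, n + 1, s => ⋃ k ∈ Set.Iic (tileOf Y l s).m, desc (l + 1) n (child Y l s k)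

lemma mem_desc_zero {l : ℕ} {s s' : St} : s' ∈ desc Y l 0 s ↔ s' = s := by
  simp [desc]

lemma mem_desc_succ {l n : ℕ} {s s' : St} :
    s' ∈ desc Y l (n + 1) s ↔ ∃ k ≤ (tileOf Y l s).m, s' ∈ desc Y (l + 1) n (child Y l s k) := by
  simp [desc]

lemma desc_finite (n : ℕ) : ∀ (l : ℕ) (s : St), (desc Y l n s).Finite := by
  induction n with
  | zero =>
    intro l s
    simp [desc]
  | succ n ih =>
    intro l s
    simp only [desc]
    exact Set.Finite.biUnion (Set.finite_Iic _) (fun k _ => ih (l + 1) (child Y l s k))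

lemma desc_nonempty (n : ℕ) : ∀ (l : ℕ) (s : St), (desc Y l n s).Nonempty := by
  induction n with
  | zero =>
    intro l s
    simp [desc]
  | succ n ih =>
    intro l s
    obtain ⟨s', hs'⟩ := ih (l + 1) (child Y l s 0)
    exact ⟨s', (mem_desc_succ Y).mpr ⟨0, Nat.zero_le _, hs'⟩⟩

lemma desc_trans (n₁ : ℕ) : ∀ {l n₂ : ℕ} {s₀ s₁ s₂ : St}, s₁ ∈ desc Y l n₁ s₀ →
    s₂ ∈ desc Y (l + n₁) n₂ s₁ → s₂ ∈ desc Y l (n₁ + n₂) s₀ := by
  induction n₁ with
  | zero =>
    intro l n₂ s₀ s₁ s₂ h1 h2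
    rw [mem_desc_zero] at h1
    subst h1
    simpa using h2
  | succ n₁ ih =>
    intro l n₂ s₀ s₁ s₂ h1 h2
    obtain ⟨k, hk, h3⟩ := (mem_desc_succ Y).mp h1
    have h4 : n₁ + 1 + n₂ = (n₁ + n₂) + 1 := by omega
    rw [h4]
    refine (mem_desc_succ Y).mpr ⟨k, hk, ?_⟩
    apply ih h3
    have h5 : l + 1 + n₁ = l + (n₁ + 1) := by omega
    rw [h5]
    exact h2

lemma desc_split (n₁ : ℕ) : ∀ {l n₂ : ℕ} {s₀ s₂ : St}, s₂ ∈ desc Y l (n₁ + n₂) s₀ →
    ∃ s₁ ∈ desc Y l n₁ s₀, s₂ ∈ desc Y (l + n₁) n₂ s₁ := by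
  induction n₁ with
  | zero =>
    intro l n₂ s₀ s₂ h
    exact ⟨s₀, (mem_desc_zero Y).mpr rfl, by simpa using h⟩
  | succ n₁ ih =>
    intro l n₂ s₀ s₂ h
    have h4 : n₁ + 1 + n₂ = (n₁ + n₂) + 1 := by omega
    rw [h4] at h
    obtain ⟨k, hk, h3⟩ := (mem_desc_succ Y).mp h
    obtain ⟨s₁, h5, h6⟩ := ih h3
    refine ⟨s₁, (mem_desc_succ Y).mpr ⟨k, hk, h5⟩, ?_⟩
    have h7 : l + (n₁ + 1) = l + 1 + n₁ := by omega
    rw [h7]
    exact h6

lemma desc_ν (n : ℕ) : ∀ {l : ℕ} {s s' : St}, s' ∈ desc Y l n s → ∀ i < l, s'.ν i = s.ν i := by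
  induction n with
  | zero =>
    intro l s s' h i _
    rw [mem_desc_zero] at h
    rw [h]
  | succ n ih =>
    intro l s s' h i hi
    obtain ⟨k, _, h3⟩ := (mem_desc_succ Y).mp h
    rw [ih h3 i (by omega)]
    simp only [child]
    exact Function.update_of_ne hi.ne _ _

lemma desc_A (n : ℕ) : ∀ {l : ℕ} {s s' : St}, s' ∈ desc Y l n s → s.A ≤ s'.A := by
  induction n with
  | zero =>
    intro l s s' h
    rw [mem_desc_zero] at h
    rw [h]
  | succ n ih =>
    intro l s s' h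
    obtain ⟨k, _, h3⟩ := (mem_desc_succ Y).mp h
    exact le_trans (le_max_left _ _) (ih h3)

/-- The root state. -/
def rootSt : St := ⟨fun _ => 0, 1, fun _ => 0⟩

/-- Reachable states at level `l`. -/
def Rch (l : ℕ) (s : St) : Prop := s ∈ desc Y 0 l rootSt

lemma Rch_child {l : ℕ} {s : St} (h : Rch Y l s) {k : ℕ} (hk : k ≤ (tileOf Y l s).m) :
    Rch Y (l + 1) (child Y l s k) := by
  have h1 : child Y l s k ∈ desc Y (0 + l) 1 s := by
    rw [zero_add]
    exact (mem_desc_succ Y).mpr ⟨k, hk, (mem_desc_zero Y).mpr rfl⟩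
  exact desc_trans Y l h h1

lemma Rch_desc {l n : ℕ} {s s' : St} (h : Rch Y l s) (h' : s' ∈ desc Y l n s) :
    Rch Y (l + n) s' := by
  apply desc_trans Y l h
  simpa using h'

/-- The invariant of reachable states. -/
lemma Rch_inv : ∀ (l : ℕ) (s : St), l ≤ d → Rch Y l s → Clean Y l s.ν s.A ∧ 1 ≤ s.A := by
  intro l
  induction l with
  | zero =>
    intro s _ h
    have h1 : s = rootSt := (mem_desc_zero Y).mp h
    subst h1
    refine ⟨?_, le_refl _⟩
    intro u _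
    left
    simp [zz]
  | succ l ih =>
    intro s hl h
    have h1 : s ∈ desc Y 0 (l + 1) rootSt := h
    obtain ⟨s₁, h2, h3⟩ := desc_split Y l (n₂ := 1) h1
    obtain ⟨k, hk, h4⟩ := (mem_desc_succ Y).mp h3
    rw [mem_desc_zero] at h4
    subst h4
    obtain ⟨hC, hA⟩ := ih s₁ (by omega) h2
    have hl' : l < d := by omega
    simp only [zero_add] at hk ⊢
    refine ⟨?_, le_trans hA (le_max_left _ _)⟩
    simp only [child]
    rcases Nat.eq_zero_or_pos l with rfl | hlpos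
    · have hT : tileOf Y 0 s₁ = rootT Y := by simp [tileOf]
      rw [hT] at hk ⊢
      have hs : s₁ = rootSt := (mem_desc_zero Y).mp h2
      subst hs
      have hr : rootT Y = (exists_rootTile Y hl').choose := by simp [rootT, hl']
      rw [hr] at hk ⊢
      obtain ⟨_, _, _, _, _, _, _, h8, _⟩ := (exists_rootTile Y hl').choose_spec
      exact h8 k hk _
    · have hT0 : ∃ T, TileOK Y l s₁.ν s₁.A T := exists_tileOK Y hlpos hl' hA hC
      have hT : tileOf Y l s₁ = hT0.choose := by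
        have : l ≠ 0 := by omega
        simp [tileOf, this, hT0]
      rw [hT] at hk ⊢
      exact hT0.choose_spec.clean k hk

/-- The tile at a reachable state with `1 ≤ l`. -/
lemma tile_spec {l : ℕ} {s : St} (hl1 : 1 ≤ l) (hl : l < d) (h : Rch Y l s) :
    TileOK Y l s.ν s.A (tileOf Y l s) := by
  obtain ⟨hC, hA⟩ := Rch_inv Y l s hl.le h
  have hT0 : ∃ T, TileOK Y l s.ν s.A T := exists_tileOK Y hl1 hl hA hC
  have hT : tileOf Y l s = hT0.choose := by
    have : l ≠ 0 := by omega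
    simp [tileOf, this, hT0]
  rw [hT]
  exact hT0.choose_spec

/-- The tile at the root. -/
lemma root_spec (hd : 0 < d) :
    2 ≤ (rootT Y).m ∧ (rootT Y).t 0 = Y.K 0 + 1 ∧ (rootT Y).w 0 = 1 ∧ (rootT Y).t 1 = 0 ∧
      (rootT Y).w 1 = Y.K 0 ∧ (rootT Y).Chain ∧
      (∀ k ≤ (rootT Y).m, 1 / 2 ≤ (rootT Y).w k) ∧
      (rootT Y).t (rootT Y).m - (rootT Y).w (rootT Y).m ≤ -bstar Y := by
  have hr : rootT Y = (exists_rootTile Y hd).choose := by simp [rootT, hd]
  rw [hr]
  obtain ⟨h1, h2, h3, h4, h5, h6, h7, _, h9⟩ := (exists_rootTile Y hd).choose_spec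
  exact ⟨h1, h2, h3, h4, h5, h6, h7, h9⟩

/-- Common facts on the tile at a reachable state. -/
lemma tile_chain {l : ℕ} {s : St} (hl : l < d) (h : Rch Y l s) :
    (tileOf Y l s).Chain ∧ (∀ k ≤ (tileOf Y l s).m, 1 / 2 ≤ (tileOf Y l s).w k) ∧
      (tileOf Y l s).t (tileOf Y l s).m - (tileOf Y l s).w (tileOf Y l s).m ≤ -bstar Y := by
  rcases Nat.eq_zero_or_pos l with rfl | hl1
  · have hT : tileOf Y 0 s = rootT Y := by simp [tileOf]
    rw [hT]
    obtain ⟨_, _, _, _, _, h6, h7, h8⟩ := root_spec Y hl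
    exact ⟨h6, h7, h8⟩
  · have := tile_spec Y hl1 hl h
    exact ⟨this.chain, this.w_half, this.bot⟩

/-! ### Elementary facts on tiles -/

section TileFacts

variable {T : Tile}

lemma Tile.step (hc : T.Chain) (hw : ∀ k ≤ T.m, 1 / 2 ≤ T.w k) {k : ℕ} (hk : k < T.m) :
    T.t k - T.t (k + 1) = T.w k + T.w (k + 1) := by
  have := hc k hk
  linarith

lemma Tile.step_ge (hc : T.Chain) (hw : ∀ k ≤ T.m, 1 / 2 ≤ T.w k) {k : ℕ} (hk : k < T.m) :
    1 ≤ T.t k - T.t (k + 1) := by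
  rw [T.step hc hw hk]
  have h1 := hw k hk.le
  have h2 := hw (k + 1) hk
  linarith

lemma Tile.t_anti (hc : T.Chain) (hw : ∀ k ≤ T.m, 1 / 2 ≤ T.w k) {j k : ℕ} (hjk : j ≤ k)
    (hk : k ≤ T.m) : T.t k ≤ T.t j := by
  induction k, hjk using Nat.le_induction with
  | base => exact le_refl _
  | succ k hjk ih =>
    have h1 := T.step_ge hc hw (k := k) (by omega)
    have h2 := ih (by omega)
    linarith

lemma Tile.Y_anti (hc : T.Chain) (hw : ∀ k ≤ T.m, 1 / 2 ≤ T.w k) {j k : ℕ} (hjk : j ≤ k)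
    (hk : k ≤ T.m) : T.t k - T.w k ≤ T.t j - T.w j := by
  induction k, hjk using Nat.le_induction with
  | base => exact le_refl _
  | succ k hjk ih =>
    have h1 := hc k (by omega)
    have h2 := hw (k + 1) hk
    have h3 := ih (by omega)
    linarith

/-- Telescoping bound for the constants. -/
lemma Tile.cval_diff (hc : T.Chain) (hw : ∀ k ≤ T.m, 1 / 2 ≤ T.w k) {L : ℝ} (hL : 0 ≤ L) {j k : ℕ}
    (hjk : j ≤ k) (hk : k ≤ T.m) :
    cval T k L - cval T j L ≤ (T.t j - T.t k) * exp (L * (T.t j - T.w j)) := by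
  induction k, hjk using Nat.le_induction with
  | base => simp
  | succ k hjk ih =>
    have h1 := ih (by omega)
    rw [cval_succ]
    have h2 := T.Y_anti hc hw hjk (by omega : k ≤ T.m)
    have h3 : exp (L * (T.t k - T.w k)) ≤ exp (L * (T.t j - T.w j)) :=
      exp_le_exp.mpr (mul_le_mul_of_nonneg_left h2 hL)
    have h4 := T.step_ge hc hw (k := k) (by omega)
    have h5 : (T.t k - T.t (k + 1)) * exp (L * (T.t k - T.w k))
        ≤ (T.t k - T.t (k + 1)) * exp (L * (T.t j - T.w j)) :=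
      mul_le_mul_of_nonneg_left h3 (by linarith)
    nlinarith

/-- The value of a child is controlled by the top child. -/
lemma Tile.val_bound (hc : T.Chain) (hw : ∀ k ≤ T.m, 1 / 2 ≤ T.w k) {L z : ℝ} (hL : 0 ≤ L)
    (hz : 0 ≤ z) {k : ℕ} (hk : k ≤ T.m) :
    T.t k * z + cval T k L ≤ T.t 0 * z + (T.t 0 - T.t k) * exp (L * (T.t 0 - T.w 0)) := by
  have h1 := T.cval_diff hc hw hL (Nat.zero_le k) hk
  rw [cval_zero] at h1
  have h2 := T.t_anti hc hw (Nat.zero_le k) hk
  nlinarith [mul_nonneg (sub_nonneg.mpr h2) hz]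

end TileFacts

end Vale.Agent.Lib.P072.All
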