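import Vale.Agent.Lib.P072.All.Tree

/-!
# The value of a path and the two-sided bounds at a maximizer
-/

namespace Vale.Agent.Lib.P072.All

open Finset Real

variable {d : ℕ} (Y : Sys d)

/-- A bound for the slope ranges of the tree. -/
def SlopeBd (S : ℝ) : Prop :=
  0 ≤ S ∧ ∀ l < d, ∀ s, Rch Y l s → ∀ k ≤ (tileOf Y l s).m,
    (tileOf Y l s).t 0 - (tileOf Y l s).t k ≤ S

/-- There is a bound for the slope ranges. -/
lemma exists_slopeBd : ∃ S, SlopeBd Y S := by
  have h1 : ∀ l : ℕ, ∃ b : ℝ, ∀ s, Rch Y l s →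
      (tileOf Y l s).t 0 - (tileOf Y l s).t (tileOf Y l s).m ≤ b := by
    intro l
    have hfin : (desc Y 0 l rootSt).Finite := desc_finite Y l 0 rootSt
    obtain ⟨b, hb⟩ := (hfin.image (fun s => (tileOf Y l s).t 0 - (tileOf Y l s).t (tileOf Y l s).m)).bddAbove
    exact ⟨b, fun s hs => hb ⟨s, hs, rfl⟩⟩
  choose b hb using h1
  refine ⟨∑ l ∈ range d, |b l|, sum_nonneg (fun _ _ => abs_nonneg _), ?_⟩
  intro l hl s hs k hk
  obtain ⟨hc, hw, _⟩ := tile_chain Y hl hs
  have h2 := Tile.t_anti hc hw hk le_rfl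
  have h3 := hb l s hs
  have h4 : |b l| ≤ ∑ l ∈ range d, |b l| :=
    single_le_sum (f := fun l => |b l|) (fun _ _ => abs_nonneg _) (mem_range.mpr hl)
  have h5 := le_abs_self (b l)
  linarith

variable {Y}

lemma sum_Ico_split (f : ℕ → ℝ) {l n : ℕ} (h : l < n) :
    ∑ i ∈ Ico l n, f i = f l + ∑ i ∈ Ico (l + 1) n, f i :=
  sum_eq_sum_Ico_succ_bot h f

/-- Lemma A: all completions of a state are controlled by the top chain. -/
lemma completion {S L : ℝ} (hS : SlopeBd Y S) (hL : 0 ≤ L) {x : ℕ → ℝ}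
    (hx : ∀ i < d, 0 ≤ x i) (n : ℕ) :
    ∀ (l : ℕ) (s s' : St), 1 ≤ l → l + n = d → Rch Y l s → s' ∈ desc Y l n s →
      ∑ i ∈ Ico l d, s'.ν i * x i + s'.C L ≤
        s.C L + s.ν (l - 1) * ∑ i ∈ Ico l d, x i
          + n * S * exp (L * (s.ν (l - 1) - 3 * s.A)) := by
  induction n with
  | zero =>
    intro l s s' _ hn _ h
    rw [mem_desc_zero] at h
    subst h
    have : l = d := by omega
    subst this
    simp
  | succ n ih =>
    intro l s s' hl1 hn hR h
    obtain ⟨k, hk, h3⟩ := (mem_desc_succ Y).mp h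
    have hld : l < d := by omega
    have hspec := tile_spec Y hl1 hld hR
    set T := tileOf Y l s with hT
    have hc := hspec.chain
    have hw := hspec.w_half
    set c := child Y l s k with hcdef
    have hRc : Rch Y (l + 1) c := Rch_child Y hR hk
    have hIH := ih (l + 1) c s' (by omega) (by omega) hRc h3
    have hl' : l + 1 - 1 = l := by omega
    rw [hl'] at hIH
    have hcν : c.ν l = T.t k := by simp [hcdef, child, ← hT]
    have hcA : s.A ≤ c.A := le_max_left _ _
    have hcC : c.C L = s.C L + cval T k L := by simp [hcdef, child, ← hT]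
    rw [hcν, hcC] at hIH
    have hs'l : s'.ν l = T.t k := by
      rw [desc_ν Y n h3 l (by omega), hcν]
    rw [sum_Ico_split _ hld, sum_Ico_split _ hld, hs'l]
    have hxl := hx l hld
    have hval := T.val_bound hc hw hL hxl hk
    rw [hspec.t_zero, hspec.w_zero] at hval
    have htop : T.t k ≤ s.ν (l - 1) := by
      have := T.t_anti hc hw (Nat.zero_le k) hk
      rwa [hspec.t_zero] at this
    have hsum0 : 0 ≤ ∑ i ∈ Ico (l + 1) d, x i := by
      apply sum_nonneg
      intro i hi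
      exact hx i (mem_Ico.mp hi).2
    have hSb := hS.2 l hld s hR k hk
    rw [← hT, hspec.t_zero] at hSb
    have hA1 := (Rch_inv Y l s hld.le hR).2
    have hK := Y.K_three l hld
    have hAK : 3 * s.A ≤ Y.K l * s.A := mul_le_mul_of_nonneg_right hK (by linarith)
    have he1 : exp (L * (s.ν (l - 1) - Y.K l * s.A)) ≤ exp (L * (s.ν (l - 1) - 3 * s.A)) :=
      exp_le_exp.mpr (mul_le_mul_of_nonneg_left (by linarith) hL)
    have he2 : exp (L * (T.t k - 3 * c.A)) ≤ exp (L * (s.ν (l - 1) - 3 * s.A)) :=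
      exp_le_exp.mpr (mul_le_mul_of_nonneg_left (by linarith) hL)
    have hS0 := hS.1
    have h5 : (s.ν (l - 1) - T.t k) * exp (L * (s.ν (l - 1) - Y.K l * s.A))
        ≤ S * exp (L * (s.ν (l - 1) - 3 * s.A)) :=
      mul_le_mul hSb he1 (exp_pos _).le hS0
    have h6 : (n : ℝ) * S * exp (L * (T.t k - 3 * c.A))
        ≤ n * S * exp (L * (s.ν (l - 1) - 3 * s.A)) :=
      mul_le_mul_of_nonneg_left he2 (by positivity)
    have h7 : T.t k * ∑ i ∈ Ico (l + 1) d, x i ≤ s.ν (l - 1) * ∑ i ∈ Ico (l + 1) d, x i :=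
      mul_le_mul_of_nonneg_right htop hsum0
    push_cast
    nlinarith

/-- The top chain from a state. -/
lemma topChain (n : ℕ) :
    ∀ (l : ℕ) (c : St), 1 ≤ l → l + n = d → Rch Y l c →
      ∃ s'' ∈ desc Y l n c, s''.C = c.C ∧ (∀ i < l, s''.ν i = c.ν i) ∧
        ∀ i, l ≤ i → i < d → s''.ν i = c.ν (l - 1) := by
  induction n with
  | zero =>
    intro l c _ hn _
    refine ⟨c, (mem_desc_zero Y).mpr rfl, rfl, fun _ _ => rfl, ?_⟩
    intro i hi hi'
    omega
  | succ n ih =>
    intro l c hl1 hn hR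
    have hld : l < d := by omega
    have hspec := tile_spec Y hl1 hld hR
    have hk0 : 0 ≤ (tileOf Y l c).m := Nat.zero_le _
    have hRc := Rch_child Y hR hk0
    obtain ⟨s'', h1, h2, h3, h4⟩ := ih (l + 1) (child Y l c 0) (by omega) (by omega) hRc
    have hcν : (child Y l c 0).ν l = c.ν (l - 1) := by
      simp [child, hspec.t_zero]
    refine ⟨s'', (mem_desc_succ Y).mpr ⟨0, hk0, h1⟩, ?_, ?_, ?_⟩
    · rw [h2]
      funext L
      simp [child, cval_zero]
    · intro i hi
      rw [h3 i (by omega)]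
      simp only [child]
      exact Function.update_of_ne hi.ne _ _
    · intro i hi hi'
      rcases eq_or_lt_of_le hi with rfl | hi2
      · rw [h3 l (by omega), hcν]
      · rw [h4 i hi2 hi']
        have : l + 1 - 1 = l := by omega
        rw [this, hcν]

/-- The set of full paths. -/
def Paths (Y : Sys d) : Set St := desc Y 0 d rootSt

lemma paths_finite : (Paths Y).Finite := desc_finite Y d 0 rootSt

lemma paths_nonempty : (Paths Y).Nonempty := desc_nonempty Y d 0 rootSt

/-- The value of a path. -/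
noncomputable def V (d : ℕ) (L : ℝ) (x : ℕ → ℝ) (s : St) : ℝ :=
  ∑ i ∈ range d, s.ν i * x i + s.C L

lemma sum_range_split (f : ℕ → ℝ) {l n : ℕ} (h : l ≤ n) :
    ∑ i ∈ range n, f i = ∑ i ∈ range l, f i + ∑ i ∈ Ico l n, f i := by
  rw [range_eq_Ico, range_eq_Ico]
  exact (sum_Ico_consecutive f (Nat.zero_le l) h).symm

/-- The comparison of a maximizer with a neighbor child followed by the top chain. -/
lemma compare {S L : ℝ} (hS : SlopeBd Y S) (hL : 0 ≤ L) {x : ℕ → ℝ} (hx : ∀ i < d, 0 ≤ x i)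
    {l : ℕ} (hld : l < d) {s s' : St} (hR : Rch Y l s) {k k' : ℕ} (hk : k ≤ (tileOf Y l s).m)
    (hk' : k' ≤ (tileOf Y l s).m)
    (hs' : s' ∈ desc Y (l + 1) (d - l - 1) (child Y l s k))
    (hmax : ∀ s'' ∈ Paths Y, V d L x s'' ≤ V d L x s') :
    (tileOf Y l s).t k' * ∑ i ∈ Ico l d, x i + cval (tileOf Y l s) k' L ≤
      (tileOf Y l s).t k * ∑ i ∈ Ico l d, x i + cval (tileOf Y l s) k L
        + (d - l - 1 : ℕ) * S * exp (L * ((tileOf Y l s).t k - 3 * (child Y l s k).A)) := by
  set T := tileOf Y l s with hT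
  set c := child Y l s k with hcdef
  set c' := child Y l s k' with hc'def
  have hRc : Rch Y (l + 1) c := Rch_child Y hR hk
  have hRc' : Rch Y (l + 1) c' := Rch_child Y hR hk'
  obtain ⟨s'', h1, h2, h3, h4⟩ := topChain (Y := Y) (d - l - 1) (l + 1) c' (by omega) (by omega) hRc'
  have hl' : l + 1 - 1 = l := by omega
  rw [hl'] at h4
  have hc'ν : c'.ν l = T.t k' := by simp [hc'def, child, ← hT]
  have hcν : c.ν l = T.t k := by simp [hcdef, child, ← hT]
  have hmem : s'' ∈ Paths Y := by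
    have : d = l + 1 + (d - l - 1) := by omega
    have h5 := Rch_desc Y hRc' h1
    rw [← this] at h5
    exact h5
  have h6 := hmax s'' hmem
  unfold V at h6
  rw [sum_range_split _ hld.le, sum_range_split (fun i => s'.ν i * x i) hld.le] at h6
  have hpre : ∑ i ∈ range l, s''.ν i * x i = ∑ i ∈ range l, s'.ν i * x i := by
    apply sum_congr rfl
    intro i hi
    have hi' : i < l := mem_range.mp hi
    rw [h3 i (by omega), desc_ν Y _ hs' i (by omega)]
    simp only [hc'def, hcdef, child]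
    rw [Function.update_of_ne hi'.ne, Function.update_of_ne hi'.ne]
  rw [hpre] at h6
  have hval : ∑ i ∈ Ico l d, s''.ν i * x i = T.t k' * ∑ i ∈ Ico l d, x i := by
    rw [mul_sum]
    apply sum_congr rfl
    intro i hi
    obtain ⟨hi1, hi2⟩ := mem_Ico.mp hi
    rcases eq_or_lt_of_le hi1 with rfl | hi3
    · rw [h3 l (by omega), hc'ν]
    · rw [h4 i hi3 hi2, hc'ν]
  have hC'' : s''.C L = s.C L + cval T k' L := by
    rw [h2]
    simp [hc'def, child, ← hT]
  rw [hval, hC''] at h6
  have hA := completion hS hL hx (d - l - 1) (l + 1) c s' (by omega) (by omega) hRc hs'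
  rw [hl', hcν] at hA
  have hCc : c.C L = s.C L + cval T k L := by simp [hcdef, child, ← hT]
  rw [hCc] at hA
  rw [sum_Ico_split (fun i => s'.ν i * x i) hld] at h6
  have hs'l : s'.ν l = T.t k := by
    rw [desc_ν Y _ hs' l (by omega), hcν]
  rw [hs'l] at h6
  rw [sum_Ico_split x hld, mul_add]
  rw [sum_Ico_split x hld, mul_add] at h6
  nlinarith

/-- Upper bound for the tail sum at a maximizer (not at the top child). -/
lemma tail_up {S L : ℝ} (hS : SlopeBd Y S) (hL : 0 ≤ L) {x : ℕ → ℝ} (hx : ∀ i < d, 0 ≤ x i)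
    {l : ℕ} (hld : l < d) {s s' : St} (hR : Rch Y l s) {k : ℕ} (hk : k + 1 ≤ (tileOf Y l s).m)
    (hs' : s' ∈ desc Y (l + 1) (d - l - 1) (child Y l s (k + 1)))
    (hmax : ∀ s'' ∈ Paths Y, V d L x s'' ≤ V d L x s') :
    ∑ i ∈ Ico l d, x i ≤
      exp (L * ((tileOf Y l s).t (k + 1) + (tileOf Y l s).w (k + 1))) * (1 + d * S * exp (-L)) := by
  have h1 := compare hS hL hx hld hR hk (by omega : k ≤ (tileOf Y l s).m) hs' hmax
  obtain ⟨hc, hw, _⟩ := tile_chain Y hld hR
  set T := tileOf Y l s with hT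
  rw [cval_succ] at h1
  have hΔ := T.step_ge hc hw (k := k) (by omega)
  have hch := hc k (by omega)
  have hw1 := hw (k + 1) hk
  have hY : T.t k - T.w k = T.t (k + 1) + T.w (k + 1) := hch.symm
  rw [hY] at h1
  set σ := ∑ i ∈ Ico l d, x i with hσ
  set E := exp (L * (T.t (k + 1) + T.w (k + 1))) with hE
  have hEpos : 0 < E := exp_pos _
  have hcA : T.w (k + 1) ≤ (child Y l s (k + 1)).A := le_max_right _ _
  have he : exp (L * (T.t (k + 1) - 3 * (child Y l s (k + 1)).A)) ≤ E * exp (-L) := by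
    rw [hE, ← exp_add]
    apply exp_le_exp.mpr
    nlinarith
  have hS0 := hS.1
  have hn : ((d - l - 1 : ℕ) : ℝ) ≤ d := by
    have : d - l - 1 ≤ d := by omega
    exact_mod_cast this
  have hexp0 := exp_pos (-L)
  have h2 : ((d - l - 1 : ℕ) : ℝ) * S * exp (L * (T.t (k + 1) - 3 * (child Y l s (k + 1)).A))
      ≤ d * S * (E * exp (-L)) := by
    apply mul_le_mul (mul_le_mul_of_nonneg_right hn hS0) he (exp_pos _).le
    positivity
  -- conclude
  have h3 : (T.t k - T.t (k + 1)) * (σ - E) ≤ d * S * (E * exp (-L)) := by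
    nlinarith
  have h4 : 0 ≤ d * S * (E * exp (-L)) := by positivity
  have h5 : σ - E ≤ d * S * (E * exp (-L)) := by
    by_contra hcon
    push Not at hcon
    nlinarith
  nlinarith

/-- Lower bound for the tail sum at a maximizer (not at the last child). -/
lemma tail_down {S L : ℝ} (hS : SlopeBd Y S) (hL : 0 ≤ L) {x : ℕ → ℝ} (hx : ∀ i < d, 0 ≤ x i)
    {l : ℕ} (hld : l < d) {s s' : St} (hR : Rch Y l s) {k : ℕ} (hk : k < (tileOf Y l s).m)
    (hs' : s' ∈ desc Y (l + 1) (d - l - 1) (child Y l s k))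
    (hmax : ∀ s'' ∈ Paths Y, V d L x s'' ≤ V d L x s') :
    exp (L * ((tileOf Y l s).t k - (tileOf Y l s).w k)) * (1 - d * S * exp (-L)) ≤
      ∑ i ∈ Ico l d, x i := by
  have h1 := compare hS hL hx hld hR hk.le (by omega : k + 1 ≤ (tileOf Y l s).m) hs' hmax
  obtain ⟨hc, hw, _⟩ := tile_chain Y hld hR
  set T := tileOf Y l s with hT
  rw [cval_succ] at h1
  have hΔ := T.step_ge hc hw (k := k) hk
  have hw1 := hw k hk.le
  set σ := ∑ i ∈ Ico l d, x i with hσ
  set E := exp (L * (T.t k - T.w k)) with hE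
  have hEpos : 0 < E := exp_pos _
  have hcA : T.w k ≤ (child Y l s k).A := le_max_right _ _
  have he : exp (L * (T.t k - 3 * (child Y l s k).A)) ≤ E * exp (-L) := by
    rw [hE, ← exp_add]
    apply exp_le_exp.mpr
    nlinarith
  have hS0 := hS.1
  have hn : ((d - l - 1 : ℕ) : ℝ) ≤ d := by
    have : d - l - 1 ≤ d := by omega
    exact_mod_cast this
  have hexp0 := exp_pos (-L)
  have h2 : ((d - l - 1 : ℕ) : ℝ) * S * exp (L * (T.t k - 3 * (child Y l s k).A))
      ≤ d * S * (E * exp (-L)) := by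
    apply mul_le_mul (mul_le_mul_of_nonneg_right hn hS0) he (exp_pos _).le
    positivity
  have h3 : (T.t k - T.t (k + 1)) * (E - σ) ≤ d * S * (E * exp (-L)) := by
    nlinarith
  have h4 : 0 ≤ d * S * (E * exp (-L)) := by positivity
  have h5 : E - σ ≤ d * S * (E * exp (-L)) := by
    by_contra hcon
    push Not at hcon
    nlinarith
  nlinarith

end Vale.Agent.Lib.P072.All
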