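import Vale.Agent.Lib.P072.All.Box

/-!
# The zero chain, the two bounds and domination at a large scale
-/

namespace Vale.Agent.Lib.P072.All

open Finset Real

variable {d : ℕ} (Y : Sys d)

/-- The index of the zero slope in a tile. -/
def zidx : ℕ → ℕ
  | 0 => 1
  | _ + 1 => 0

/-- The chain of states with zero slopes. -/
noncomputable def zeroSt : ℕ → St
  | 0 => rootSt
  | l + 1 => child Y l (zeroSt l) (zidx l)

lemma zero_tile {l : ℕ} (hld : l < d) (hR : Rch Y l (zeroSt Y l))
    (hν : ∀ i, (zeroSt Y l).ν i = 0) :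
    (tileOf Y l (zeroSt Y l)).t (zidx l) = 0 ∧
      (tileOf Y l (zeroSt Y l)).w (zidx l) = Y.K l * (zeroSt Y l).A ∧
      zidx l + 1 ≤ (tileOf Y l (zeroSt Y l)).m := by
  rcases Nat.eq_zero_or_pos l with rfl | hl1
  · have hT : tileOf Y 0 (zeroSt Y 0) = rootT Y := by simp [tileOf]
    rw [hT]
    obtain ⟨h1, _, _, h4, h5, _⟩ := root_spec Y hld
    refine ⟨h4, ?_, h1⟩
    show (rootT Y).w 1 = Y.K 0 * 1
    rw [h5, mul_one]
  · obtain ⟨n, rfl⟩ : ∃ n, l = n + 1 := ⟨l - 1, by omega⟩
    have hspec := tile_spec Y hl1 hld hR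
    refine ⟨?_, hspec.w_zero, hspec.one_le_m⟩
    show (tileOf Y (n + 1) (zeroSt Y (n + 1))).t 0 = 0
    rw [hspec.t_zero]
    exact hν _

/-- Facts on the zero chain. -/
lemma zero_facts : ∀ l, l ≤ d → Rch Y l (zeroSt Y l) ∧ (∀ i, (zeroSt Y l).ν i = 0) ∧
    (zeroSt Y l).A = ∏ i ∈ range l, Y.K i := by
  intro l
  induction l with
  | zero =>
    intro _
    exact ⟨(mem_desc_zero Y).mpr rfl, fun _ => rfl, by simp [zeroSt, rootSt]⟩
  | succ l ih =>
    intro hl
    obtain ⟨hR, hν, hA⟩ := ih (by omega)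
    have hld : l < d := by omega
    obtain ⟨h1, h2, h3⟩ := zero_tile Y hld hR hν
    refine ⟨Rch_child Y hR (by omega), ?_, ?_⟩
    · intro i
      show Function.update (zeroSt Y l).ν l ((tileOf Y l (zeroSt Y l)).t (zidx l)) i = 0
      rw [h1]
      by_cases hi : i = l
      · subst hi
        simp
      · rw [Function.update_of_ne hi]
        exact hν i
    · show max (zeroSt Y l).A ((tileOf Y l (zeroSt Y l)).w (zidx l)) = _
      rw [h2, prod_range_succ, ← hA]
      have hA1 := (Rch_inv Y l _ hld.le hR).2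
      have hK := Y.K_three l hld
      rw [max_eq_right (by nlinarith)]
      ring

lemma zeroSt_C_succ (l : ℕ) (L : ℝ) :
    (zeroSt Y (l + 1)).C L = (zeroSt Y l).C L + cval (tileOf Y l (zeroSt Y l)) (zidx l) L := rfl

/-- The value of the zero chain. -/
lemma zero_C (hd : 0 < d) : ∀ l, 1 ≤ l → l ≤ d → ∀ L,
    (zeroSt Y l).C L = (Y.K 0 + 1) * exp (L * Y.K 0) := by
  intro l hl
  induction l, hl using Nat.le_induction with
  | base =>
    intro _ L
    rw [zeroSt_C_succ]
    have hT : tileOf Y 0 (zeroSt Y 0) = rootT Y := by simp [tileOf]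
    rw [hT]
    obtain ⟨_, h2, h3, h4, _⟩ := root_spec Y hd
    show (0 : ℝ) + cval (rootT Y) 1 L = _
    rw [zero_add, cval_succ, cval_zero, h2, h3, h4]
    have : Y.K 0 + 1 - 1 = Y.K 0 := by ring
    rw [this]
    ring
  | succ l hl ih =>
    intro hl' L
    rw [zeroSt_C_succ, ih (by omega) L]
    obtain ⟨n, rfl⟩ : ∃ n, l = n + 1 := ⟨l - 1, by omega⟩
    show _ + cval _ 0 L = _
    rw [cval_zero, add_zero]

variable {Y}

/-- Domination of the paths which pass through a zero state. -/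
lemma zero_dom_aux {S L m : ℝ} (hS : SlopeBd Y S) (hL : 1 ≤ L) {y : ℕ → ℝ} (hm0 : 0 < m)
    (hm : ∀ i < d, m ≤ y i) (h1 : (d + 1) * S * exp (-L) ≤ m) (n : ℕ) :
    ∀ l, 1 ≤ l → l + n = d → ∀ s' ∈ desc Y l n (zeroSt Y l),
      ∑ i ∈ Ico l d, s'.ν i * y i + s'.C L ≤ (zeroSt Y d).C L := by
  have hL0 : 0 ≤ L := by linarith
  have hx : ∀ i < d, 0 ≤ y i := fun i hi => hm0.le.trans (hm i hi)
  induction n with
  | zero =>
    intro l hl1 hn s' hs'
    rw [mem_desc_zero] at hs'
    subst hs'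
    have : l = d := by omega
    subst this
    simp
  | succ n ih =>
    intro l hl1 hn s' hs'
    obtain ⟨k, hk, h3⟩ := (mem_desc_succ Y).mp hs'
    have hld : l < d := by omega
    have hd : 0 < d := by omega
    obtain ⟨hR, hν, hA⟩ := zero_facts Y l hld.le
    obtain ⟨n', rfl⟩ : ∃ n', l = n' + 1 := ⟨l - 1, by omega⟩
    rw [sum_Ico_split _ hld]
    cases k with
    | zero =>
      have hc : child Y (n' + 1) (zeroSt Y (n' + 1)) 0 = zeroSt Y (n' + 1 + 1) := rfl
      rw [hc] at h3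
      have h4 := ih (n' + 1 + 1) (by omega) (by omega) s' h3
      have h5 : s'.ν (n' + 1) = 0 := by
        rw [desc_ν Y _ h3 (n' + 1) (by omega)]
        exact (zero_facts Y (n' + 1 + 1) (by omega)).2.1 _
      rw [h5, zero_mul, zero_add]
      exact h4
    | succ k =>
      have hspec := tile_spec Y (by omega) hld hR
      set T := tileOf Y (n' + 1) (zeroSt Y (n' + 1)) with hT
      have hc := hspec.chain
      have hw := hspec.w_half
      set c := child Y (n' + 1) (zeroSt Y (n' + 1)) (k + 1) with hcdef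
      have hRc : Rch Y (n' + 1 + 1) c := Rch_child Y hR hk
      have hA1 := (Rch_inv Y _ _ hld.le hR).2
      have hcomp := completion hS hL0 hx n (n' + 1 + 1) c s' (by omega) (by omega) hRc h3
      have hl' : n' + 1 + 1 - 1 = n' + 1 := rfl
      rw [hl'] at hcomp
      have hcν : c.ν (n' + 1) = T.t (k + 1) := by simp [hcdef, child, ← hT]
      have hcC : c.C L = (zeroSt Y (n' + 1)).C L + cval T (k + 1) L := by
        simp [hcdef, child, ← hT]
      have hcA : 1 ≤ c.A := hA1.trans (le_max_left _ _)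
      rw [hcν, hcC] at hcomp
      have hs'l : s'.ν (n' + 1) = T.t (k + 1) := by
        rw [desc_ν Y _ h3 (n' + 1) (by omega), hcν]
      rw [hs'l]
      have ht0 : T.t 0 = 0 := by
        rw [hspec.t_zero]
        exact hν _
      have hw0 : 1 ≤ T.w 0 := by
        rw [hspec.w_zero]
        have hK := Y.K_three (n' + 1) hld
        nlinarith
      have ht : T.t (k + 1) ≤ -1 := by
        have h6 := T.step_ge hc hw (k := 0) (by omega)
        have h7 := T.t_anti hc hw (j := 1) (k := k + 1) (by omega) hk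
        rw [ht0] at h6
        simp only [zero_add] at h6
        linarith
      have hcv := T.cval_diff hc hw hL0 (j := 0) (k := k + 1) (Nat.zero_le _) hk
      rw [cval_zero, sub_zero, ht0] at hcv
      have hSb := hS.2 (n' + 1) hld _ hR (k + 1) hk
      rw [← hT, ht0] at hSb
      have hS0 := hS.1
      have he1 : exp (L * (0 - T.w 0)) ≤ exp (-L) :=
        exp_le_exp.mpr (by nlinarith)
      have hcv2 : cval T (k + 1) L ≤ S * exp (-L) :=
        hcv.trans (mul_le_mul hSb he1 (exp_pos _).le hS0)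
      have he2 : exp (L * (T.t (k + 1) - 3 * c.A)) ≤ exp (-L) :=
        exp_le_exp.mpr (by nlinarith)
      have hC : (zeroSt Y (n' + 1)).C L = (zeroSt Y d).C L := by
        rw [zero_C Y hd _ (by omega) hld.le, zero_C Y hd _ (by omega) le_rfl]
      rw [hC] at hcomp
      have hsum0 : 0 ≤ ∑ i ∈ Ico (n' + 1 + 1) d, y i :=
        sum_nonneg (fun i hi => hx i (mem_Ico.mp hi).2)
      have hyl := hm _ hld
      have h8 : T.t (k + 1) * ∑ i ∈ Ico (n' + 1 + 1) d, y i ≤ 0 :=
        mul_nonpos_of_nonpos_of_nonneg (by linarith) hsum0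
      have h9 : T.t (k + 1) * y (n' + 1) ≤ -m := by nlinarith
      have hnd : (n : ℝ) + 1 ≤ d + 1 := by
        have : n ≤ d := by omega
        have : (n : ℝ) ≤ d := by exact_mod_cast this
        linarith
      have hexp := exp_pos (-L)
      have h10 : (n : ℝ) * S * exp (L * (T.t (k + 1) - 3 * c.A)) ≤ n * S * exp (-L) :=
        mul_le_mul_of_nonneg_left he2 (by positivity)
      have h11 : ((n : ℝ) + 1) * S * exp (-L) ≤ (d + 1) * S * exp (-L) := by
        apply mul_le_mul_of_nonneg_right _ hexp.le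
        exact mul_le_mul_of_nonneg_right hnd hS0
      nlinarith

/-- Domination of all paths at a large scale. -/
theorem zero_dom {S L m σ₀ : ℝ} (hS : SlopeBd Y S) (hL : 1 ≤ L) {y : ℕ → ℝ} (hm0 : 0 < m)
    (hm : ∀ i < d, m ≤ y i) (hσ : ∑ i ∈ range d, y i ≤ σ₀)
    (h1 : (d + 1) * S * exp (-L) ≤ m)
    (h2 : 0 < d → (Y.K 0 + 1) * σ₀ + d * S * exp (L * (Y.K 0 - 2)) ≤ (Y.K 0 + 1) * exp (L * Y.K 0)) :
    ∀ s ∈ Paths Y, V d L y s ≤ (zeroSt Y d).C L := by
  intro s hs
  have hL0 : 0 ≤ L := by linarith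
  have hx : ∀ i < d, 0 ≤ y i := fun i hi => hm0.le.trans (hm i hi)
  rcases Nat.eq_zero_or_pos d with rfl | hd
  · have : s = rootSt := (mem_desc_zero Y).mp hs
    subst this
    simp [V, rootSt, zeroSt]
  have h3 : s ∈ desc Y 0 ((d - 1) + 1) rootSt := by
    rw [show (d - 1) + 1 = d by omega]
    exact hs
  obtain ⟨k, hk, h4⟩ := (mem_desc_succ Y).mp h3
  rw [zero_add] at h4
  have hT : tileOf Y 0 rootSt = rootT Y := by simp [tileOf]
  rw [hT] at hk
  have hR0 : Rch Y 0 rootSt := (mem_desc_zero Y).mpr rfl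
  obtain ⟨hm2, ht0, hw0, ht1, hw1, hc, hw, _⟩ := root_spec Y hd
  have hK := Y.K_three 0 hd
  unfold V
  rw [sum_range_split _ (show 1 ≤ d from hd), sum_range_one]
  -- the coordinate zero
  have hν0 : s.ν 0 = (rootT Y).t k := by
    rw [desc_ν Y _ h4 0 (by omega)]
    simp [child, hT]
  rw [hν0]
  have hcompl : ∀ k', k' ≤ (rootT Y).m → s ∈ desc Y 1 (d - 1) (child Y 0 rootSt k') →
      ∑ i ∈ Ico 1 d, s.ν i * y i + s.C L ≤ (0 + cval (rootT Y) k' L) + (rootT Y).t k' * ∑ i ∈ Ico 1 d, y i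
        + ((d - 1 : ℕ) : ℝ) * S * exp (L * ((rootT Y).t k' - 3 * max 1 ((rootT Y).w k'))) := by
    intro k' hk' hs'
    have hRc : Rch Y 1 (child Y 0 rootSt k') := by
      have := Rch_child Y hR0 (k := k') (by rw [hT]; exact hk')
      simpa using this
    have := completion hS hL0 hx (d - 1) 1 (child Y 0 rootSt k') s le_rfl (by omega) hRc hs'
    simp only [child, hT, Nat.sub_self, Function.update_self] at this
    exact this
  have hsum0 : 0 ≤ ∑ i ∈ Ico 1 d, y i := sum_nonneg (fun i hi => hx i (mem_Ico.mp hi).2)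
  have hV0 := zero_C Y hd d hd le_rfl L
  have hS0 := hS.1
  have hexp := exp_pos (-L)
  cases k with
  | zero =>
    have h5 := hcompl 0 (by omega) h4
    rw [cval_zero, ht0, hw0, max_self] at h5
    have h6 := h2 hd
    have h7 : (Y.K 0 + 1) * (y 0 + ∑ i ∈ Ico 1 d, y i) ≤ (Y.K 0 + 1) * σ₀ := by
      apply mul_le_mul_of_nonneg_left _ (by linarith)
      rw [sum_range_split y (show 1 ≤ d from hd), sum_range_one] at hσ
      exact hσ
    have h8 : exp (L * (Y.K 0 + 1 - 3 * 1)) = exp (L * (Y.K 0 - 2)) := by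
      congr 1
      ring
    rw [h8] at h5
    have h9 : ((d - 1 : ℕ) : ℝ) ≤ d := by
      have : d - 1 ≤ d := by omega
      exact_mod_cast this
    have h10 : ((d - 1 : ℕ) : ℝ) * S * exp (L * (Y.K 0 - 2)) ≤ d * S * exp (L * (Y.K 0 - 2)) := by
      apply mul_le_mul_of_nonneg_right _ (exp_pos _).le
      exact mul_le_mul_of_nonneg_right h9 hS0
    rw [hV0, ht0]
    nlinarith
  | succ k =>
    cases k with
    | zero =>
      have h5 : s ∈ desc Y (0 + 1) (d - 1) (zeroSt Y 1) := h4
      have h6 := zero_dom_aux hS hL hm0 hm h1 (d - 1) 1 le_rfl (by omega) s h5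
      simp only [zero_add] at ht1 ⊢
      rw [ht1, zero_mul, zero_add]
      exact h6
    | succ k =>
      have h5 := hcompl (k + 1 + 1) hk h4
      have ht : (rootT Y).t (k + 1 + 1) ≤ -1 := by
        have h6 := (rootT Y).step_ge hc hw (k := 1) (by omega)
        have h7 := (rootT Y).t_anti hc hw (j := 2) (k := k + 1 + 1) (by omega) hk
        simp only [Nat.reduceAdd] at h6
        rw [ht1] at h6
        linarith
      have hcv := (rootT Y).cval_diff hc hw hL0 (j := 1) (k := k + 1 + 1) (by omega) hk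
      rw [ht1, hw1] at hcv
      have hcv1 : cval (rootT Y) 1 L = (Y.K 0 + 1) * exp (L * Y.K 0) := by
        rw [cval_succ, cval_zero, ht0, hw0]
        simp only [zero_add]
        rw [ht1]
        have : Y.K 0 + 1 - 1 = Y.K 0 := by ring
        rw [this]
        ring
      rw [hcv1] at hcv
      have hSb := hS.2 0 hd rootSt hR0 (k + 1 + 1) (by rw [hT]; exact hk)
      rw [hT, ht0] at hSb
      have he1 : exp (L * (0 - Y.K 0)) ≤ exp (-L) :=
        exp_le_exp.mpr (by nlinarith)
      have hSb2 : 0 - (rootT Y).t (k + 1 + 1) ≤ S := by linarith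
      have hcv2 : (0 - (rootT Y).t (k + 1 + 1)) * exp (L * (0 - Y.K 0)) ≤ S * exp (-L) :=
        mul_le_mul hSb2 he1 (exp_pos _).le hS0
      have hcA : (1 : ℝ) ≤ max 1 ((rootT Y).w (k + 1 + 1)) := le_max_left _ _
      have he2 : exp (L * ((rootT Y).t (k + 1 + 1) - 3 * max 1 ((rootT Y).w (k + 1 + 1))))
          ≤ exp (-L) :=
        exp_le_exp.mpr (by nlinarith)
      have h8 : (rootT Y).t (k + 1 + 1) * ∑ i ∈ Ico 1 d, y i ≤ 0 :=
        mul_nonpos_of_nonpos_of_nonneg (by linarith) hsum0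
      have hy0 := hm 0 hd
      have h9 : (rootT Y).t (k + 1 + 1) * y 0 ≤ -m := by nlinarith
      have hnd : (((d - 1 : ℕ) : ℝ)) + 1 ≤ d + 1 := by
        have : d - 1 ≤ d := by omega
        have : ((d - 1 : ℕ) : ℝ) ≤ d := by exact_mod_cast this
        linarith
      have h10 : ((d - 1 : ℕ) : ℝ) * S *
          exp (L * ((rootT Y).t (k + 1 + 1) - 3 * max 1 ((rootT Y).w (k + 1 + 1))))
            ≤ ((d - 1 : ℕ) : ℝ) * S * exp (-L) :=
        mul_le_mul_of_nonneg_left he2 (by positivity)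
      have h11 : (((d - 1 : ℕ) : ℝ) + 1) * S * exp (-L) ≤ (d + 1) * S * exp (-L) := by
        apply mul_le_mul_of_nonneg_right _ hexp.le
        exact mul_le_mul_of_nonneg_right hnd hS0
      rw [hV0]
      nlinarith

/-- The lower bound on the last coordinate. -/
theorem lower_bound (hd : 0 < d) {L : ℝ} {y : ℕ → ℝ}
    (h : ∀ s ∈ Paths Y, V d L y s ≤ (zeroSt Y d).C L) : exp (-(L * bstar Y)) ≤ y (d - 1) := by
  have hl : d - 1 < d := by omega
  obtain ⟨hR, hν, hA⟩ := zero_facts Y (d - 1) hl.le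
  obtain ⟨h1, h2, h3⟩ := zero_tile Y hl hR hν
  obtain ⟨hc, hw, _⟩ := tile_chain Y hl hR
  set T := tileOf Y (d - 1) (zeroSt Y (d - 1)) with hT
  set z := zidx (d - 1) with hz
  set P := child Y (d - 1) (zeroSt Y (d - 1)) (z + 1) with hP
  have hPR : Rch Y (d - 1 + 1) P := Rch_child Y hR h3
  have hPmem : P ∈ Paths Y := by
    have : d - 1 + 1 = d := by omega
    rw [this] at hPR
    exact hPR
  have h4 := h P hPmem
  have hd1 : d - 1 + 1 = d := by omega
  have hZ : (zeroSt Y d).C L = (zeroSt Y (d - 1)).C L + cval T z L := by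
    have : (zeroSt Y (d - 1 + 1)).C L = (zeroSt Y d).C L := by rw [hd1]
    rw [← this]
    rfl
  have hPC : P.C L = (zeroSt Y (d - 1)).C L + cval T (z + 1) L := rfl
  have hstep := T.step hc hw (k := z) (by omega)
  have hΔ := T.step_ge hc hw (k := z) (by omega)
  rw [cval_succ, h1] at hPC
  have hsum : ∑ i ∈ range d, P.ν i * y i = T.t (z + 1) * y (d - 1) := by
    have hr : range d = range (d - 1 + 1) := by rw [hd1]
    rw [hr, sum_range_succ, sum_eq_zero, zero_add]
    · congr 1
      simp [hP, child, ← hT]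
    · intro i hi
      have hi' : i ≠ d - 1 := (mem_range.mp hi).ne
      have : P.ν i = (zeroSt Y (d - 1)).ν i := by
        simp only [hP, child]
        exact Function.update_of_ne hi' _ _
      rw [this, hν, zero_mul]
  unfold V at h4
  rw [hsum, hPC, hZ, h2, hA] at h4
  have hb : Y.K (d - 1) * ∏ i ∈ range (d - 1), Y.K i = bstar Y := by
    unfold bstar
    have hr : range d = range (d - 1 + 1) := by rw [hd1]
    rw [hr, prod_range_succ]
    ring
  rw [hb] at h4
  have h5 : (0 - T.t (z + 1)) * (exp (L * (0 - bstar Y)) - y (d - 1)) ≤ 0 := by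
    nlinarith
  rw [h1] at hΔ
  have h6 : exp (L * (0 - bstar Y)) - y (d - 1) ≤ 0 := by
    by_contra hcon
    push Not at hcon
    nlinarith
  have h7 : L * (0 - bstar Y) = -(L * bstar Y) := by ring
  rw [h7] at h6
  linarith

/-- The upper bound. -/
theorem upper_bound (hd : 0 < d) {L : ℝ} {y : ℕ → ℝ} (hy : ∀ i < d, 0 ≤ y i)
    (h : ∀ s ∈ Paths Y, V d L y s ≤ (zeroSt Y d).C L) : ∀ i < d, y i ≤ exp (L * Y.K 0) := by
  intro i hi
  have hR0 : Rch Y 0 rootSt := (mem_desc_zero Y).mpr rfl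
  have hT : tileOf Y 0 rootSt = rootT Y := by simp [tileOf]
  obtain ⟨hm2, ht0, hw0, ht1, hw1, hc, hw, _⟩ := root_spec Y hd
  have hK := Y.K_three 0 hd
  set c := child Y 0 rootSt 0 with hcdef
  have hRc : Rch Y 1 c := by
    have := Rch_child Y hR0 (k := 0) (Nat.zero_le _)
    simpa using this
  obtain ⟨s'', h1, h2, h3, h4⟩ := topChain (Y := Y) (d - 1) 1 c le_rfl (by omega) hRc
  have hmem : s'' ∈ Paths Y := by
    have h5 := Rch_desc Y hRc h1
    rw [show 1 + (d - 1) = d by omega] at h5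
    exact h5
  have h5 := h s'' hmem
  have hcν : c.ν 0 = Y.K 0 + 1 := by
    simp [hcdef, child, hT, ht0]
  have hcC : c.C L = 0 := by
    simp [hcdef, child, hT, cval_zero, rootSt]
  have hval : ∑ j ∈ range d, s''.ν j * y j = (Y.K 0 + 1) * ∑ j ∈ range d, y j := by
    rw [mul_sum]
    apply sum_congr rfl
    intro j hj
    have hj' := mem_range.mp hj
    rcases Nat.eq_zero_or_pos j with rfl | hj1
    · rw [h3 0 (by omega), hcν]
    · have := h4 j hj1 hj'
      simp only [Nat.sub_self] at this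
      rw [this, hcν]
  unfold V at h5
  rw [hval, h2, hcC, add_zero, zero_C Y hd d hd le_rfl] at h5
  have h6 : ∑ j ∈ range d, y j ≤ exp (L * Y.K 0) := le_of_mul_le_mul_left h5 (by linarith)
  have h7 : y i ≤ ∑ j ∈ range d, y j :=
    single_le_sum (f := y) (fun j hj => hy j (mem_range.mp hj)) (mem_range.mpr hi)
  linarith

end Vale.Agent.Lib.P072.All
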